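import Vale.Agent.P171.Stmt

open MeasureTheory Set Filter Topology
open scoped ENNReal NNReal

namespace Vale.Agent.P171

/-- Half of the double sum of `w` over all ordered pairs (diagonal included). -/
noncomputable def H (w : E → E → ℝ) {ι : Type} [Fintype ι] (x : ι → E) : ℝ :=
  (∑ i, ∑ j, w (x i) (x j)) / 2

/-- Configuration integral over `A^ι`. -/
noncomputable def Q (w : E → E → ℝ) (A : Set E) (ι : Type) [Fintype ι] : ℝ≥0∞ :=
  ∫⁻ x in Set.univ.pi (fun _ : ι => A), ENNReal.ofReal (Real.exp (H w x))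

/-- Grand canonical sum over the region `A`. -/
noncomputable def Xi (w : E → E → ℝ) (A : Set E) (a : ℝ) : ℝ≥0∞ :=
  ∑' N : ℕ, ENNReal.ofReal (Real.exp (a * N) / (N.factorial : ℝ)) * Q w A (Fin N)

/-- Logarithm of the grand canonical sum. -/
noncomputable def lXi (w : E → E → ℝ) (A : Set E) (a : ℝ) : ℝ := Real.log (Xi w A a).toReal

/-- cell of the grid of side `h` shifted by `θ`. -/
noncomputable def cell (h : ℝ) (θ : Fin 3 → ℝ) (x : E) : Fin 3 → ℤ := fun α => ⌊(x α - θ α) / h⌋

open Classical in
/-- indicator that two points are in the same cell -/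
noncomputable def same (h : ℝ) (θ : Fin 3 → ℝ) (x y : E) : ℝ :=
  if cell h θ x = cell h θ y then 1 else 0

/-- normalised Gaussian of width `L` in dimension three, as a function of the distance -/
noncomputable def G (L r : ℝ) : ℝ :=
  ((Real.sqrt Real.pi * L)⁻¹) ^ 3 * Real.exp (-(r ^ 2 / L ^ 2))

end Vale.Agent.P171
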