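import Vale.Agent.P171.Basic

open MeasureTheory Set Filter Topology
open scoped ENNReal NNReal

namespace Vale.Agent.P171

theorem sum_sym_eq {N : ℕ} (g : Fin N → Fin N → ℝ) (hg : ∀ i j, g i j = g j i) :
    ∑ i, ∑ j, g i j = 2 * ∑ i, ∑ j ∈ Finset.Ioi i, g i j + ∑ i, g i i := by
  have h1 : ∀ i, ∑ j ∈ Finset.Ioi i, g i j = ∑ j, if i < j then g i j else 0 := by
    intro i
    rw [← Finset.sum_filter]
    congr 1
    ext j
    simp
  have h2 : ∀ i j : Fin N, g i j = (if i < j then g i j else 0) + (if j < i then g j i else 0) +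
      (if i = j then g i j else 0) := by
    intro i j
    rcases lt_trichotomy i j with h | h | h
    · simp [h, h.not_gt, h.ne]
    · simp [h]
    · simp [h, h.not_gt, h.ne', hg i j]
  have h3 : ∑ i, ∑ j, g i j = ∑ i, ∑ j, (if i < j then g i j else 0) +
      ∑ i, ∑ j, (if j < i then g j i else 0) + ∑ i, ∑ j, (if i = j then g i j else 0) := by
    rw [← Finset.sum_add_distrib, ← Finset.sum_add_distrib]
    refine Finset.sum_congr rfl fun i _ => ?_
    rw [← Finset.sum_add_distrib, ← Finset.sum_add_distrib]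
    exact Finset.sum_congr rfl fun j _ => h2 i j
  have h4 : ∑ i, ∑ j, (if j < i then g j i else 0) = ∑ i, ∑ j, (if i < j then g i j else 0) := by
    rw [Finset.sum_comm]
  rw [h3, h4]
  simp_rw [h1]
  simp
  ring

theorem energy_eq (φ : ℝ → ℝ) {N : ℕ} (x : Fin N → E) :
    energy φ x = -H (fun x y => -φ (dist x y)) x - N * φ 0 / 2 := by
  unfold energy H
  have h := sum_sym_eq (fun i j : Fin N => φ (dist (x i) (x j))) (fun i j => by rw [dist_comm])
  simp only [dist_self, Finset.sum_const, Finset.card_univ, Fintype.card_fin,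
    nsmul_eq_mul] at h
  simp_rw [Finset.sum_neg_distrib]
  rw [h]
  ring

end Vale.Agent.P171
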