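import Vale.Agent.P171.Basic

open MeasureTheory Set Filter Topology
open scoped ENNReal NNReal

namespace Vale.Agent.P171

theorem measurable_H {w : E → E → ℝ} (hw : Measurable (Function.uncurry w)) {ι : Type}
    [Fintype ι] : Measurable (fun x : ι → E => H w x) := by
  unfold H
  refine Measurable.div_const ?_ _
  refine Finset.measurable_sum _ fun i _ => Finset.measurable_sum _ fun j _ => ?_
  have h1 : Measurable (fun x : ι → E => (x i, x j)) :=
    (measurable_pi_apply i).prodMk (measurable_pi_apply j)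
  exact hw.comp h1

theorem measurable_expH {w : E → E → ℝ} (hw : Measurable (Function.uncurry w)) {ι : Type}
    [Fintype ι] : Measurable (fun x : ι → E => ENNReal.ofReal (Real.exp (H w x))) :=
  ENNReal.measurable_ofReal.comp (Real.measurable_exp.comp (measurable_H hw))

theorem measurableSet_conf {A : Set E} (hA : MeasurableSet A) (ι : Type) [Fintype ι] :
    MeasurableSet (Set.univ.pi (fun _ : ι => A)) :=
  MeasurableSet.univ_pi fun _ => hA

/-- Rewrite the grand canonical sum with the factor inside. -/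
theorem Xi_eq (w : E → E → ℝ) (A : Set E) (a : ℝ) :
    Xi w A a = ∑' N : ℕ, ENNReal.ofReal (1 / (N.factorial : ℝ)) *
      ∫⁻ x in Set.univ.pi (fun _ : Fin N => A), ENNReal.ofReal (Real.exp (H w x + a * N)) := by
  unfold Xi Q
  refine tsum_congr fun N => ?_
  have h1 : ENNReal.ofReal (Real.exp (a * N) / (N.factorial : ℝ)) =
      ENNReal.ofReal (1 / (N.factorial : ℝ)) * ENNReal.ofReal (Real.exp (a * N)) := by
    rw [← ENNReal.ofReal_mul (by positivity)]
    congr 1
    ring
  rw [h1, mul_assoc]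
  congr 1
  rw [← lintegral_const_mul' _ _ ENNReal.ofReal_ne_top]
  refine lintegral_congr fun x => ?_
  rw [← ENNReal.ofReal_mul (by positivity), ← Real.exp_add, add_comm]

theorem Xi_mono {w w' : E → E → ℝ} {A A' : Set E} {a a' : ℝ} (hAm : MeasurableSet A)
    (hA : A ⊆ A')
    (h : ∀ (N : ℕ) (x : Fin N → E), (∀ i, x i ∈ A) → H w x + a * N ≤ H w' x + a' * N) :
    Xi w A a ≤ Xi w' A' a' := by
  rw [Xi_eq, Xi_eq]
  refine ENNReal.tsum_le_tsum fun N => mul_le_mul_right ?_ _
  refine le_trans ?_ (lintegral_mono_set (Set.pi_mono fun i _ => hA))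
  refine setLIntegral_mono' (measurableSet_conf hAm _) fun x hx => ?_
  exact ENNReal.ofReal_le_ofReal (Real.exp_le_exp.2 (h N x fun i => hx i trivial))

theorem Q_fin_zero (w : E → E → ℝ) (A : Set E) : Q w A (Fin 0) = 1 := by
  unfold Q H
  simp [volume_pi]

theorem one_le_Xi (w : E → E → ℝ) (A : Set E) (a : ℝ) : 1 ≤ Xi w A a := by
  unfold Xi
  refine le_trans ?_ (ENNReal.le_tsum 0)
  simp [Q_fin_zero]

theorem Q_zero {A : Set E} (hfin : volume A ≠ ∞) (N : ℕ) :
    Q (fun _ _ => 0) A (Fin N) = ENNReal.ofReal ((volume A).toReal ^ N) := by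
  simp only [Q, H, Finset.sum_const_zero, zero_div, Real.exp_zero, ENNReal.ofReal_one,
      lintegral_const, one_mul, Measure.restrict_apply MeasurableSet.univ, Set.univ_inter]
  rw [volume_pi_pi]
  simp [ENNReal.ofReal_pow, ENNReal.ofReal_toReal hfin]

theorem Xi_zero_const {A : Set E} (hfin : volume A ≠ ∞) (a : ℝ) :
    Xi (fun _ _ => 0) A a = ENNReal.ofReal (Real.exp (Real.exp a * (volume A).toReal)) := by
  unfold Xi
  simp_rw [Q_zero hfin]
  have h2 : Real.exp (Real.exp a * (volume A).toReal) =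
      ∑' N : ℕ, (Real.exp a * (volume A).toReal) ^ N / (N.factorial : ℝ) := by
    rw [Real.exp_eq_exp_ℝ, NormedSpace.exp_eq_tsum_div]
  rw [h2, ENNReal.ofReal_tsum_of_nonneg]
  · refine tsum_congr fun N => ?_
    rw [← ENNReal.ofReal_mul (by positivity)]
    congr 1
    rw [mul_pow, ← Real.exp_nat_mul, mul_comm a N]
    ring
  · intro N
    positivity
  · exact NormedSpace.expSeries_div_summable _

/-- If the double sums are nonpositive the grand canonical sum is at most that of the ideal gas. -/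
theorem Xi_le_of_nonpos {w : E → E → ℝ} {A : Set E} (hA : MeasurableSet A) (hfin : volume A ≠ ∞)
    (a : ℝ) (h : ∀ (N : ℕ) (x : Fin N → E), (∀ i, x i ∈ A) → H w x ≤ 0) :
    Xi w A a ≤ ENNReal.ofReal (Real.exp (Real.exp a * (volume A).toReal)) := by
  rw [← Xi_zero_const hfin a]
  refine Xi_mono hA subset_rfl fun N x hx => ?_
  have : H (fun _ _ => (0 : ℝ)) x = 0 := by simp [H]
  rw [this]
  linarith [h N x hx]

theorem Q_translate (w : E → E → ℝ) (hinv : ∀ v x y : E, w (x + v) (y + v) = w x y)
    {A : Set E} (hA : MeasurableSet A) (v : E) (ι : Type) [Fintype ι] :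
    Q w ((fun x => x + v) '' A) ι = Q w A ι := by
  unfold Q
  have hA' : MeasurableSet ((fun x => x + v) '' A) :=
    (MeasurableEquiv.addRight v).measurableSet_image.2 hA
  rw [← lintegral_indicator (measurableSet_conf hA' ι), ← lintegral_indicator
    (measurableSet_conf hA ι)]
  rw [← lintegral_add_right_eq_self _ (fun _ : ι => v)]
  refine lintegral_congr fun x => ?_
  have hmem : (x + fun _ => v) ∈ Set.univ.pi (fun _ : ι => (fun x => x + v) '' A) ↔
      x ∈ Set.univ.pi (fun _ : ι => A) := by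
    simp only [Set.mem_univ_pi, Pi.add_apply]
    refine forall_congr' fun i => ?_
    constructor
    · rintro ⟨y, hy, hxy⟩
      have : y = x i := by simpa using hxy
      rwa [← this]
    · intro hx
      exact ⟨x i, hx, rfl⟩
  have hH : H w (x + fun _ => v) = H w x := by
    unfold H
    simp [hinv]
  by_cases hx : x ∈ Set.univ.pi (fun _ : ι => A)
  · rw [Set.indicator_of_mem hx, Set.indicator_of_mem (hmem.2 hx), hH]
  · rw [Set.indicator_of_notMem hx, Set.indicator_of_notMem (fun h => hx (hmem.1 h))]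

theorem Xi_translate (w : E → E → ℝ) (hinv : ∀ v x y : E, w (x + v) (y + v) = w x y)
    {A : Set E} (hA : MeasurableSet A) (v : E) (a : ℝ) :
    Xi w ((fun x => x + v) '' A) a = Xi w A a := by
  unfold Xi
  simp_rw [Q_translate w hinv hA v]

theorem measurable_of_sigma {α : Type} {β : α → Type} [∀ a, MeasurableSpace (β a)] {γ : Type}
    [MeasurableSpace γ] {f : (Σ a, β a) → γ} (h : ∀ a, Measurable (fun x : β a => f ⟨a, x⟩)) :
    Measurable f :=
  fun _ hs => MeasurableSpace.measurableSet_iInf.2 fun a => h a hs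

theorem measurable_sigma_mk {α : Type} {β : α → Type} [∀ a, MeasurableSpace (β a)] (a : α) :
    Measurable (Sigma.mk a : β a → Σ a, β a) :=
  fun _ hs => MeasurableSpace.measurableSet_iInf.1 hs a

/-- The configuration-space measure. -/
noncomputable def confMeas (A : Set E) : Measure (Σ N : ℕ, (Fin N → E)) :=
  Measure.sum fun N : ℕ => (ENNReal.ofReal (1 / (N.factorial : ℝ))) •
    (Measure.map (Sigma.mk N) ((volume : Measure (Fin N → E)).restrict
      (Set.univ.pi (fun _ : Fin N => A))))

theorem lintegral_confMeas (A : Set E) (f : (Σ N : ℕ, (Fin N → E)) → ℝ≥0∞)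
    (hf : Measurable f) :
    ∫⁻ p, f p ∂(confMeas A) = ∑' N : ℕ, ENNReal.ofReal (1 / (N.factorial : ℝ)) *
      ∫⁻ x in Set.univ.pi (fun _ : Fin N => A), f ⟨N, x⟩ := by
  unfold confMeas
  rw [lintegral_sum_measure]
  refine tsum_congr fun N => ?_
  rw [lintegral_smul_measure, lintegral_map hf (measurable_sigma_mk N)]
  rfl

theorem measurable_expH_sigma {w : E → E → ℝ} (hw : Measurable (Function.uncurry w)) (a : ℝ) :
    Measurable (fun p : (Σ N : ℕ, (Fin N → E)) =>
      ENNReal.ofReal (Real.exp (H w p.2 + a * p.1))) := by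
  refine ENNReal.measurable_ofReal.comp (Real.measurable_exp.comp ?_)
  refine measurable_of_sigma fun N => ?_
  exact (measurable_H (ι := Fin N) hw).add_const (a * (N : ℝ))

/-- Hoelder inequality for the grand canonical sums. -/
theorem Xi_holder {κ : Type} (s : Finset κ) {w : E → E → ℝ} (W : κ → E → E → ℝ)
    (hW : ∀ i ∈ s, Measurable (Function.uncurry (W i))) {A : Set E} (hA : MeasurableSet A) (a : ℝ)
    (b p : κ → ℝ) (hp0 : ∀ i ∈ s, 0 ≤ p i) (hp1 : ∑ i ∈ s, p i = 1)
    (h : ∀ (N : ℕ) (x : Fin N → E), (∀ i, x i ∈ A) →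
      H w x + a * N ≤ ∑ i ∈ s, p i * (H (W i) x + b i * N)) :
    Xi w A a ≤ ∏ i ∈ s, (Xi (W i) A (b i)) ^ (p i) := by
  have key := ENNReal.lintegral_prod_norm_pow_le (μ := confMeas A) s
    (f := fun i q => ENNReal.ofReal (Real.exp (H (W i) q.2 + b i * q.1)))
    (fun i hi => (measurable_expH_sigma (hW i hi) (b i)).aemeasurable) hp1 hp0
  have h2 : ∀ i ∈ s, ∫⁻ q, ENNReal.ofReal (Real.exp (H (W i) q.2 + b i * q.1)) ∂(confMeas A) =
      Xi (W i) A (b i) := by
    intro i hi
    rw [lintegral_confMeas _ _ (measurable_expH_sigma (hW i hi) (b i)), Xi_eq]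
  rw [Finset.prod_congr rfl (fun i hi => by rw [h2 i hi])] at key
  refine le_trans ?_ key
  rw [lintegral_confMeas, Xi_eq]
  · refine ENNReal.tsum_le_tsum fun N => mul_le_mul_right ?_ _
    refine setLIntegral_mono' (measurableSet_conf hA _) fun x hx => ?_
    have h3 : ∏ i ∈ s, ENNReal.ofReal (Real.exp (H (W i) x + b i * N)) ^ p i =
        ENNReal.ofReal (Real.exp (∑ i ∈ s, p i * (H (W i) x + b i * N))) := by
      rw [Real.exp_sum, ENNReal.ofReal_prod_of_nonneg (fun _ _ => by positivity)]
      refine Finset.prod_congr rfl fun i hi => ?_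
      rw [ENNReal.ofReal_rpow_of_pos (by positivity), ← Real.exp_mul, mul_comm (p i)]
    rw [h3]
    exact ENNReal.ofReal_le_ofReal (Real.exp_le_exp.2 (h N x fun i => hx i trivial))
  · refine Finset.measurable_prod _ fun i hi => ?_
    exact (measurable_expH_sigma (hW i hi) (b i)).pow_const _

end Vale.Agent.P171
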