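import Vale.Agent.P171.Basic
import Vale.Agent.P171.XiBasic

open MeasureTheory Set Filter Topology
open scoped ENNReal NNReal

namespace Vale.Agent.P171

theorem Xi_ne_zero (w : E → E → ℝ) (A : Set E) (a : ℝ) : Xi w A a ≠ 0 :=
  (lt_of_lt_of_le one_pos (one_le_Xi w A a)).ne'

theorem one_le_toReal_Xi {w : E → E → ℝ} {A : Set E} {a : ℝ} (h : Xi w A a ≠ ∞) :
    1 ≤ (Xi w A a).toReal := by
  have := ENNReal.toReal_mono h (one_le_Xi w A a)
  simpa using this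

theorem lXi_nonneg (w : E → E → ℝ) (A : Set E) (a : ℝ) : 0 ≤ lXi w A a := by
  unfold lXi
  by_cases h : Xi w A a = ∞
  · simp [h]
  · exact Real.log_nonneg (one_le_toReal_Xi h)

theorem Xi_eq_ofReal {w : E → E → ℝ} {A : Set E} {a : ℝ} (h : Xi w A a ≠ ∞) :
    Xi w A a = ENNReal.ofReal (Real.exp (lXi w A a)) := by
  unfold lXi
  rw [Real.exp_log (lt_of_lt_of_le one_pos (one_le_toReal_Xi h)), ENNReal.ofReal_toReal h]

theorem lXi_le_iff {w : E → E → ℝ} {A : Set E} {a : ℝ} {c : ℝ}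
    (h : Xi w A a ≤ ENNReal.ofReal (Real.exp c)) : lXi w A a ≤ c := by
  have hfin : Xi w A a ≠ ∞ := ne_top_of_le_ne_top ENNReal.ofReal_ne_top h
  rw [Xi_eq_ofReal hfin] at h
  have := (ENNReal.ofReal_le_ofReal_iff (by positivity)).1 h
  exact Real.exp_le_exp.1 this

theorem lXi_mono_of_le {w w' : E → E → ℝ} {A A' : Set E} {a a' : ℝ} (h : Xi w A a ≤ Xi w' A' a')
    (hfin : Xi w' A' a' ≠ ∞) : lXi w A a ≤ lXi w' A' a' := by
  unfold lXi
  refine Real.log_le_log ?_ (ENNReal.toReal_mono hfin h)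
  exact lt_of_lt_of_le one_pos (one_le_toReal_Xi (ne_top_of_le_ne_top hfin h))

theorem volume_cube {l : ℝ} (hl : 0 ≤ l) : volume (cube l) = ENNReal.ofReal (l ^ 3) := by
  have h1 : cube l = (MeasurableEquiv.toLp 2 (Fin 3 → ℝ)).symm ⁻¹'
      (Set.univ.pi fun _ => Icc (0 : ℝ) l) := by
    ext x
    simp [cube, Pi.le_def, forall_and]
  rw [h1, (EuclideanSpace.volume_preserving_symm_measurableEquiv_toLp (Fin 3)).measure_preimage
    (MeasurableSet.univ_pi fun _ => measurableSet_Icc).nullMeasurableSet]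
  rw [volume_pi_pi]
  simp [ENNReal.ofReal_pow hl]

theorem measurableSet_cube (l : ℝ) : MeasurableSet (cube l) := by
  have h1 : cube l = ⋂ i : Fin 3, (fun x : E => x i) ⁻¹' (Icc (0 : ℝ) l) := by
    ext x; simp [cube]
  rw [h1]
  refine MeasurableSet.iInter fun i => ?_
  have : Measurable (fun x : E => x i) := by fun_prop
  exact this measurableSet_Icc

theorem cube_mono {l l' : ℝ} (h : l ≤ l') : cube l ⊆ cube l' :=
  fun _ hx i => ⟨(hx i).1, (hx i).2.trans h⟩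

theorem Xi_cube_le {w : E → E → ℝ} {l : ℝ} (hl : 0 ≤ l) (a : ℝ)
    (h : ∀ (N : ℕ) (x : Fin N → E), (∀ i, x i ∈ cube l) → H w x ≤ 0) :
    Xi w (cube l) a ≤ ENNReal.ofReal (Real.exp (Real.exp a * l ^ 3)) := by
  have hv : volume (cube l) ≠ ∞ := by rw [volume_cube hl]; exact ENNReal.ofReal_ne_top
  have := Xi_le_of_nonpos (measurableSet_cube l) hv a h
  rwa [volume_cube hl, ENNReal.toReal_ofReal (by positivity)] at this

theorem lXi_cube_le {w : E → E → ℝ} {l : ℝ} (hl : 0 ≤ l) (a : ℝ)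
    (h : ∀ (N : ℕ) (x : Fin N → E), (∀ i, x i ∈ cube l) → H w x ≤ 0) :
    lXi w (cube l) a ≤ Real.exp a * l ^ 3 :=
  lXi_le_iff (Xi_cube_le hl a h)

/-- Hoelder in logarithmic form. -/
theorem lXi_holder {κ : Type} (s : Finset κ) {w : E → E → ℝ} (W : κ → E → E → ℝ)
    (hW : ∀ i ∈ s, Measurable (Function.uncurry (W i))) {A : Set E} (hA : MeasurableSet A) (a : ℝ)
    (b p : κ → ℝ) (hp0 : ∀ i ∈ s, 0 ≤ p i) (hp1 : ∑ i ∈ s, p i = 1)
    (hfin : ∀ i ∈ s, Xi (W i) A (b i) ≠ ∞)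
    (h : ∀ (N : ℕ) (x : Fin N → E), (∀ i, x i ∈ A) →
      H w x + a * N ≤ ∑ i ∈ s, p i * (H (W i) x + b i * N)) :
    lXi w A a ≤ ∑ i ∈ s, p i * lXi (W i) A (b i) := by
  refine lXi_le_iff ((Xi_holder s W hW hA a b p hp0 hp1 h).trans (le_of_eq ?_))
  rw [Real.exp_sum, ENNReal.ofReal_prod_of_nonneg (fun _ _ => by positivity)]
  refine Finset.prod_congr rfl fun i hi => ?_
  conv_lhs => rw [Xi_eq_ofReal (hfin i hi)]
  rw [ENNReal.ofReal_rpow_of_pos (by positivity), ← Real.exp_mul, mul_comm (p i)]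

/-- Two-term Hoelder. -/
theorem lXi_holder_two {w w₁ w₂ : E → E → ℝ} (h₁ : Measurable (Function.uncurry w₁))
    (h₂ : Measurable (Function.uncurry w₂)) {A : Set E} (hA : MeasurableSet A) {a b₁ b₂ ε : ℝ}
    (hε0 : 0 ≤ ε) (hε1 : ε ≤ 1) (hf₁ : Xi w₁ A b₁ ≠ ∞) (hf₂ : Xi w₂ A b₂ ≠ ∞)
    (h : ∀ (N : ℕ) (x : Fin N → E), (∀ i, x i ∈ A) →
      H w x + a * N ≤ (1 - ε) * (H w₁ x + b₁ * N) + ε * (H w₂ x + b₂ * N)) :
    lXi w A a ≤ (1 - ε) * lXi w₁ A b₁ + ε * lXi w₂ A b₂ := by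
  have := lXi_holder (Finset.univ : Finset Bool) (w := w) (fun i => bif i then w₁ else w₂)
    (by rintro (_ | _) _ <;> assumption) hA a (fun i => bif i then b₁ else b₂)
    (fun i => bif i then 1 - ε else ε) (by rintro (_ | _) _ <;> simp <;> linarith)
    (by simp) (by rintro (_ | _) _ <;> simpa) (by
      intro N x hx
      simpa using h N x hx)
  simpa using this

end Vale.Agent.P171
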