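import Vale.Agent.P171.Basic
import Vale.Agent.P171.XiBasic
import Vale.Agent.P171.LXi
import Vale.Agent.P171.Energy

open MeasureTheory Set Filter Topology
open scoped ENNReal NNReal

namespace Vale.Agent.P171

theorem conf_eq (L : ℝ) (N : ℕ) : conf L N = Set.univ.pi (fun _ : Fin N => cube L) := by
  ext x
  simp [conf]

theorem boltz_eq (φ : ℝ → ℝ) {N : ℕ} (x : Fin N → E) :
    boltz φ 1 x = Real.exp (N * φ 0 / 2) * Real.exp (H (fun x y => -φ (dist x y)) x) := by
  unfold boltz
  rw [energy_eq, ← Real.exp_add]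
  congr 1
  ring

/-- Relation between the labelled real-valued partition function of the final statement and `Xi`. -/
theorem bridge {φ : ℝ → ℝ} (hφ : Measurable φ)
    (hneg : ∀ (N : ℕ) (x : Fin N → E), H (fun x y => -φ (dist x y)) x ≤ 0) {z : ℝ} (hz : 0 < z) :
    (∀ L : ℝ, 0 < L → ∀ N : ℕ, IntegrableOn (boltz φ 1) (conf L N)) ∧
    (∀ L : ℝ, 0 < L → Summable (fun N : ℕ => z ^ N * Z φ 1 L N)) ∧
    (∀ L : ℝ, 0 < L → Real.log (grand φ 1 L z) =
      lXi (fun x y => -φ (dist x y)) (cube L) (Real.log z + φ 0 / 2)) := by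
  set w : E → E → ℝ := fun x y => -φ (dist x y) with hw
  have hwm : Measurable (Function.uncurry w) := by
    have h1 : Measurable (fun p : E × E => dist p.1 p.2) := measurable_dist
    exact (hφ.comp h1).neg
  have hHm : ∀ N : ℕ, Measurable (fun x : Fin N → E => H w x) := fun N => measurable_H hwm
  have hint : ∀ L : ℝ, 0 < L → ∀ N : ℕ,
      IntegrableOn (fun x : Fin N → E => Real.exp (H w x)) (conf L N) := by
    intro L hL N
    have hvol : volume (conf L N) ≠ ∞ := by
      rw [conf_eq, volume_pi_pi]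
      simp [volume_cube hL.le]
    refine Measure.integrableOn_of_bounded (M := 1) hvol ?_ ?_
    · exact (Real.measurable_exp.comp (hHm N)).aestronglyMeasurable
    · refine Filter.Eventually.of_forall fun x => ?_
      rw [Real.norm_eq_abs, abs_of_pos (Real.exp_pos _)]
      exact Real.exp_le_one_iff.2 (hneg N x)
  have hQ : ∀ L : ℝ, 0 < L → ∀ N : ℕ,
      ∫ x in conf L N, Real.exp (H w x) = (Q w (cube L) (Fin N)).toReal := by
    intro L hL N
    have hm : Measurable (fun x : Fin N → E => Real.exp (H w x)) :=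
      Real.measurable_exp.comp (hHm N)
    rw [integral_eq_lintegral_of_nonneg_ae (Filter.Eventually.of_forall fun x =>
      (Real.exp_pos _).le) hm.aestronglyMeasurable]
    unfold Q
    rw [conf_eq]
  have hZ : ∀ L : ℝ, 0 < L → ∀ N : ℕ, z ^ N * Z φ 1 L N =
      (ENNReal.ofReal (Real.exp ((Real.log z + φ 0 / 2) * N) / (N.factorial : ℝ)) *
        Q w (cube L) (Fin N)).toReal := by
    intro L hL N
    unfold Z
    simp_rw [boltz_eq]
    rw [integral_const_mul, hQ L hL N, ENNReal.toReal_mul, ENNReal.toReal_ofReal (by positivity)]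
    have h1 : z ^ N = Real.exp (Real.log z * N) := by
      rw [mul_comm, Real.exp_nat_mul, Real.exp_log hz]
    rw [h1, add_mul, Real.exp_add]
    have h2 : φ 0 / 2 * (N : ℝ) = N * φ 0 / 2 := by ring
    rw [h2]
    ring
  have hfin : ∀ L : ℝ, 0 < L → Xi w (cube L) (Real.log z + φ 0 / 2) ≠ ∞ := fun L hL =>
    ne_top_of_le_ne_top ENNReal.ofReal_ne_top (Xi_cube_le hL.le _ fun N x _ => hneg N x)
  refine ⟨fun L hL N => ?_, fun L hL => ?_, fun L hL => ?_⟩
  · have : boltz φ 1 = fun x : Fin N → E => Real.exp (N * φ 0 / 2) * Real.exp (H w x) := by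
      funext x
      exact boltz_eq φ x
    rw [this]
    exact (hint L hL N).const_mul _
  · simp_rw [hZ L hL]
    exact ENNReal.summable_toReal (hfin L hL)
  · unfold grand lXi
    simp_rw [hZ L hL]
    rw [← ENNReal.tsum_toReal_eq]
    · rfl
    · intro N
      exact ne_top_of_le_ne_top (hfin L hL) (ENNReal.le_tsum (f := fun N : ℕ =>
        ENNReal.ofReal (Real.exp ((Real.log z + φ 0 / 2) * N) / (N.factorial : ℝ)) *
        Q w (cube L) (Fin N)) N)

end Vale.Agent.P171
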