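import Vale.Agent.P171.Lsc

open MeasureTheory Set Filter Topology
open scoped ENNReal NNReal

namespace Vale.Agent.P171

/-- real shift vector of an integer shift -/
noncomputable def shift {l : ℕ} (θ : Fin 3 → Fin l) : Fin 3 → ℝ := fun α => ((θ α : ℕ) : ℝ)

theorem measurable_block {w : E → E → ℝ} (hw : Measurable (Function.uncurry w)) (h : ℝ)
    (θ : Fin 3 → ℝ) : Measurable (Function.uncurry fun x y => same h θ x y * w x y) :=
  (measurable_same h θ).mul hw

/-- Grand canonical sum of a block-diagonal pair function. -/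
theorem block_bound {w : E → E → ℝ} (hw : Measurable (Function.uncurry w))
    (hinv : ∀ v x y : E, w (x + v) (y + v) = w x y) {l : ℕ} (hl : 0 < l) (θ : Fin 3 → Fin l)
    (a : ℝ) (n : ℕ) :
    Xi (fun x y => same l (shift θ) x y * w x y) (cube (n * l)) a ≤
      (Xi w (cube l) a) ^ ((n + 2) ^ 3) := by
  classical
  set w' : E → E → ℝ := fun x y => same l (shift θ) x y * w x y with hw'
  have hw'm : Measurable (Function.uncurry w') := measurable_block hw _ _
  let D : (Fin 3 → ℤ) → Set E := fun c => {x | cell l (shift θ) x = c}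
  let S : Finset (Fin 3 → ℤ) := Fintype.piFinset fun _ => Finset.Icc (-1 : ℤ) n
  have hDm : ∀ c, MeasurableSet (D c) := fun c =>
    (measurable_cell _ _) (measurableSet_singleton c)
  have hl0 : (0 : ℝ) < l := by exact_mod_cast hl
  have hcover : cube (n * l) ⊆ ⋃ c ∈ S, D c := by
    intro x hx
    simp only [Set.mem_iUnion]
    refine ⟨cell l (shift θ) x, ?_, rfl⟩
    rw [Fintype.mem_piFinset]
    intro α
    have h1 := (hx α).1
    have h2 := (hx α).2
    have h3 : (0 : ℝ) ≤ shift θ α := Nat.cast_nonneg _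
    have h4 : shift θ α < l := by
      unfold shift
      exact_mod_cast (θ α).2
    rw [Finset.mem_Icc]
    unfold cell
    constructor
    · rw [Int.le_floor]
      rw [le_div_iff₀ hl0]
      push_cast
      linarith
    · have : (x α - shift θ α) / l < (n : ℤ) + 1 := by
        rw [div_lt_iff₀ hl0]
        push_cast
        nlinarith
      have h5 : ⌊(x α - shift θ α) / l⌋ < (n : ℤ) + 1 := by
        rw [Int.floor_lt]
        push_cast at this ⊢
        exact this
      omega
  have h0 : ∀ c ∈ S, ∀ d ∈ S, c ≠ d → ∀ x ∈ D c, ∀ y ∈ D d, w' x y = 0 := by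
    intro c _ d _ hcd x hx y hy
    have hne : cell l (shift θ) x ≠ cell l (shift θ) y := by
      have hx' : cell l (shift θ) x = c := hx
      have hy' : cell l (shift θ) y = d := hy
      rw [hx', hy']
      exact hcd
    simp [hw', same, hne]
  have hdisj : ∀ c ∈ S, ∀ d ∈ S, c ≠ d → Disjoint (D c) (D d) := by
    intro c _ d _ hcd
    rw [Set.disjoint_left]
    intro x hx hy
    exact hcd ((show cell l (shift θ) x = c from hx).symm.trans hy)
  have h1 : Xi w' (cube (n * l)) a ≤ Xi w' (⋃ c ∈ S, D c) a :=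
    Xi_mono (measurableSet_cube _) hcover fun _ _ _ => le_rfl
  refine h1.trans ?_
  rw [Xi_biUnion w' hw'm S D (fun c _ => hDm c) hdisj h0 a]
  have h2 : ∀ c ∈ S, Xi w' (D c) a ≤ Xi w (cube l) a := by
    intro c _
    let v : E := WithLp.toLp 2 (fun α => shift θ α + c α * l)
    rw [← Xi_translate w hinv (measurableSet_cube l) v a]
    refine Xi_mono (hDm c) ?_ fun N x hx => ?_
    · intro x hx
      refine ⟨x - v, fun α => ?_, by simp⟩
      have hx' : cell l (shift θ) x α = c α := congrFun (show cell l (shift θ) x = c from hx) α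
      unfold cell at hx'
      rw [Int.floor_eq_iff] at hx'
      have e1 : (x - v) α = x α - (shift θ α + c α * l) := by simp [v]
      rw [e1]
      have h3 := hx'.1
      have h4 := hx'.2
      rw [le_div_iff₀ hl0] at h3
      rw [div_lt_iff₀ hl0] at h4
      constructor <;> nlinarith
    · have : H w' x = H w x := by
        unfold H
        congr 1
        refine Finset.sum_congr rfl fun i _ => Finset.sum_congr rfl fun j _ => ?_
        have e2 : cell l (shift θ) (x i) = cell l (shift θ) (x j) :=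
          (show cell l (shift θ) (x i) = c from hx i).trans
            (show cell l (shift θ) (x j) = c from hx j).symm
        simp [hw', same, e2]
      rw [this]
  refine (Finset.prod_le_pow_card S _ _ h2).trans (le_of_eq ?_)
  congr 1
  simp only [S, Fintype.card_piFinset, Int.card_Icc, Finset.prod_const, Finset.card_univ,
    Fintype.card_fin]
  congr 1

theorem lXi_block_bound {w : E → E → ℝ} (hw : Measurable (Function.uncurry w))
    (hinv : ∀ v x y : E, w (x + v) (y + v) = w x y) {l : ℕ} (hl : 0 < l) (θ : Fin 3 → Fin l)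
    (a : ℝ) (hfin : Xi w (cube l) a ≠ ∞) (n : ℕ) :
    Xi (fun x y => same l (shift θ) x y * w x y) (cube (n * l)) a ≠ ∞ ∧
    lXi (fun x y => same l (shift θ) x y * w x y) (cube (n * l)) a ≤
      ((n : ℝ) + 2) ^ 3 * lXi w (cube l) a := by
  have h := block_bound hw hinv hl θ a n
  refine ⟨ne_top_of_le_ne_top (ENNReal.pow_ne_top hfin) h, lXi_le_iff (h.trans (le_of_eq ?_))⟩
  rw [Xi_eq_ofReal hfin, ← ENNReal.ofReal_pow (by positivity), ← Real.exp_nat_mul]
  congr 2
  push_cast
  ring

theorem sum_shift_eq (l : ℕ) (x y : E) :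
    ∑ θ : Fin 3 → Fin l, same l (shift θ) x y = (l : ℝ) ^ 3 * qfrac l x y := by
  unfold qfrac
  by_cases hl : (l : ℝ) = 0
  · have hl' : l = 0 := by exact_mod_cast hl
    subst hl'
    simp
  · rw [mul_div_cancel₀ _ (pow_ne_zero 3 hl)]
    rfl

/-- remainder pair function -/
noncomputable def WB (K : ℝ) (t : ℕ → ℝ) (l : ℕ) (c ε : ℝ) (x y : E) : ℝ :=
  (ε⁻¹ * (1 - qfrac l x y) + qfrac l x y) * wt K t x y + c * qfrac l x y

theorem measurable_qfrac (l : ℕ) : Measurable (Function.uncurry (qfrac l)) := by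
  have : (Function.uncurry (qfrac l)) = fun p : E × E =>
      (∑ θ : Fin 3 → Fin l, same l (fun α => ((θ α : ℕ) : ℝ)) p.1 p.2) / (l : ℝ) ^ 3 := rfl
  rw [this]
  exact (Finset.measurable_sum _ fun θ _ => measurable_same _ _).div_const _

theorem measurable_WB (K : ℝ) {t : ℕ → ℝ} (h0 : ∀ k, 0 ≤ t k) (hs : Summable t) (l : ℕ)
    (c ε : ℝ) : Measurable (Function.uncurry (WB K t l c ε)) := by
  have h1 := measurable_qfrac l
  have h2 := measurable_wt K h0 hs
  have h3 : Function.uncurry (WB K t l c ε) = fun p =>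
      (ε⁻¹ * (1 - Function.uncurry (qfrac l) p) + Function.uncurry (qfrac l) p) *
        Function.uncurry (wt K t) p + c * Function.uncurry (qfrac l) p := rfl
  rw [h3]
  exact (((measurable_const.sub h1).const_mul _).add h1).mul h2 |>.add (h1.const_mul c)

/-- weights used for the remainder -/
noncomputable def mfrac (t : ℕ → ℝ) (l : ℕ) : ℝ := ∑' k, t k * min 1 (48 * wid k / l)

theorem sum_one_sub_q_le {t : ℕ → ℝ} (h0 : ∀ k, 0 ≤ t k) (hs : Summable t) {l : ℕ} (hl : 0 < l)
    {ι : Type} [Fintype ι] (x : ι → E) :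
    ∑ i, ∑ j, (1 - qfrac l (x i) (x j)) * vt t (dist (x i) (x j)) ≤
      mfrac t l * (64 * SS x) := by
  have hl0 : (0 : ℝ) < l := by exact_mod_cast hl
  refine sum_tsum_le h0 hs x (fun x y => 1 - qfrac l x y) (fun k => min 1 (48 * wid k / l))
    (fun k => le_min zero_le_one (by have := one_le_wid k; positivity)) (fun k => min_le_left _ _)
    fun k => ?_
  have hw1 := one_le_wid k
  have hSS := SS_nonneg x
  rw [min_mul_of_nonneg _ _ (by positivity)]
  refine le_min ?_ ?_
  · rw [one_mul]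
    refine le_trans ?_ (gauss_SS hw1 x)
    refine Finset.sum_le_sum fun i _ => Finset.sum_le_sum fun j _ => ?_
    have h1 := qfrac_nonneg l (x i) (x j)
    have h2 := G_nonneg (wid k) (dist (x i) (x j)) (by linarith)
    nlinarith
  · have h3 := gauss_SS (show (1 : ℝ) ≤ 2 * wid k by linarith) x
    calc ∑ i, ∑ j, (1 - qfrac l (x i) (x j)) * G (wid k) (dist (x i) (x j))
        ≤ ∑ i, ∑ j, (48 * wid k / l) * G (2 * wid k) (dist (x i) (x j)) := by
          refine Finset.sum_le_sum fun i _ => Finset.sum_le_sum fun j _ => ?_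
          have h4 := one_sub_qfrac_le l hl (x i) (x j)
          have h5 := gauss_mul_norm hw1 (dist_nonneg (x := x i) (y := x j))
          have h6 := G_nonneg (wid k) (dist (x i) (x j)) (by linarith)
          calc (1 - qfrac l (x i) (x j)) * G (wid k) (dist (x i) (x j))
              ≤ (3 * (dist (x i) (x j) + 1) / l) * G (wid k) (dist (x i) (x j)) :=
                mul_le_mul_of_nonneg_right h4 h6
            _ = 3 / l * (G (wid k) (dist (x i) (x j)) * (dist (x i) (x j) + 1)) := by ring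
            _ ≤ 3 / l * (16 * wid k * G (2 * wid k) (dist (x i) (x j))) :=
                mul_le_mul_of_nonneg_left h5 (by positivity)
            _ = _ := by ring
      _ = (48 * wid k / l) * ∑ i, ∑ j, G (2 * wid k) (dist (x i) (x j)) := by
          simp_rw [Finset.mul_sum]
      _ ≤ (48 * wid k / l) * (64 * SS x) := mul_le_mul_of_nonneg_left h3 (by positivity)

theorem sum_q_le {l : ℕ} (hl : 0 < l) {ι : Type} [Fintype ι] (x : ι → E) :
    ∑ i, ∑ j, qfrac l (x i) (x j) ≤ 8 * (l : ℝ) ^ 3 * SS x := by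
  have hl0 : (0 : ℝ) < l := by exact_mod_cast hl
  have hl3 : (0 : ℝ) < (l : ℝ) ^ 3 := by positivity
  have h1 : (l : ℝ) ^ 3 * ∑ i, ∑ j, qfrac l (x i) (x j) =
      ∑ θ : Fin 3 → Fin l, ∑ i, ∑ j, same l (shift θ) (x i) (x j) := by
    conv_rhs => rw [Finset.sum_comm]
    rw [Finset.mul_sum]
    refine Finset.sum_congr rfl fun i _ => ?_
    conv_rhs => rw [Finset.sum_comm]
    rw [Finset.mul_sum]
    refine Finset.sum_congr rfl fun j _ => ?_
    rw [sum_shift_eq]
  have h2 : ∀ θ : Fin 3 → Fin l, ∑ i, ∑ j, same l (shift θ) (x i) (x j) ≤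
      (2 * l) ^ 3 * SS x := by
    intro θ
    have := same_refine l hl (fun α => ((θ α : ℕ) : ℤ)) x
    have e : (fun α => (((θ α : ℕ) : ℤ) : ℝ)) = shift θ := by
      funext α
      simp [shift]
    rw [e] at this
    exact this
  have h3 : ∑ θ : Fin 3 → Fin l, ∑ i, ∑ j, same l (shift θ) (x i) (x j) ≤
      ∑ _θ : Fin 3 → Fin l, (2 * (l : ℝ)) ^ 3 * SS x := Finset.sum_le_sum fun θ _ => h2 θ
  rw [← h1, Finset.sum_const, nsmul_eq_mul] at h3
  have h4 : ((Finset.univ : Finset (Fin 3 → Fin l)).card : ℝ) = (l : ℝ) ^ 3 := by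
    simp
  rw [h4] at h3
  have h5 : (l : ℝ) ^ 3 * ∑ i, ∑ j, qfrac l (x i) (x j) ≤ (l : ℝ) ^ 3 * (8 * (l : ℝ) ^ 3 * SS x) := by
    refine h3.trans (le_of_eq ?_)
    ring
  exact le_of_mul_le_mul_left h5 hl3

/-- The remainder is nonpositive. -/
theorem H_WB_nonpos {K T : ℝ} {t : ℕ → ℝ} (ht : Adm T t) (hK : 64 * T + 80 ≤ K) {l : ℕ}
    (hl : 0 < l) {c ε : ℝ} (hε0 : 0 < ε) (hε1 : ε ≤ 1) (hm : mfrac t l ≤ ε)
    (hc0 : 0 ≤ c) (hc : c * (l : ℝ) ^ 3 ≤ 2) {ι : Type} [Fintype ι] (x : ι → E) :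
    H (WB K t l c ε) x ≤ 0 := by
  have hSS := SS_nonneg x
  have hT : 0 ≤ T := le_trans (tsum_nonneg ht.nonneg) ht.le
  unfold H
  have h1 : ∑ i, ∑ j, WB K t l c ε (x i) (x j) ≤
      ε⁻¹ * ∑ i, ∑ j, (1 - qfrac l (x i) (x j)) * vt t (dist (x i) (x j)) +
      ∑ i, ∑ j, vt t (dist (x i) (x j)) -
      K * ∑ i, ∑ j, (if dist (x i) (x j) < 1 then (1 : ℝ) else 0) +
      c * ∑ i, ∑ j, qfrac l (x i) (x j) := by
    simp_rw [Finset.mul_sum, ← Finset.sum_add_distrib, ← Finset.sum_sub_distrib,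
      ← Finset.sum_add_distrib]
    refine Finset.sum_le_sum fun i _ => Finset.sum_le_sum fun j _ => ?_
    unfold WB wt
    have hq0 := qfrac_nonneg l (x i) (x j)
    have hq1 := qfrac_le_one l (x i) (x j)
    have hv := vt_nonneg ht.nonneg (dist (x i) (x j))
    set q := qfrac l (x i) (x j)
    set v := vt t (dist (x i) (x j))
    set b : ℝ := if dist (x i) (x j) < 1 then (1 : ℝ) else 0 with hb
    have hb0 : 0 ≤ b := by rw [hb]; split_ifs <;> norm_num
    have hεi : 1 ≤ ε⁻¹ := (one_le_inv₀ hε0).2 hε1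
    have h2 : q * v ≤ v := by nlinarith
    have h3 : K * b ≤ (ε⁻¹ * (1 - q) + q) * (K * b) := by
      have : 1 ≤ ε⁻¹ * (1 - q) + q := by nlinarith
      have hKb : 0 ≤ K * b := mul_nonneg (by linarith) hb0
      nlinarith
    nlinarith
  have h2 := sum_one_sub_q_le ht.nonneg ht.summable hl x
  have h3 := sum_vt_le ht.nonneg ht.summable x
  have h4 := core_ge x
  have h5 := sum_q_le hl x
  have h6 : ε⁻¹ * ∑ i, ∑ j, (1 - qfrac l (x i) (x j)) * vt t (dist (x i) (x j)) ≤ 64 * SS x := by
    rw [inv_mul_le_iff₀ hε0]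
    refine h2.trans ?_
    exact mul_le_mul_of_nonneg_right hm (by linarith)
  have h7 : (∑' k, t k) * (64 * SS x) ≤ T * (64 * SS x) :=
    mul_le_mul_of_nonneg_right ht.le (by linarith)
  have h8 : K * SS x ≤ K * ∑ i, ∑ j, (if dist (x i) (x j) < 1 then (1 : ℝ) else 0) :=
    mul_le_mul_of_nonneg_left h4 (by linarith)
  have h9 : c * ∑ i, ∑ j, qfrac l (x i) (x j) ≤ 16 * SS x := by
    calc c * ∑ i, ∑ j, qfrac l (x i) (x j) ≤ c * (8 * (l : ℝ) ^ 3 * SS x) :=
          mul_le_mul_of_nonneg_left h5 hc0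
      _ = (c * (l : ℝ) ^ 3) * (8 * SS x) := by ring
      _ ≤ 2 * (8 * SS x) := mul_le_mul_of_nonneg_right hc (by linarith)
      _ = 16 * SS x := by ring
  have h10 : (64 * T + 80) * SS x ≤ K * SS x := mul_le_mul_of_nonneg_right hK hSS
  linarith

end Vale.Agent.P171
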