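import Mathlib

/-!
# P171: shared definitions

Radial pair potentials `φ : ℝ → ℝ` on `E = ℝ³`, partition functions, stability, temperedness,
and the explicit multi-scale Kac potential used to produce a phase transition.
-/

open MeasureTheory Set Filter Topology
open scoped BigOperators ENNReal NNReal

namespace Vale.Agent.P171

/-- Euclidean three-space. -/
abbrev E := EuclideanSpace ℝ (Fin 3)

/-- Potential energy `∑_{i<j} φ(|x_i - x_j|)` of `N` labelled particles. -/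
noncomputable def energy (φ : ℝ → ℝ) {N : ℕ} (x : Fin N → E) : ℝ :=
  ∑ i, ∑ j ∈ Finset.Ioi i, φ (dist (x i) (x j))

/-- The cube `[0,L]^3`. -/
def box (L : ℝ) : Set E := {x | ∀ i, x i ∈ Set.Icc 0 L}

/-- The canonical partition function `Z_{L,N}(β) = (1/N!) ∫_{Λ_L^N} exp(-β U_N)`. -/
noncomputable def Z (φ : ℝ → ℝ) (β L : ℝ) (N : ℕ) : ℝ :=
  (N.factorial : ℝ)⁻¹ * ∫ x in {x : Fin N → E | ∀ i, x i ∈ box L}, Real.exp (-β * energy φ x)

/-- Stability: `U_N ≥ -B N` for all configurations of distinct points. -/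
def Stable (φ : ℝ → ℝ) : Prop :=
  ∃ B : ℝ, ∀ (N : ℕ) (x : Fin N → E), Function.Injective x → -B * N ≤ energy φ x

/-- Temperedness: `φ(r) ≤ C r^{-3-ε}` for all `r ≥ R₀`. -/
def Tempered (φ : ℝ → ℝ) : Prop :=
  ∃ C ε R₀ : ℝ, 0 < C ∧ 0 < ε ∧ 0 < R₀ ∧ ∀ r ≥ R₀, φ r ≤ C * r ^ (-3 - ε)

/-- Local boundedness on `(0,∞)`. -/
def LocBounded (φ : ℝ → ℝ) : Prop :=
  ∀ a b : ℝ, 0 < a → ∃ M : ℝ, ∀ r ∈ Set.Icc a b, |φ r| ≤ M

/-! ### The building blocks -/

/-- Normalised indicator of the ball of radius `R/2` about the origin. -/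
noncomputable def chi (R : ℝ) (u : E) : ℝ :=
  (Metric.closedBall (0 : E) (R / 2)).indicator (fun _ => (volume.real (Metric.closedBall (0 : E) (R / 2)))⁻¹) u

/-- The kernel `w_R = χ_R * χ_R` on `E`. -/
noncomputable def wker (R : ℝ) (x : E) : ℝ := ∫ u, chi R (x - u) * chi R u

/-- A fixed unit vector. -/
noncomputable def e0 : E := EuclideanSpace.single 0 1

/-- The radial profile of `w_R`: `W R r = w_R (r e0)`; one has `w_R x = W R ‖x‖`. -/
noncomputable def W (R r : ℝ) : ℝ := wker R (r • e0)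

/-- The potential `φ(r) = A 1_{r<1} - ∑_j a_j W_{R_j}(r)`. Finite sums: take `a_j = 0` eventually. -/
noncomputable def pot (A : ℝ) (a R : ℕ → ℝ) (r : ℝ) : ℝ :=
  (if r < 1 then A else 0) - ∑' j, a j * W (R j) r

/-! ### Multiset (unlabelled) formulation -/

/-- `∑_{x,y ∈ s} f(|x-y|)`, all ordered pairs, diagonal included. -/
noncomputable def pairSum (f : ℝ → ℝ) (s : Multiset E) : ℝ :=
  (s.map (fun x => (s.map (fun y => f (dist x y))).sum)).sum

/-- Energy of an unlabelled configuration: `(pairSum - N φ(0))/2`. -/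
noncomputable def Uen (φ : ℝ → ℝ) (s : Multiset E) : ℝ :=
  (pairSum φ s - Multiset.card s * φ 0) / 2

/-- Grand canonical integral `∑_n (1/n!) ∫_{Λ^n} G`. -/
noncomputable def GP (Λ : Set E) (G : Multiset E → ℝ≥0∞) : ℝ≥0∞ :=
  ∑' n : ℕ, (n.factorial : ℝ≥0∞)⁻¹ *
    ∫⁻ x in {x : Fin n → E | ∀ i, x i ∈ Λ}, G (Finset.univ.val.map x)

/-- Boltzmann weight `exp(-U + μ N)`. -/
noncomputable def bw (φ : ℝ → ℝ) (μ : ℝ) (s : Multiset E) : ℝ≥0∞ :=
  ENNReal.ofReal (Real.exp (-(Uen φ s) + μ * Multiset.card s))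

/-- Grand partition function at inverse temperature one, `z = e^μ`, in the cube `[0,L]^3`. -/
noncomputable def Xi (φ : ℝ → ℝ) (μ L : ℝ) : ℝ≥0∞ := GP (box L) (bw φ μ)

/-- `p` is the pressure function `μ ↦ lim L⁻³ log Ξ_L(e^μ)` of `φ` (at `β = 1`). -/
def HasPressure (φ : ℝ → ℝ) (p : ℝ → ℝ) : Prop :=
  ∀ μ : ℝ, Tendsto (fun L : ℝ => Real.log (Xi φ μ L).toReal / L ^ 3) atTop (𝓝 (p μ))

end Vale.Agent.P171
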