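import Mathlib

open Set Filter Topology

namespace Vale.Agent.P171

/-- Ekeland's variational principle (weak form) on a complete metric space. -/
theorem ekeland {X : Type*} [MetricSpace X] [CompleteSpace X] (F : X → ℝ)
    (hF : LowerSemicontinuous F) (c : ℝ) (hc : ∀ x, c ≤ F x) (x₀ : X) {ε : ℝ} (hε : 0 < ε) :
    ∃ x, F x + ε * dist x x₀ ≤ F x₀ ∧ ∀ y, F x ≤ F y + ε * dist y x := by
  let S : X → Set X := fun x => {y | F y + ε * dist y x ≤ F x}
  have hself : ∀ x, x ∈ S x := fun x => by simp [S]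
  have hsub : ∀ x y, y ∈ S x → S y ⊆ S x := by
    intro x y hy z hz
    simp only [S, mem_setOf_eq] at *
    have := dist_triangle z y x
    nlinarith
  have hbdd : ∀ x, BddBelow (F '' S x) := fun x => ⟨c, by rintro _ ⟨y, _, rfl⟩; exact hc y⟩
  have hne : ∀ x, (F '' S x).Nonempty := fun x => ⟨F x, x, hself x, rfl⟩
  have hstep : ∀ (x : X) (n : ℕ), ∃ y ∈ S x, F y ≤ sInf (F '' S x) + (1 / 2 : ℝ) ^ n := by
    intro x n
    obtain ⟨_, ⟨y, hy, rfl⟩, hlt⟩ := exists_lt_of_csInf_lt (hne x)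
      (lt_add_of_pos_right (sInf (F '' S x)) (by positivity : (0 : ℝ) < (1 / 2) ^ n))
    exact ⟨y, hy, hlt.le⟩
  choose g hgS hgF using hstep
  let u : ℕ → X := fun n => Nat.rec x₀ (fun n x => g x n) n
  have hu0 : u 0 = x₀ := rfl
  have husucc : ∀ n, u (n + 1) = g (u n) n := fun n => rfl
  have hmem : ∀ n, u (n + 1) ∈ S (u n) := fun n => by rw [husucc]; exact hgS _ _
  have hmono : ∀ n m, n ≤ m → S (u m) ⊆ S (u n) := by
    intro n m hnm
    induction m, hnm using Nat.le_induction with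
    | base => exact subset_rfl
    | succ k _ ih => exact (hsub _ _ (hmem k)).trans ih
  have hsmall : ∀ n, ∀ y ∈ S (u (n + 1)), ε * dist y (u (n + 1)) ≤ (1 / 2 : ℝ) ^ n := by
    intro n y hy
    have h1 : sInf (F '' S (u n)) ≤ F y :=
      csInf_le (hbdd _) ⟨y, hmono n (n + 1) (Nat.le_succ n) hy, rfl⟩
    have h2 := hgF (u n) n
    rw [← husucc] at h2
    have h3 : F y + ε * dist y (u (n + 1)) ≤ F (u (n + 1)) := hy
    linarith
  have hcau : CauchySeq u := by
    rw [Metric.cauchySeq_iff']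
    intro δ hδ
    obtain ⟨n, hn⟩ := exists_pow_lt_of_lt_one (mul_pos hε hδ) (by norm_num : (1 / 2 : ℝ) < 1)
    refine ⟨n + 1, fun m hm => ?_⟩
    have h1 := hsmall n (u m) (hmono _ _ hm (hself _))
    have h2 : ε * dist (u m) (u (n + 1)) < ε * δ := lt_of_le_of_lt h1 hn
    exact lt_of_mul_lt_mul_left h2 hε.le
  obtain ⟨x, hx⟩ := cauchySeq_tendsto_of_complete hcau
  have hxS : ∀ n, x ∈ S (u n) := by
    intro n
    have hlsc : LowerSemicontinuous (fun y => F y + ε * dist y (u n)) :=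
      hF.add (continuous_const.mul (continuous_id.dist continuous_const)).lowerSemicontinuous
    have hcl : IsClosed (S (u n)) := by
      have := hlsc.isClosed_preimage (F (u n))
      exact this
    refine hcl.mem_of_tendsto hx ?_
    filter_upwards [eventually_ge_atTop n] with m hm
    exact hmono n m hm (hself _)
  refine ⟨x, hxS 0, fun y => ?_⟩
  by_contra hlt
  push Not at hlt
  have hyS : y ∈ S x := hlt.le
  have hd : ∀ n, ε * dist y (u (n + 1)) ≤ (1 / 2 : ℝ) ^ n :=
    fun n => hsmall n y (hsub _ _ (hxS (n + 1)) hyS)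
  have hlim : Tendsto (fun n => ε * dist y (u (n + 1))) atTop (𝓝 (ε * dist y x)) :=
    (tendsto_const_nhds.dist (hx.comp (tendsto_add_atTop_nat 1))).const_mul ε
  have hlim2 : Tendsto (fun n : ℕ => (1 / 2 : ℝ) ^ n) atTop (𝓝 0) :=
    tendsto_pow_atTop_nhds_zero_of_lt_one (by norm_num) (by norm_num)
  have h0 : ε * dist y x ≤ 0 := le_of_tendsto_of_tendsto' hlim hlim2 hd
  have h1 : dist y x = 0 := le_antisymm (by nlinarith) dist_nonneg
  have h2 : y = x := dist_eq_zero.1 h1
  rw [h2] at hlt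
  simp at hlt

end Vale.Agent.P171
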