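import Vale.Agent.P171.XiBasic

open MeasureTheory Set Filter Topology
open scoped ENNReal NNReal

namespace Vale.Agent.P171

/-! Factorisation of the grand canonical sum over disjoint regions. -/

theorem H_reindex (w : E → E → ℝ) {ι κ : Type} [Fintype ι] [Fintype κ]
    (e : ι ≃ κ) (x : κ → E) : H w (fun i => x (e i)) = H w x := by
  unfold H
  congr 1
  rw [← Equiv.sum_comp e]
  refine Finset.sum_congr rfl fun i _ => ?_
  rw [← Equiv.sum_comp e]

theorem Q_reindex (w : E → E → ℝ) (A : Set E) {ι κ : Type} [Fintype ι] [Fintype κ]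
    (e : ι ≃ κ) : Q w A ι = Q w A κ := by
  unfold Q
  have hT := volume_measurePreserving_piCongrLeft (fun _ : κ => E) e
  rw [← hT.setLIntegral_comp_preimage_emb (MeasurableEquiv.measurableEmbedding _)]
  have h1 : ∀ x : ι → E, ∀ i, (MeasurableEquiv.piCongrLeft (fun _ : κ => E) e) x (e i) = x i := by
    intro x i
    rw [MeasurableEquiv.coe_piCongrLeft, Equiv.piCongrLeft_apply_apply]
  have h2 : (MeasurableEquiv.piCongrLeft (fun _ : κ => E) e) ⁻¹' (Set.univ.pi fun _ : κ => A) =
      Set.univ.pi fun _ : ι => A := by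
    ext x
    simp only [Set.mem_preimage, Set.mem_univ_pi]
    constructor
    · intro h i
      have := h (e i)
      rwa [h1] at this
    · intro h k
      obtain ⟨i, rfl⟩ := e.surjective k
      rw [h1]
      exact h i
  rw [h2]
  refine lintegral_congr fun x => ?_
  rw [← H_reindex w e]
  congr 3
  funext i
  rw [h1]

theorem H_split (w : E → E → ℝ) {ι : Type} [Fintype ι] (p : ι → Prop) [DecidablePred p]
    (x : ι → E) :
    H w x = H w (fun i : {i // p i} => x i) + H w (fun i : {i // ¬ p i} => x i) +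
      ((∑ i : {i // p i}, ∑ j : {j // ¬ p j}, w (x i) (x j)) +
      (∑ i : {i // ¬ p i}, ∑ j : {j // p j}, w (x i) (x j))) / 2 := by
  unfold H
  rw [← Fintype.sum_subtype_add_sum_subtype p (fun i => ∑ j, w (x i) (x j))]
  have h1 : ∀ i, ∑ j, w (x i) (x j) = ∑ j : {j // p j}, w (x i) (x j) +
      ∑ j : {j // ¬ p j}, w (x i) (x j) := fun i =>
    (Fintype.sum_subtype_add_sum_subtype p (fun j => w (x i) (x j))).symm
  simp_rw [h1]
  rw [Finset.sum_add_distrib, Finset.sum_add_distrib]
  ring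

/-- The set of configurations with the points satisfying `p` in `A` and the others in `B`. -/
def piece (A B : Set E) {ι : Type} (p : ι → Prop) : Set (ι → E) :=
  {x | ∀ i, (p i → x i ∈ A) ∧ (¬ p i → x i ∈ B)}

theorem piece_measurable {A B : Set E} (hA : MeasurableSet A) (hB : MeasurableSet B) {ι : Type}
    [Fintype ι] (p : ι → Prop) : MeasurableSet (piece A B p) := by
  classical
  have : piece A B p = Set.univ.pi fun i => if p i then A else B := by
    ext x
    simp only [piece, Set.mem_ofPred_eq, Set.mem_univ_pi]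
    refine forall_congr' fun i => ?_
    by_cases h : p i <;> simp [h]
  rw [this]
  refine MeasurableSet.univ_pi fun i => ?_
  split_ifs
  · exact hA
  · exact hB

/-- the integral over a piece of the product form -/
theorem lintegral_piece (w : E → E → ℝ) (hw : Measurable (Function.uncurry w)) (A B : Set E)
    {ι : Type} [Fintype ι] (p : ι → Prop) [DecidablePred p] :
    ∫⁻ x in piece A B p, ENNReal.ofReal (Real.exp (H w (fun i : {i // p i} => x i))) *
      ENNReal.ofReal (Real.exp (H w (fun i : {i // ¬ p i} => x i))) =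
      Q w A {i // p i} * Q w B {i // ¬ p i} := by
  have hT := volume_preserving_piEquivPiSubtypeProd (fun _ : ι => E) p
  have h1 : piece A B p = (MeasurableEquiv.piEquivPiSubtypeProd (fun _ : ι => E) p) ⁻¹'
      ((Set.univ.pi fun _ : {i // p i} => A) ×ˢ (Set.univ.pi fun _ : {i // ¬ p i} => B)) := by
    ext x
    simp only [piece, Set.mem_ofPred_eq, Set.mem_preimage, Set.mem_prod, Set.mem_univ_pi]
    constructor
    · intro h
      exact ⟨fun i => (h i.1).1 i.2, fun i => (h i.1).2 i.2⟩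
    · rintro ⟨h2, h3⟩ i
      exact ⟨fun hi => h2 ⟨i, hi⟩, fun hi => h3 ⟨i, hi⟩⟩
  have h2 := hT.setLIntegral_comp_preimage_emb (MeasurableEquiv.measurableEmbedding _)
    (fun q : ({i // p i} → E) × ({i // ¬ p i} → E) => ENNReal.ofReal (Real.exp (H w q.1)) *
      ENNReal.ofReal (Real.exp (H w q.2)))
    ((Set.univ.pi fun _ : {i // p i} => A) ×ˢ (Set.univ.pi fun _ : {i // ¬ p i} => B))
  rw [h1]
  refine Eq.trans ?_ (h2.trans ?_)
  · rfl
  · rw [Measure.volume_eq_prod, ← Measure.prod_restrict]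
    exact lintegral_prod_mul (f := fun y : {i // p i} → E => ENNReal.ofReal (Real.exp (H w y)))
      (g := fun y : {i // ¬ p i} → E => ENNReal.ofReal (Real.exp (H w y)))
      (measurable_expH hw).aemeasurable (measurable_expH hw).aemeasurable

theorem piece_eq (w : E → E → ℝ) (hw : Measurable (Function.uncurry w)) {A B : Set E}
    (hA : MeasurableSet A) (hB : MeasurableSet B)
    (h0 : ∀ x ∈ A, ∀ y ∈ B, w x y = 0 ∧ w y x = 0)
    {ι : Type} [Fintype ι] (p : ι → Prop) [DecidablePred p] :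
    ∫⁻ x in piece A B p, ENNReal.ofReal (Real.exp (H w x)) =
      Q w A {i // p i} * Q w B {i // ¬ p i} := by
  rw [← lintegral_piece w hw A B p]
  refine setLIntegral_congr_fun (piece_measurable hA hB _) fun x hx => ?_
  rw [← ENNReal.ofReal_mul (by positivity), ← Real.exp_add, H_split w p x]
  have h1 : ∑ i : {i // p i}, ∑ j : {j // ¬ p j}, w (x i) (x j) = 0 :=
    Finset.sum_eq_zero fun i _ => Finset.sum_eq_zero fun j _ =>
      (h0 _ ((hx i).1 i.2) _ ((hx j).2 j.2)).1
  have h2 : ∑ i : {i // ¬ p i}, ∑ j : {j // p j}, w (x i) (x j) = 0 :=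
    Finset.sum_eq_zero fun i _ => Finset.sum_eq_zero fun j _ =>
      (h0 _ ((hx j).1 j.2) _ ((hx i).2 i.2)).2
  rw [h1, h2]
  congr 2
  ring

theorem piece_ge (w : E → E → ℝ) (hw : Measurable (Function.uncurry w)) {A B : Set E}
    (hA : MeasurableSet A) (hB : MeasurableSet B)
    (h0 : ∀ x ∈ A, ∀ y ∈ B, 0 ≤ w x y ∧ 0 ≤ w y x)
    {ι : Type} [Fintype ι] (p : ι → Prop) [DecidablePred p] :
    Q w A {i // p i} * Q w B {i // ¬ p i} ≤
    ∫⁻ x in piece A B p, ENNReal.ofReal (Real.exp (H w x)) := by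
  rw [← lintegral_piece w hw A B p]
  refine setLIntegral_mono' (piece_measurable hA hB _) fun x hx => ?_
  rw [← ENNReal.ofReal_mul (by positivity), ← Real.exp_add, H_split w p x]
  have h1 : 0 ≤ ∑ i : {i // p i}, ∑ j : {j // ¬ p j}, w (x i) (x j) :=
    Finset.sum_nonneg fun i _ => Finset.sum_nonneg fun j _ =>
      (h0 _ ((hx i).1 i.2) _ ((hx j).2 j.2)).1
  have h2 : 0 ≤ ∑ i : {i // ¬ p i}, ∑ j : {j // p j}, w (x i) (x j) :=
    Finset.sum_nonneg fun i _ => Finset.sum_nonneg fun j _ =>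
      (h0 _ ((hx j).1 j.2) _ ((hx i).2 i.2)).2
  refine ENNReal.ofReal_le_ofReal (Real.exp_le_exp.2 ?_)
  linarith

theorem pi_union_eq (A B : Set E) (N : ℕ) :
    (Set.univ.pi fun _ : Fin N => A ∪ B) = ⋃ S : Finset (Fin N), piece A B (fun i => i ∈ S) := by
  classical
  ext x
  simp only [Set.mem_univ_pi, Set.mem_iUnion, piece, Set.mem_ofPred_eq]
  constructor
  · intro h
    refine ⟨Finset.univ.filter fun i => x i ∈ A, fun i => ?_⟩
    simp only [Finset.mem_filter, Finset.mem_univ, true_and]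
    exact ⟨fun h => h, fun h2 => (h i).resolve_left h2⟩
  · rintro ⟨S, hS⟩ i
    by_cases hi : i ∈ S
    · exact Or.inl ((hS i).1 hi)
    · exact Or.inr ((hS i).2 hi)

theorem piece_disjoint {A B : Set E} (hAB : Disjoint A B) (N : ℕ) :
    Pairwise (Function.onFun Disjoint fun S : Finset (Fin N) => piece A B (fun i => i ∈ S)) := by
  intro S T hST
  rw [Function.onFun, Set.disjoint_left]
  intro x hx hy
  apply hST
  ext i
  constructor
  · intro hi
    by_contra hj
    exact Set.disjoint_left.1 hAB ((hx i).1 hi) ((hy i).2 hj)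
  · intro hi
    by_contra hj
    exact Set.disjoint_left.1 hAB ((hy i).1 hi) ((hx i).2 hj)

theorem Q_union_eq (w : E → E → ℝ) {A B : Set E}
    (hA : MeasurableSet A) (hB : MeasurableSet B) (hAB : Disjoint A B) (N : ℕ) :
    Q w (A ∪ B) (Fin N) = ∑ S : Finset (Fin N),
      ∫⁻ x in piece A B (fun i => i ∈ S), ENNReal.ofReal (Real.exp (H w x)) := by
  unfold Q
  rw [pi_union_eq, lintegral_iUnion (fun S => piece_measurable hA hB _) (piece_disjoint hAB N),
    tsum_fintype]

theorem Q_subtype_mem (w : E → E → ℝ) (A : Set E) {N : ℕ} (S : Finset (Fin N)) :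
    Q w A {i // i ∈ S} = Q w A (Fin S.card) :=
  Q_reindex w A S.equivFin

theorem Q_subtype_notMem (w : E → E → ℝ) (A : Set E) {N : ℕ} (S : Finset (Fin N)) :
    Q w A {i // ¬ i ∈ S} = Q w A (Fin (N - S.card)) := by
  refine Q_reindex w A (Fintype.equivFinOfCardEq ?_)
  rw [Fintype.card_subtype_compl, Fintype.card_fin, Fintype.card_coe]

theorem sum_pieces (f g : ℕ → ℝ≥0∞) (N : ℕ) :
    ∑ S : Finset (Fin N), f S.card * g (N - S.card) =
      ∑ k ∈ Finset.range (N + 1), (N.choose k : ℝ≥0∞) * (f k * g (N - k)) := by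
  have := Finset.sum_powerset_apply_card (fun k => f k * g (N - k))
    (x := (Finset.univ : Finset (Fin N)))
  rw [Finset.powerset_univ, Finset.card_univ, Fintype.card_fin] at this
  rw [this]
  simp only [nsmul_eq_mul]

/-- weights of the grand canonical sum -/
noncomputable def fwt (a : ℝ) (N : ℕ) : ℝ≥0∞ := ENNReal.ofReal (Real.exp (a * N) / (N.factorial : ℝ))

theorem fwt_mul (a : ℝ) {N k : ℕ} (hk : k ≤ N) :
    fwt a N * (N.choose k : ℝ≥0∞) = fwt a k * fwt a (N - k) := by
  unfold fwt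
  rw [← ENNReal.ofReal_natCast, ← ENNReal.ofReal_mul (by positivity),
    ← ENNReal.ofReal_mul (by positivity)]
  congr 1
  rw [Nat.cast_choose ℝ hk]
  have h1 : Real.exp (a * N) = Real.exp (a * k) * Real.exp (a * ((N - k : ℕ) : ℝ)) := by
    rw [← Real.exp_add]
    congr 1
    rw [Nat.cast_sub hk]
    ring
  rw [h1]
  have := Nat.factorial_pos N
  have := Nat.factorial_pos k
  have := Nat.factorial_pos (N - k)
  field_simp

theorem cauchy_prod (u v : ℕ → ℝ≥0∞) :
    ∑' N : ℕ, ∑ k ∈ Finset.range (N + 1), u k * v (N - k) = (∑' k, u k) * (∑' l, v l) := by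
  have h1 : (∑' k, u k) * (∑' l, v l) = ∑' p : ℕ × ℕ, u p.1 * v p.2 := by
    rw [ENNReal.tsum_prod (f := fun k l => u k * v l), ← ENNReal.tsum_mul_right]
    refine tsum_congr fun k => ?_
    rw [ENNReal.tsum_mul_left]
  rw [h1, ← (Finset.HasAntidiagonal.sigmaAntidiagonalEquivProd (A := ℕ)).tsum_eq (fun p : ℕ × ℕ => u p.1 * v p.2),
    ENNReal.tsum_sigma']
  refine tsum_congr fun N => ?_
  rw [← Finset.Nat.sum_antidiagonal_eq_sum_range_succ (fun k l => u k * v l)]
  rw [tsum_fintype]
  simp only [Finset.HasAntidiagonal.sigmaAntidiagonalEquivProd_apply]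
  exact (Finset.sum_coe_sort (Finset.HasAntidiagonal.antidiagonal N) (fun p : ℕ × ℕ => u p.1 * v p.2)).symm

/-- Product of two grand canonical sums. -/
theorem Xi_mul_Xi (w : E → E → ℝ) (A B : Set E) (a : ℝ) :
    Xi w A a * Xi w B a = ∑' N : ℕ, fwt a N *
      ∑ S : Finset (Fin N), Q w A {i // i ∈ S} * Q w B {i // ¬ i ∈ S} := by
  have h1 : Xi w A a = ∑' k, fwt a k * Q w A (Fin k) := rfl
  have h2 : Xi w B a = ∑' k, fwt a k * Q w B (Fin k) := rfl
  rw [h1, h2, ← cauchy_prod]
  refine tsum_congr fun N => ?_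
  simp_rw [Q_subtype_mem, Q_subtype_notMem]
  rw [sum_pieces (fun k => Q w A (Fin k)) (fun k => Q w B (Fin k)), Finset.mul_sum]
  refine Finset.sum_congr rfl fun k hk => ?_
  rw [← mul_assoc (fwt a N), fwt_mul a (Nat.lt_succ_iff.1 (Finset.mem_range.1 hk))]
  ring

/-- Exact factorisation when there is no cross interaction. -/
theorem Xi_union (w : E → E → ℝ) (hw : Measurable (Function.uncurry w)) {A B : Set E}
    (hA : MeasurableSet A) (hB : MeasurableSet B) (hAB : Disjoint A B)
    (h0 : ∀ x ∈ A, ∀ y ∈ B, w x y = 0 ∧ w y x = 0) (a : ℝ) :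
    Xi w (A ∪ B) a = Xi w A a * Xi w B a := by
  rw [Xi_mul_Xi]
  unfold Xi
  refine tsum_congr fun N => ?_
  unfold fwt
  congr 1
  rw [Q_union_eq w hA hB hAB]
  refine Finset.sum_congr rfl fun S _ => ?_
  refine (piece_eq w hw hA hB h0 (fun i => i ∈ S)).trans ?_
  congr 1
  exact congrArg (fun inst => @Q w A _ inst) (Subsingleton.elim _ _)

/-- Superadditivity when the cross interaction is nonnegative. -/
theorem Xi_union_ge (w : E → E → ℝ) (hw : Measurable (Function.uncurry w)) {A B : Set E}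
    (hA : MeasurableSet A) (hB : MeasurableSet B) (hAB : Disjoint A B)
    (h0 : ∀ x ∈ A, ∀ y ∈ B, 0 ≤ w x y ∧ 0 ≤ w y x) (a : ℝ) :
    Xi w A a * Xi w B a ≤ Xi w (A ∪ B) a := by
  rw [Xi_mul_Xi]
  unfold Xi
  refine ENNReal.tsum_le_tsum fun N => ?_
  unfold fwt
  refine mul_le_mul_right ?_ _
  rw [Q_union_eq w hA hB hAB]
  refine Finset.sum_le_sum fun S _ => ?_
  refine le_trans (le_of_eq ?_) (piece_ge w hw hA hB h0 (fun i => i ∈ S))
  congr 1
  exact congrArg (fun inst => @Q w A _ inst) (Subsingleton.elim _ _)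

theorem Xi_empty (w : E → E → ℝ) (a : ℝ) : Xi w ∅ a = 1 := by
  unfold Xi
  rw [tsum_eq_single 0]
  · simp [Q_fin_zero]
  · intro N hN
    have : (Set.univ.pi fun _ : Fin N => (∅ : Set E)) = ∅ := by
      rw [Set.univ_pi_eq_empty_iff]
      exact ⟨⟨0, Nat.pos_of_ne_zero hN⟩, rfl⟩
    unfold Q
    rw [this]
    simp

theorem Xi_biUnion (w : E → E → ℝ) (hw : Measurable (Function.uncurry w)) {κ : Type}
    (s : Finset κ) (D : κ → Set E) (hD : ∀ c ∈ s, MeasurableSet (D c))
    (hdisj : ∀ c ∈ s, ∀ d ∈ s, c ≠ d → Disjoint (D c) (D d))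
    (h0 : ∀ c ∈ s, ∀ d ∈ s, c ≠ d → ∀ x ∈ D c, ∀ y ∈ D d, w x y = 0) (a : ℝ) :
    Xi w (⋃ c ∈ s, D c) a = ∏ c ∈ s, Xi w (D c) a := by
  classical
  induction s using Finset.induction_on with
  | empty => simp [Xi_empty]
  | insert c s hc ih =>
    rw [Finset.set_biUnion_insert, Finset.prod_insert hc, ← ih]
    · have hne : ∀ d ∈ s, c ≠ d := fun d hd h => hc (h ▸ hd)
      refine Xi_union w hw (hD c (Finset.mem_insert_self _ _)) ?_ ?_ ?_ a
      · exact Finset.measurableSet_biUnion _ fun d hd => hD d (Finset.mem_insert_of_mem hd)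
      · rw [Set.disjoint_iUnion₂_right]
        exact fun d hd => hdisj c (Finset.mem_insert_self _ _) d (Finset.mem_insert_of_mem hd)
          (hne d hd)
      · intro x hx y hy
        rw [Set.mem_iUnion₂] at hy
        obtain ⟨d, hd, hy⟩ := hy
        exact ⟨h0 c (Finset.mem_insert_self _ _) d (Finset.mem_insert_of_mem hd) (hne d hd) x hx y hy,
          h0 d (Finset.mem_insert_of_mem hd) c (Finset.mem_insert_self _ _) (hne d hd).symm
            y hy x hx⟩
    · exact fun d hd => hD d (Finset.mem_insert_of_mem hd)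
    · exact fun d hd e he => hdisj d (Finset.mem_insert_of_mem hd) e (Finset.mem_insert_of_mem he)
    · exact fun d hd e he => h0 d (Finset.mem_insert_of_mem hd) e (Finset.mem_insert_of_mem he)

theorem Xi_biUnion_ge (w : E → E → ℝ) (hw : Measurable (Function.uncurry w)) {κ : Type}
    (s : Finset κ) (D : κ → Set E) (hD : ∀ c ∈ s, MeasurableSet (D c))
    (hdisj : ∀ c ∈ s, ∀ d ∈ s, c ≠ d → Disjoint (D c) (D d))
    (h0 : ∀ c ∈ s, ∀ d ∈ s, c ≠ d → ∀ x ∈ D c, ∀ y ∈ D d, 0 ≤ w x y) (a : ℝ) :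
    ∏ c ∈ s, Xi w (D c) a ≤ Xi w (⋃ c ∈ s, D c) a := by
  classical
  induction s using Finset.induction_on with
  | empty => simp [Xi_empty]
  | insert c s hc ih =>
    have hne : ∀ d ∈ s, c ≠ d := fun d hd h => hc (h ▸ hd)
    rw [Finset.set_biUnion_insert, Finset.prod_insert hc]
    refine le_trans (mul_le_mul_right (ih ?_ ?_ ?_) _) ?_
    · exact fun d hd => hD d (Finset.mem_insert_of_mem hd)
    · exact fun d hd e he => hdisj d (Finset.mem_insert_of_mem hd) e (Finset.mem_insert_of_mem he)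
    · exact fun d hd e he => h0 d (Finset.mem_insert_of_mem hd) e (Finset.mem_insert_of_mem he)
    · refine Xi_union_ge w hw (hD c (Finset.mem_insert_self _ _)) ?_ ?_ ?_ a
      · exact Finset.measurableSet_biUnion _ fun d hd => hD d (Finset.mem_insert_of_mem hd)
      · rw [Set.disjoint_iUnion₂_right]
        exact fun d hd => hdisj c (Finset.mem_insert_self _ _) d (Finset.mem_insert_of_mem hd)
          (hne d hd)
      · intro x hx y hy
        rw [Set.mem_iUnion₂] at hy
        obtain ⟨d, hd, hy⟩ := hy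
        exact ⟨h0 c (Finset.mem_insert_self _ _) d (Finset.mem_insert_of_mem hd) (hne d hd) x hx y hy,
          h0 d (Finset.mem_insert_of_mem hd) c (Finset.mem_insert_self _ _) (hne d hd).symm
            y hy x hx⟩

end Vale.Agent.P171
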