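import Vale.Agent.P171.Variational
import Vale.Agent.P171.Bridge

open MeasureTheory Set Filter Topology
open scoped ENNReal NNReal

namespace Vale.Agent.P171

/-- the radial potential with weights `t` -/
noncomputable def phi (t : ℕ → ℝ) (r : ℝ) : ℝ := (if r < 1 then KK else 0) - vt t r

theorem phi_pair (t : ℕ → ℝ) : (fun x y : E => -phi t (dist x y)) = wt KK t := by
  funext x y
  unfold phi wt
  split_ifs <;> ring

theorem KK_pos : 0 < KK := by unfold KK; norm_num

theorem measurable_phi {t : ℕ → ℝ} (ht : Adm TT t) : Measurable (phi t) := by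
  refine Measurable.sub ?_ (continuous_vt ht.nonneg ht.summable).measurable
  exact Measurable.ite measurableSet_Iio measurable_const measurable_const

theorem locBounded_phi {t : ℕ → ℝ} (ht : Adm TT t) : LocBounded (phi t) := by
  intro a b _
  refine ⟨KK + TT, fun r _ => ?_⟩
  have h1 := vt_nonneg ht.nonneg r
  have h2 := (vt_le ht.nonneg ht.summable r).trans ht.le
  have h3 := KK_pos
  unfold phi
  rw [abs_le]
  split_ifs <;> constructor <;> linarith

theorem stable_phi {t : ℕ → ℝ} (ht : Adm TT t) : Stable (phi t) := by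
  refine ⟨KK / 2, fun N x _ => ?_⟩
  rw [energy_eq, phi_pair]
  have h1 := H_wt_nonpos TT_nonneg KK_ge' ht x
  have h2 : phi t 0 ≤ KK := by
    unfold phi
    rw [if_pos one_pos]
    linarith [vt_nonneg ht.nonneg 0]
  have h3 : (N : ℝ) * phi t 0 ≤ N * KK := mul_le_mul_of_nonneg_left h2 (Nat.cast_nonneg N)
  linarith

theorem tempered_phi {t : ℕ → ℝ} (ht : Adm TT t) : Tempered (phi t) := by
  refine ⟨1, 1, 1, one_pos, one_pos, one_pos, fun r hr => ?_⟩
  have h1 := vt_nonneg ht.nonneg r
  have h2 : 0 ≤ 1 * r ^ (-3 - 1 : ℝ) := by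
    have : 0 ≤ r := by linarith
    positivity
  unfold phi
  rw [if_neg (not_lt.2 hr)]
  linarith

theorem hasPressure_phi {t : ℕ → ℝ} (ht : Adm TT t) {z : ℝ} (hz : 0 < z) :
    HasPressure (phi t) 1 z (press KK t (Real.log z + phi t 0 / 2)) := by
  have hb := bridge (measurable_phi ht) (fun N x => by
    rw [phi_pair]
    exact H_wt_nonpos TT_nonneg KK_ge' ht x) hz
  refine ⟨hb.1, hb.2.1, ?_⟩
  have h := (press_spec TT_nonneg KK_ge' ht (Real.log z + phi t 0 / 2)).1
  refine h.congr' ?_
  filter_upwards [eventually_gt_atTop 0] with L hL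
  rw [hb.2.2 L hL, phi_pair]

theorem exists_transition : ∃ φ : ℝ → ℝ, Measurable φ ∧ LocBounded φ ∧ Stable φ ∧ Tempered φ ∧
    ∃ p : ℝ → ℝ, (∀ z : ℝ, 0 < z → HasPressure φ 1 z (p z)) ∧
      ∃ z : ℝ, 0 < z ∧ ¬ DifferentiableAt ℝ p z := by
  obtain ⟨t, a, ht, hnd⟩ := exists_nondiff
  refine ⟨phi t, measurable_phi ht, locBounded_phi ht, stable_phi ht, tempered_phi ht,
    fun z => press KK t (Real.log z + phi t 0 / 2), fun z hz => hasPressure_phi ht hz,
    Real.exp (a - phi t 0 / 2), Real.exp_pos _, fun hd => hnd ?_⟩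
  have h1 : DifferentiableAt ℝ (fun b : ℝ => Real.exp (b - phi t 0 / 2)) a := by fun_prop
  have h2 := DifferentiableAt.comp a hd h1
  have h3 : ((fun z => press KK t (Real.log z + phi t 0 / 2)) ∘
      fun b : ℝ => Real.exp (b - phi t 0 / 2)) = press KK t := by
    funext b
    simp
  rwa [h3] at h2

end Vale.Agent.P171
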