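import Vale.Agent.P171.Basic

open MeasureTheory Set Filter Topology
open scoped ENNReal NNReal

namespace Vale.Agent.P171

/-! Facts about the Gaussian kernel `G L (dist x y)`. -/

/-- one-dimensional majorant -/
noncomputable def m1 (L h : ℝ) (u : ℤ) : ℝ :=
  (Real.sqrt Real.pi * L)⁻¹ * Real.exp (-((max ((|u| : ℤ) - 1 : ℝ) 0 * h) ^ 2 / L ^ 2))

theorem m1_nonneg {L : ℝ} (hL : 0 < L) (h : ℝ) (u : ℤ) : 0 ≤ m1 L h u := by
  unfold m1
  have : 0 < Real.sqrt Real.pi := Real.sqrt_pos.2 Real.pi_pos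
  positivity

theorem G_eq_prod (L : ℝ) (x y : E) :
    G L (dist x y) = ∏ α, ((Real.sqrt Real.pi * L)⁻¹ * Real.exp (-((x α - y α) ^ 2 / L ^ 2))) := by
  unfold G
  rw [Finset.prod_mul_distrib, Finset.prod_const, ← Real.exp_sum, EuclideanSpace.dist_sq_eq]
  simp only [Finset.card_univ, Fintype.card_fin, Real.dist_eq, sq_abs]
  rw [Finset.sum_neg_distrib, Finset.sum_div]

theorem abs_sub_ge {h : ℝ} (hh : 0 < h) (θ a b : ℝ) :
    max ((|⌊(a - θ) / h⌋ - ⌊(b - θ) / h⌋| : ℤ) - 1 : ℝ) 0 * h ≤ |a - b| := by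
  rcases max_cases ((|⌊(a - θ) / h⌋ - ⌊(b - θ) / h⌋| : ℤ) - 1 : ℝ) 0 with ⟨h1, h2⟩ | ⟨h1, h2⟩
  · rw [h1]
    have h3 := Int.floor_le ((a - θ) / h)
    have h4 := Int.lt_floor_add_one ((a - θ) / h)
    have h5 := Int.floor_le ((b - θ) / h)
    have h6 := Int.lt_floor_add_one ((b - θ) / h)
    have h7 : ((|⌊(a - θ) / h⌋ - ⌊(b - θ) / h⌋| : ℤ) : ℝ) - 1 ≤ |(a - θ) / h - (b - θ) / h| := by
      push_cast
      rcases abs_cases ((⌊(a - θ) / h⌋ : ℝ) - ⌊(b - θ) / h⌋) with ⟨h8, _⟩ | ⟨h8, _⟩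
      · rw [h8]
        refine le_trans ?_ (le_abs_self _)
        linarith
      · rw [h8]
        refine le_trans ?_ (neg_le_abs _)
        linarith
    have h8 : |(a - θ) / h - (b - θ) / h| * h = |a - b| := by
      rw [← sub_div, abs_div, abs_of_pos hh, div_mul_cancel₀ _ hh.ne']
      congr 1
      ring
    rw [← h8]
    exact mul_le_mul_of_nonneg_right h7 hh.le
  · rw [h1, zero_mul]
    exact abs_nonneg _

theorem G_le_prod {L h : ℝ} (hL : 0 < L) (hh : 0 < h) (θ : Fin 3 → ℝ) (x y : E) :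
    G L (dist x y) ≤ ∏ α, m1 L h (cell h θ x α - cell h θ y α) := by
  rw [G_eq_prod]
  have hs : 0 < Real.sqrt Real.pi := Real.sqrt_pos.2 Real.pi_pos
  refine Finset.prod_le_prod (fun α _ => by positivity) fun α _ => ?_
  unfold m1 cell
  refine mul_le_mul_of_nonneg_left (Real.exp_le_exp.2 ?_) (by positivity)
  have h1 := abs_sub_ge hh (θ α) (x α) (y α)
  have h2 : 0 ≤ max ((|⌊(x α - θ α) / h⌋ - ⌊(y α - θ α) / h⌋| : ℤ) - 1 : ℝ) 0 * h := by
    positivity
  have h3 := pow_le_pow_left₀ h2 h1 2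
  rw [sq_abs] at h3
  rw [neg_le_neg_iff]
  gcongr

/-- number of pairs with a given difference -/
theorem card_diff_le {K : Type} [AddCommGroup K] [DecidableEq K] {ι : Type} [Fintype ι]
    (c : ι → K) (k : K) :
    ∑ i, ∑ j, (if c i - c j = k then (1:ℝ) else 0) ≤ ∑ i, ∑ j, (if c i = c j then (1:ℝ) else 0) := by
  classical
  set n : K → ℝ := fun u => ∑ i, (if c i = u then (1:ℝ) else 0) with hn
  have hn0 : ∀ u, 0 ≤ n u := fun u => Finset.sum_nonneg fun i _ => by split_ifs <;> norm_num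
  set T : Finset K := Finset.univ.image c with hT
  have hnT : ∀ u, u ∉ T → n u = 0 := by
    intro u hu
    rw [hn]
    refine Finset.sum_eq_zero fun i _ => ?_
    rw [if_neg]
    rintro rfl
    exact hu (Finset.mem_image_of_mem _ (Finset.mem_univ i))
  have hsum : ∀ f : K → ℝ, ∑ j, f (c j) = ∑ u ∈ T, n u * f u := by
    intro f
    have := Finset.sum_comp (s := (Finset.univ : Finset ι)) f c
    rw [this]
    refine Finset.sum_congr rfl fun u _ => ?_
    rw [nsmul_eq_mul]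
    congr 1
    rw [hn]
    simp
  have h1 : ∑ i, ∑ j, (if c i - c j = k then (1:ℝ) else 0) = ∑ u ∈ T, n u * n (u + k) := by
    rw [Finset.sum_comm, ← hsum (fun u => n (u + k))]
    refine Finset.sum_congr rfl fun j _ => ?_
    rw [hn]
    refine Finset.sum_congr rfl fun i _ => ?_
    have : (c i - c j = k) ↔ (c i = c j + k) := by
      rw [sub_eq_iff_eq_add, add_comm]
    simp only [this]
  have h2 : ∑ i, ∑ j, (if c i = c j then (1:ℝ) else 0) = ∑ u ∈ T, n u * n u := by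
    rw [Finset.sum_comm, ← hsum n]
  rw [h1, h2]
  have h3 : ∑ u ∈ T, n (u + k) * n (u + k) ≤ ∑ u ∈ T, n u * n u := by
    have h4 : ∑ u ∈ T, n (u + k) * n (u + k) = ∑ v ∈ T.map (addRightEmbedding k), n v * n v := by
      rw [Finset.sum_map]
      rfl
    rw [h4]
    have h5 : ∑ v ∈ T.map (addRightEmbedding k), n v * n v =
        ∑ v ∈ (T.map (addRightEmbedding k)) ∩ T, n v * n v := by
      symm
      refine Finset.sum_subset Finset.inter_subset_left fun v hv hv' => ?_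
      have : v ∉ T := fun hvT => hv' (Finset.mem_inter.2 ⟨hv, hvT⟩)
      rw [hnT v this, mul_zero]
    rw [h5]
    exact Finset.sum_le_sum_of_subset_of_nonneg Finset.inter_subset_right
      fun v _ _ => mul_nonneg (hn0 v) (hn0 v)
  have h6 : ∑ u ∈ T, n u * n (u + k) ≤ ∑ u ∈ T, (n u * n u + n (u + k) * n (u + k)) / 2 := by
    refine Finset.sum_le_sum fun u _ => ?_
    nlinarith [sq_nonneg (n u - n (u + k))]
  rw [← Finset.sum_div, Finset.sum_add_distrib] at h6
  linarith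

theorem sum_Icc_m1 (F : ℕ → ℝ) (n : ℕ) :
    ∑ u ∈ Finset.Icc (-(n:ℤ)) n, F u.natAbs = F 0 + 2 * ∑ j ∈ Finset.range n, F (j + 1) := by
  induction n with
  | zero => simp
  | succ n ih =>
    have h1 : Finset.Icc (-((n + 1 : ℕ) : ℤ)) ((n + 1 : ℕ) : ℤ) =
        insert (-((n:ℤ) + 1)) (insert ((n:ℤ) + 1) (Finset.Icc (-(n:ℤ)) n)) := by
      ext u
      simp only [Finset.mem_Icc, Finset.mem_insert]
      push_cast
      omega
    rw [h1, Finset.sum_insert, Finset.sum_insert, ih, Finset.sum_range_succ]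
    · have h2 : (-((n:ℤ) + 1)).natAbs = n + 1 := by omega
      have h3 : ((n:ℤ) + 1).natAbs = n + 1 := by omega
      rw [h2, h3]
      ring
    · simp only [Finset.mem_Icc]; omega
    · simp only [Finset.mem_Icc, Finset.mem_insert]; omega

theorem sum_m1_le {L h : ℝ} (hL : 0 < L) (hh : 0 < h) (n : ℕ) :
    ∑ u ∈ Finset.Icc (-(n:ℤ)) n, m1 L h u ≤ h⁻¹ * (1 + 3 * h / (Real.sqrt Real.pi * L)) := by
  have hs : 0 < Real.sqrt Real.pi := Real.sqrt_pos.2 Real.pi_pos
  set F : ℕ → ℝ := fun j => (Real.sqrt Real.pi * L)⁻¹ *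
    Real.exp (-((max ((j:ℝ) - 1) 0 * h) ^ 2 / L ^ 2)) with hF
  have h1 : ∀ u : ℤ, m1 L h u = F u.natAbs := by
    intro u
    rw [hF]
    unfold m1
    have : ((|u| : ℤ) : ℝ) = (u.natAbs : ℝ) := by
      rw [Int.abs_eq_natAbs]
      simp
    simp only [this]
  simp_rw [h1]
  rw [sum_Icc_m1 F n]
  have hF0 : F 0 = (Real.sqrt Real.pi * L)⁻¹ := by
    rw [hF]
    simp
  have hF1 : ∀ j : ℕ, F (j + 1) = (Real.sqrt Real.pi * L)⁻¹ *
      Real.exp (-(h ^ 2 / L ^ 2) * (j:ℝ) ^ 2) := by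
    intro j
    rw [hF]
    simp only
    congr 2
    have : max (((j + 1 : ℕ) : ℝ) - 1) 0 = (j:ℝ) := by
      push_cast
      rw [add_sub_cancel_right]
      exact max_eq_left (by positivity)
    rw [this]
    ring
  have hb : (0:ℝ) < h ^ 2 / L ^ 2 := by positivity
  -- the sum of the tail
  have h2 : ∑ j ∈ Finset.range n, Real.exp (-(h ^ 2 / L ^ 2) * (j:ℝ) ^ 2) ≤
      1 + Real.sqrt Real.pi * L / (2 * h) := by
    have hanti : AntitoneOn (fun s : ℝ => Real.exp (-(h ^ 2 / L ^ 2) * s ^ 2))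
        (Icc (0:ℝ) (0 + (n:ℕ))) := by
      intro s hs t _ hst
      refine Real.exp_le_exp.2 ?_
      have : s ^ 2 ≤ t ^ 2 := pow_le_pow_left₀ hs.1 hst 2
      nlinarith
    have h3 := AntitoneOn.sum_le_integral hanti
    have h4 : ∫ s in (0:ℝ)..(0 + (n:ℕ)), Real.exp (-(h ^ 2 / L ^ 2) * s ^ 2) ≤
        ∫ s in Ioi (0:ℝ), Real.exp (-(h ^ 2 / L ^ 2) * s ^ 2) := by
      rw [intervalIntegral.integral_of_le (by positivity)]
      refine setIntegral_mono_set (integrable_exp_neg_mul_sq hb).integrableOn ?_ ?_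
      · exact Eventually.of_forall fun s => (Real.exp_pos _).le
      · exact (Ioc_subset_Ioi_self).eventuallyLE
    rw [integral_gaussian_Ioi] at h4
    have h5 : Real.sqrt (Real.pi / (h ^ 2 / L ^ 2)) / 2 = Real.sqrt Real.pi * L / (2 * h) := by
      have : Real.sqrt (Real.pi / (h ^ 2 / L ^ 2)) = Real.sqrt Real.pi * L / h := by
        rw [Real.sqrt_eq_iff_mul_self_eq (by positivity) (by positivity)]
        have := Real.mul_self_sqrt Real.pi_pos.le
        field_simp
        nlinarith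
      rw [this]
      field_simp
    rw [h5] at h4
    have h6 : ∑ j ∈ Finset.range n, Real.exp (-(h ^ 2 / L ^ 2) * (j:ℝ) ^ 2) ≤
        ∑ j ∈ Finset.range (n + 1), Real.exp (-(h ^ 2 / L ^ 2) * (j:ℝ) ^ 2) :=
      Finset.sum_le_sum_of_subset_of_nonneg (Finset.range_mono (Nat.le_succ n))
        fun _ _ _ => (Real.exp_pos _).le
    refine h6.trans ?_
    rw [Finset.sum_range_succ']
    simp only [zero_add] at h3
    have h7 : ∑ k ∈ Finset.range n, Real.exp (-(h ^ 2 / L ^ 2) * ((k + 1 : ℕ) : ℝ) ^ 2) ≤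
        Real.sqrt Real.pi * L / (2 * h) := by
      refine le_trans (le_of_eq ?_) (h3.trans (by simpa using h4))
      rfl
    simp only [Nat.cast_zero]
    have h8 : Real.exp (-(h ^ 2 / L ^ 2) * (0:ℝ) ^ 2) = 1 := by simp
    rw [h8]
    linarith
  rw [hF0]
  simp_rw [hF1]
  rw [← Finset.mul_sum]
  have h9 : (0:ℝ) < (Real.sqrt Real.pi * L)⁻¹ := by positivity
  have h10 := mul_le_mul_of_nonneg_left h2 h9.le
  have h11 : (Real.sqrt Real.pi * L)⁻¹ + 2 * ((Real.sqrt Real.pi * L)⁻¹ *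
      (1 + Real.sqrt Real.pi * L / (2 * h))) = h⁻¹ * (1 + 3 * h / (Real.sqrt Real.pi * L)) := by
    field_simp
    ring
  linarith

/-- Upper bound of the Gaussian double sum by the number of pairs in the same cell. -/
theorem gauss_cell {L h : ℝ} (hL : 0 < L) (hh : 0 < h) (θ : Fin 3 → ℝ) {ι : Type} [Fintype ι]
    (x : ι → E) :
    ∑ i, ∑ j, G L (dist (x i) (x j)) ≤
      (h⁻¹ * (1 + 3 * h / (Real.sqrt Real.pi * L))) ^ 3 * ∑ i, ∑ j, same h θ (x i) (x j) := by
  classical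
  set c : ι → (Fin 3 → ℤ) := fun i => cell h θ (x i) with hc
  set M : (Fin 3 → ℤ) → ℝ := fun k => ∏ α, m1 L h (k α) with hM
  have hM0 : ∀ k, 0 ≤ M k := fun k => Finset.prod_nonneg fun α _ => m1_nonneg hL h _
  set S : ℝ := ∑ i, ∑ j, (if c i = c j then (1:ℝ) else 0) with hS
  have hS0 : 0 ≤ S := Finset.sum_nonneg fun i _ => Finset.sum_nonneg fun j _ => by
    split_ifs <;> norm_num
  have h1 : ∑ i, ∑ j, G L (dist (x i) (x j)) ≤ ∑ i, ∑ j, M (c i - c j) :=
    Finset.sum_le_sum fun i _ => Finset.sum_le_sum fun j _ => G_le_prod hL hh θ (x i) (x j)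
  set K : Finset (Fin 3 → ℤ) := (Finset.univ ×ˢ Finset.univ).image
    (fun p : ι × ι => c p.1 - c p.2) with hK
  have h2 : ∑ i, ∑ j, M (c i - c j) = ∑ k ∈ K, M k *
      ∑ i, ∑ j, (if c i - c j = k then (1:ℝ) else 0) := by
    rw [← Finset.sum_product' (s := (Finset.univ : Finset ι)) (t := (Finset.univ : Finset ι))
      (f := fun i j => M (c i - c j))]
    rw [Finset.sum_comp (s := (Finset.univ : Finset ι) ×ˢ (Finset.univ : Finset ι)) M
      (fun p : ι × ι => c p.1 - c p.2)]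
    refine Finset.sum_congr rfl fun k _ => ?_
    rw [nsmul_eq_mul, mul_comm]
    congr 1
    rw [← Finset.sum_product' (s := (Finset.univ : Finset ι)) (t := (Finset.univ : Finset ι))
      (f := fun i j => (if c i - c j = k then (1:ℝ) else 0))]
    simp
  have h3 : ∑ k ∈ K, M k * ∑ i, ∑ j, (if c i - c j = k then (1:ℝ) else 0) ≤
      ∑ k ∈ K, M k * S :=
    Finset.sum_le_sum fun k _ => mul_le_mul_of_nonneg_left (card_diff_le c k) (hM0 k)
  have h4 : ∃ n : ℕ, K ⊆ Fintype.piFinset fun _ : Fin 3 => Finset.Icc (-(n:ℤ)) n := by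
    refine ⟨∑ k ∈ K, ∑ α, (k α).natAbs, fun k hk => ?_⟩
    rw [Fintype.mem_piFinset]
    intro α
    have h5 : (k α).natAbs ≤ ∑ k ∈ K, ∑ α, (k α).natAbs :=
      le_trans (Finset.single_le_sum (f := fun α => (k α).natAbs) (fun _ _ => Nat.zero_le _)
        (Finset.mem_univ α))
        (Finset.single_le_sum (f := fun k : Fin 3 → ℤ => ∑ α, (k α).natAbs)
          (fun _ _ => Nat.zero_le _) hk)
    rw [Finset.mem_Icc]
    omega
  obtain ⟨n, hn⟩ := h4
  have h5 : ∑ k ∈ K, M k ≤ (h⁻¹ * (1 + 3 * h / (Real.sqrt Real.pi * L))) ^ 3 := by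
    calc ∑ k ∈ K, M k ≤ ∑ k ∈ Fintype.piFinset fun _ : Fin 3 => Finset.Icc (-(n:ℤ)) n, M k :=
          Finset.sum_le_sum_of_subset_of_nonneg hn fun k _ _ => hM0 k
      _ = ∏ _α : Fin 3, ∑ u ∈ Finset.Icc (-(n:ℤ)) n, m1 L h u := by
          rw [Finset.prod_univ_sum]
      _ = (∑ u ∈ Finset.Icc (-(n:ℤ)) n, m1 L h u) ^ 3 := by simp
      _ ≤ _ := pow_le_pow_left₀ (Finset.sum_nonneg fun u _ => m1_nonneg hL h u)
          (sum_m1_le hL hh n) 3
  have h6 : S = ∑ i, ∑ j, same h θ (x i) (x j) := by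
    rw [hS]
    refine Finset.sum_congr rfl fun i _ => Finset.sum_congr rfl fun j _ => ?_
    unfold same
    simp only [hc]
  rw [← h6]
  calc ∑ i, ∑ j, G L (dist (x i) (x j)) ≤ ∑ k ∈ K, M k * S := by
        rw [h2] at h1
        exact h1.trans h3
    _ = (∑ k ∈ K, M k) * S := by rw [Finset.sum_mul]
    _ ≤ _ := mul_le_mul_of_nonneg_right h5 hS0

/-- one-dimensional square root of the Gaussian kernel -/
noncomputable def g1 (L u : ℝ) : ℝ :=
  Real.sqrt (2 / (Real.pi * L ^ 2)) * Real.exp (-(2 / L ^ 2 * u ^ 2))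

theorem g1_nonneg (L u : ℝ) : 0 ≤ g1 L u := by unfold g1; positivity

theorem g1_continuous (L : ℝ) : Continuous (g1 L) := by
  unfold g1
  fun_prop

theorem g1_integrable {L : ℝ} (hL : 0 < L) : Integrable (g1 L) := by
  unfold g1
  refine Integrable.const_mul ?_ _
  have h : (0:ℝ) < 2 / L ^ 2 := by positivity
  refine (integrable_exp_neg_mul_sq h).congr ?_
  filter_upwards with x
  rw [neg_mul]

theorem g1_integral {L : ℝ} (hL : 0 < L) : ∫ u, g1 L u = 1 := by
  unfold g1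
  rw [integral_const_mul]
  have h : (fun u : ℝ => Real.exp (-(2 / L ^ 2 * u ^ 2))) =
      fun u : ℝ => Real.exp (-(2 / L ^ 2) * u ^ 2) := by
    funext u
    rw [neg_mul]
  rw [h, integral_gaussian, ← Real.sqrt_mul (by positivity)]
  have : 2 / (Real.pi * L ^ 2) * (Real.pi / (2 / L ^ 2)) = 1 := by
    have := Real.pi_pos
    field_simp
  rw [this, Real.sqrt_one]

theorem g1_conv_integrand {L : ℝ} (hL : 0 < L) (a b : ℝ) (s : ℝ) :
    g1 L (a - s) * g1 L (b - s) =
      (2 / (Real.pi * L ^ 2) * Real.exp (-((a - b) ^ 2 / L ^ 2))) *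
        Real.exp (-(4 / L ^ 2) * (s - (a + b) / 2) ^ 2) := by
  have hpi := Real.pi_pos
  unfold g1
  have h2 : Real.sqrt (2 / (Real.pi * L ^ 2)) * Real.exp (-(2 / L ^ 2 * (a - s) ^ 2)) *
      (Real.sqrt (2 / (Real.pi * L ^ 2)) * Real.exp (-(2 / L ^ 2 * (b - s) ^ 2))) =
      (Real.sqrt (2 / (Real.pi * L ^ 2)) * Real.sqrt (2 / (Real.pi * L ^ 2))) *
      (Real.exp (-(2 / L ^ 2 * (a - s) ^ 2)) * Real.exp (-(2 / L ^ 2 * (b - s) ^ 2))) := by ring
  rw [h2, Real.mul_self_sqrt (by positivity), ← Real.exp_add, mul_assoc, ← Real.exp_add]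
  congr 2
  field_simp
  ring

theorem g1_conv_integrable {L : ℝ} (hL : 0 < L) (a b : ℝ) :
    Integrable (fun s => g1 L (a - s) * g1 L (b - s)) := by
  have h : (0:ℝ) < 4 / L ^ 2 := by positivity
  have := (integrable_exp_neg_mul_sq h).comp_sub_right ((a + b) / 2)
  refine (this.const_mul (2 / (Real.pi * L ^ 2) * Real.exp (-((a - b) ^ 2 / L ^ 2)))).congr ?_
  filter_upwards with s
  rw [g1_conv_integrand hL]

theorem g1_conv {L : ℝ} (hL : 0 < L) (a b : ℝ) :
    ∫ s, g1 L (a - s) * g1 L (b - s) =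
      (Real.sqrt Real.pi * L)⁻¹ * Real.exp (-((a - b) ^ 2 / L ^ 2)) := by
  have hpi := Real.pi_pos
  simp_rw [g1_conv_integrand hL]
  rw [integral_const_mul, integral_sub_right_eq_self (fun s => Real.exp (-(4 / L ^ 2) * s ^ 2)),
    integral_gaussian]
  have h3 : Real.sqrt (Real.pi / (4 / L ^ 2)) = Real.sqrt Real.pi * L / 2 := by
    rw [Real.sqrt_eq_iff_mul_self_eq (by positivity) (by positivity)]
    have := Real.mul_self_sqrt hpi.le
    field_simp
    nlinarith
  rw [h3]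
  have h4 : Real.sqrt Real.pi * Real.sqrt Real.pi = Real.pi := Real.mul_self_sqrt hpi.le
  have hs : 0 < Real.sqrt Real.pi := Real.sqrt_pos.2 hpi
  field_simp
  nlinarith [h4]

/-- three-dimensional square root of the Gaussian kernel -/
noncomputable def g3 (L : ℝ) (x : E) (z : Fin 3 → ℝ) : ℝ := ∏ α, g1 L (x α - z α)

theorem g3_nonneg (L : ℝ) (x : E) (z : Fin 3 → ℝ) : 0 ≤ g3 L x z :=
  Finset.prod_nonneg fun _ _ => g1_nonneg _ _

theorem g3_mul (L : ℝ) (x y : E) (z : Fin 3 → ℝ) :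
    g3 L x z * g3 L y z = ∏ α, (g1 L (x α - z α) * g1 L (y α - z α)) := by
  unfold g3
  rw [Finset.prod_mul_distrib]

theorem g3_conv {L : ℝ} (hL : 0 < L) (x y : E) :
    ∫ z : Fin 3 → ℝ, g3 L x z * g3 L y z = G L (dist x y) := by
  simp_rw [g3_mul]
  rw [integral_fintype_prod_volume_eq_prod (fun (α : Fin 3) (s : ℝ) =>
    g1 L (x α - s) * g1 L (y α - s))]
  simp_rw [g1_conv hL]
  unfold G
  rw [Finset.prod_mul_distrib, Finset.prod_const, ← Real.exp_sum, EuclideanSpace.dist_sq_eq]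
  simp only [Finset.card_univ, Fintype.card_fin, Real.dist_eq, sq_abs]
  rw [Finset.sum_neg_distrib, Finset.sum_div]

theorem g3_mul_integrable {L : ℝ} (hL : 0 < L) (x y : E) :
    Integrable (fun z : Fin 3 → ℝ => g3 L x z * g3 L y z) := by
  simp_rw [g3_mul]
  exact Integrable.fintype_prod_dep (f := fun (α : Fin 3) (s : ℝ) =>
    g1 L (x α - s) * g1 L (y α - s)) fun α => g1_conv_integrable hL _ _

theorem g3_continuous (L : ℝ) (x : E) : Continuous (g3 L x) := by
  unfold g3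
  refine continuous_finsetProd _ fun α _ => ?_
  exact (g1_continuous L).comp (continuous_const.sub (continuous_apply α))

/-- The box around the cube. -/
def bbox (l R : ℝ) : Set (Fin 3 → ℝ) := Set.univ.pi fun _ => Icc (-R) (l + R)

theorem bbox_measurable (l R : ℝ) : MeasurableSet (bbox l R) :=
  MeasurableSet.univ_pi fun _ => measurableSet_Icc

theorem bbox_compact (l R : ℝ) : IsCompact (bbox l R) :=
  isCompact_univ_pi fun _ => isCompact_Icc

theorem bbox_volume {l R : ℝ} (hl : 0 ≤ l) (hR : 0 ≤ R) :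
    (volume (bbox l R)).toReal = (l + 2 * R) ^ 3 := by
  unfold bbox
  rw [volume_pi_pi]
  simp only [Real.volume_Icc, Finset.prod_const, Finset.card_univ, Fintype.card_fin]
  rw [ENNReal.toReal_pow, ENNReal.toReal_ofReal (by linarith)]
  congr 1
  ring

theorem g3_bbox {L l R : ℝ} (hL : 0 < L) (hl : 0 ≤ l) (hR : 0 ≤ R) {x : E} (hx : x ∈ cube l) :
    (∫ u in (-R)..R, g1 L u) ^ 3 ≤ ∫ z in bbox l R, g3 L x z := by
  unfold bbox g3
  rw [volume_pi, Measure.restrict_pi_pi, integral_fintype_prod_eq_prod (fun (α : Fin 3) (s : ℝ) =>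
    g1 L (x α - s))]
  have h0 : 0 ≤ ∫ u in (-R)..R, g1 L u :=
    intervalIntegral.integral_nonneg (by linarith) fun u _ => g1_nonneg L u
  have h1 : ∀ α : Fin 3, (∫ u in (-R)..R, g1 L u) ≤
      ∫ s in Icc (-R) (l + R), g1 L (x α - s) := by
    intro α
    rw [integral_Icc_eq_integral_Ioc, ← intervalIntegral.integral_of_le (by linarith),
      intervalIntegral.integral_comp_sub_left (fun s => g1 L s)]
    have hx1 := (hx α).1
    have hx2 := (hx α).2
    refine intervalIntegral.integral_mono_interval (by linarith) (by linarith) (by linarith)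
      (Eventually.of_forall fun u => g1_nonneg L u) ?_
    exact (g1_continuous L).intervalIntegrable _ _
  calc (∫ u in (-R)..R, g1 L u) ^ 3 = ∏ _α : Fin 3, (∫ u in (-R)..R, g1 L u) := by simp
    _ ≤ _ := Finset.prod_le_prod (fun _ _ => h0) fun α _ => h1 α

/-- Lower bound of the Gaussian double sum (positive definiteness). -/
theorem gauss_lower {L : ℝ} (hL : 0 < L) :
    ∃ δ : ℝ → ℝ, Tendsto δ atTop (𝓝 1) ∧ ∀ R : ℝ, 0 ≤ R → ∀ l : ℝ, 0 ≤ l → ∀ α : ℝ, 0 ≤ α →
      ∀ {ι : Type} [Fintype ι] (x : ι → E), (∀ i, x i ∈ cube l) →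
      α * δ R * Fintype.card ι - α ^ 2 * (l + 2 * R) ^ 3 / 2 ≤
        (∑ i, ∑ j, G L (dist (x i) (x j))) / 2 := by
  refine ⟨fun R => (∫ u in (-R)..R, g1 L u) ^ 3, ?_, ?_⟩
  · have h := intervalIntegral_tendsto_integral (μ := volume) (f := g1 L) (g1_integrable hL)
      (tendsto_neg_atTop_atBot) (tendsto_id)
    rw [g1_integral hL] at h
    have := h.pow 3
    simpa using this
  · intro R hR l hl α hα ι _ x hx
    have hfin : volume (bbox l R) ≠ ∞ := (bbox_compact l R).measure_lt_top.ne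
    have hint2 : ∀ i j, IntegrableOn (fun z => g3 L (x i) z * g3 L (x j) z) (bbox l R) :=
      fun i j => (g3_mul_integrable hL _ _).integrableOn
    have hint1 : ∀ i, IntegrableOn (fun z => g3 L (x i) z) (bbox l R) :=
      fun i => (g3_continuous L (x i)).continuousOn.integrableOn_compact (bbox_compact l R)
    have hconst : IntegrableOn (fun _ : Fin 3 → ℝ => α ^ 2) (bbox l R) :=
      integrableOn_const hfin
    have h0 : 0 ≤ ∫ z in bbox l R, (∑ i, g3 L (x i) z - α) ^ 2 :=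
      integral_nonneg fun z => sq_nonneg _
    have h1 : ∫ z in bbox l R, (∑ i, g3 L (x i) z - α) ^ 2 =
        (∑ i, ∑ j, ∫ z in bbox l R, g3 L (x i) z * g3 L (x j) z) -
        2 * α * (∑ i, ∫ z in bbox l R, g3 L (x i) z) + α ^ 2 * (l + 2 * R) ^ 3 := by
      have h2 : ∀ z, (∑ i, g3 L (x i) z - α) ^ 2 =
          ((∑ i, ∑ j, g3 L (x i) z * g3 L (x j) z) - 2 * α * (∑ i, g3 L (x i) z)) + α ^ 2 := by
        intro z
        rw [← Finset.sum_mul_sum]
        ring
      simp_rw [h2]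
      rw [integral_add, integral_sub, integral_const_mul, integral_finsetSum,
        integral_finsetSum, setIntegral_const]
      · congr 1
        · congr 1
          refine Finset.sum_congr rfl fun i _ => ?_
          rw [integral_finsetSum _ fun j _ => hint2 i j]
        · rw [Measure.real, bbox_volume hl hR, smul_eq_mul]
          ring
      · exact fun i _ => hint1 i
      · exact fun i _ => integrable_finsetSum _ fun j _ => hint2 i j
      · exact integrable_finsetSum _ fun i _ => integrable_finsetSum _ fun j _ => hint2 i j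
      · exact (integrable_finsetSum _ fun i _ => hint1 i).const_mul _
      · exact (integrable_finsetSum _ fun i _ => integrable_finsetSum _ fun j _ => hint2 i j).sub
          ((integrable_finsetSum _ fun i _ => hint1 i).const_mul _)
      · exact hconst
    rw [h1] at h0
    have h3 : (∑ i, ∑ j, ∫ z in bbox l R, g3 L (x i) z * g3 L (x j) z) ≤
        ∑ i, ∑ j, G L (dist (x i) (x j)) := by
      refine Finset.sum_le_sum fun i _ => Finset.sum_le_sum fun j _ => ?_
      rw [← g3_conv hL]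
      refine setIntegral_le_integral (g3_mul_integrable hL _ _) ?_
      exact Eventually.of_forall fun z => mul_nonneg (g3_nonneg _ _ _) (g3_nonneg _ _ _)
    have h4 : (Fintype.card ι : ℝ) * (∫ u in (-R)..R, g1 L u) ^ 3 ≤
        ∑ i, ∫ z in bbox l R, g3 L (x i) z := by
      have : ∑ _i : ι, (∫ u in (-R)..R, g1 L u) ^ 3 ≤ ∑ i, ∫ z in bbox l R, g3 L (x i) z :=
        Finset.sum_le_sum fun i _ => g3_bbox hL hl hR (hx i)
      simpa using this
    have h5 := mul_le_mul_of_nonneg_left h4 hα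
    simp only
    nlinarith [h0, h3, h5]

theorem gauss_mul_norm {L r : ℝ} (hL : 1 ≤ L) (hr : 0 ≤ r) :
    G L r * (r + 1) ≤ 16 * L * G (2 * L) r := by
  have hL0 : 0 < L := by linarith
  have hpi : 0 < Real.sqrt Real.pi := Real.sqrt_pos.2 Real.pi_pos
  unfold G
  have h1 : ((Real.sqrt Real.pi * (2 * L))⁻¹) ^ 3 = (1 / 8) * ((Real.sqrt Real.pi * L)⁻¹) ^ 3 := by
    field_simp
    norm_num
  rw [h1]
  have h2 : Real.exp (-(r ^ 2 / L ^ 2)) * (r + 1) ≤ 2 * L * Real.exp (-(r ^ 2 / (2 * L) ^ 2)) := by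
    have h3 : Real.exp (-(r ^ 2 / (2 * L) ^ 2)) =
        Real.exp (-(r ^ 2 / L ^ 2)) * Real.exp (3 / 4 * (r ^ 2 / L ^ 2)) := by
      rw [← Real.exp_add]
      congr 1
      field_simp
      ring
    rw [h3]
    have h4 : r + 1 ≤ 2 * L * Real.exp (3 / 4 * (r ^ 2 / L ^ 2)) := by
      have h5 := Real.add_one_le_exp (3 / 4 * (r ^ 2 / L ^ 2))
      have h6 : 2 * L * (3 / 4 * (r ^ 2 / L ^ 2) + 1) ≤ 2 * L * Real.exp (3 / 4 * (r ^ 2 / L ^ 2)) :=
        mul_le_mul_of_nonneg_left h5 (by positivity)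
      refine le_trans ?_ h6
      have h7 : 2 * L * (3 / 4 * (r ^ 2 / L ^ 2) + 1) = 3 / 2 * (r ^ 2 / L) + 2 * L := by
        field_simp
        ring
      rw [h7]
      have h8 : r ≤ 3 / 2 * (r ^ 2 / L) + L := by
        have : 3 / 2 * (r ^ 2 / L) + L - r = (3 / 2 * r ^ 2 + L ^ 2 - r * L) / L := by
          field_simp
        have h9 : 0 ≤ (3 / 2 * r ^ 2 + L ^ 2 - r * L) / L := by
          apply div_nonneg _ hL0.le
          nlinarith [sq_nonneg (r - L), sq_nonneg (r), sq_nonneg (L)]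
        linarith
      linarith
    nlinarith [Real.exp_pos (-(r ^ 2 / L ^ 2))]
  have h10 : 0 < ((Real.sqrt Real.pi * L)⁻¹) ^ 3 := by positivity
  nlinarith

end Vale.Agent.P171
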