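import Vale.Agent.P171.Gauss

open MeasureTheory Set Filter Topology
open scoped ENNReal NNReal

namespace Vale.Agent.P171

/-! Combinatorics of grids and their shifts. -/

/-- Two points in the same half-cell are at distance less than one. -/
theorem dist_lt_one_of_same {x y : E} (h : cell (1 / 2) 0 x = cell (1 / 2) 0 y) :
    dist x y < 1 := by
  have h1 : ∀ α, |x α - y α| ≤ 1 / 2 := by
    intro α
    have h2 : ⌊(x α - 0) / (1 / 2)⌋ = ⌊(y α - 0) / (1 / 2)⌋ := congrFun h α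
    have h3 := Int.abs_sub_lt_one_of_floor_eq_floor h2
    rw [abs_le]
    rw [abs_lt] at h3
    constructor <;> linarith [h3.1, h3.2]
  have h2 : dist x y ^ 2 < 1 := by
    rw [EuclideanSpace.dist_sq_eq, Fin.sum_univ_three]
    simp only [Real.dist_eq]
    have a0 := h1 0
    have a1 := h1 1
    have a2 := h1 2
    have b0 := abs_nonneg (x 0 - y 0)
    have b1 := abs_nonneg (x 1 - y 1)
    have b2 := abs_nonneg (x 2 - y 2)
    nlinarith
  by_contra h3
  push Not at h3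
  nlinarith

/-- Splitting pairs by a residue. -/
theorem pairs_le {K R : Type} [AddCommGroup K] [DecidableEq K] [AddCommGroup R] [DecidableEq R]
    [Fintype R] {ι : Type} [Fintype ι] (b : ι → K) (r : ι → R) :
    ∑ i, ∑ j, (if b i = b j then (1:ℝ) else 0) ≤
      (Fintype.card R : ℝ) * ∑ i, ∑ j, (if b i = b j ∧ r i = r j then (1:ℝ) else 0) := by
  have h1 : ∑ i, ∑ j, (if b i = b j then (1:ℝ) else 0) =
      ∑ s : R, ∑ i, ∑ j, (if (b i, r i) - (b j, r j) = (0, s) then (1:ℝ) else 0) := by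
    rw [Finset.sum_comm]
    rw [Finset.sum_comm (s := (Finset.univ : Finset R))]
    rw [Finset.sum_comm]
    refine Finset.sum_congr rfl fun i _ => ?_
    rw [Finset.sum_comm (s := (Finset.univ : Finset R))]
    refine Finset.sum_congr rfl fun j _ => ?_
    have h2 : ∀ s : R, ((b i, r i) - (b j, r j) = (0, s)) ↔ (b i = b j ∧ s = r i - r j) := by
      intro s
      rw [Prod.mk_sub_mk, Prod.mk_inj, sub_eq_zero]
      constructor
      · rintro ⟨h3, h4⟩; exact ⟨h3, h4.symm⟩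
      · rintro ⟨h3, h4⟩; exact ⟨h3, h4.symm⟩
    simp only [h2]
    by_cases h3 : b i = b j
    · simp [h3]
    · simp [h3]
  rw [h1]
  have h2 : ∀ s : R, ∑ i, ∑ j, (if (b i, r i) - (b j, r j) = ((0:K), s) then (1:ℝ) else 0) ≤
      ∑ i, ∑ j, (if b i = b j ∧ r i = r j then (1:ℝ) else 0) := by
    intro s
    refine (card_diff_le (fun i => (b i, r i)) ((0:K), s)).trans (le_of_eq ?_)
    refine Finset.sum_congr rfl fun i _ => Finset.sum_congr rfl fun j _ => ?_
    simp only [Prod.mk_inj]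
  refine (Finset.sum_le_sum fun s _ => h2 s).trans (le_of_eq ?_)
  rw [Finset.sum_const, nsmul_eq_mul, Finset.card_univ]

theorem floor_range {l : ℕ} (hl : 0 < l) {a : ℝ} {t b : ℤ} (h : ⌊(a - t) / l⌋ = b) :
    2 * t + 2 * l * b ≤ ⌊(a - 0) / (1 / 2)⌋ ∧ ⌊(a - 0) / (1 / 2)⌋ < 2 * t + 2 * l * b + 2 * l := by
  have hl' : (0:ℝ) < l := by exact_mod_cast hl
  rw [Int.floor_eq_iff] at h
  obtain ⟨h1, h2⟩ := h
  rw [le_div_iff₀ hl'] at h1
  rw [div_lt_iff₀ hl'] at h2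
  constructor
  · rw [Int.le_floor]
    push_cast
    linarith
  · rw [Int.floor_lt]
    push_cast
    linarith

/-- A cell of integer side `l`, shifted by an integer vector, consists of `(2l)^3` half-cells. -/
theorem same_refine (l : ℕ) (hl : 0 < l) (θ : Fin 3 → ℤ) {ι : Type} [Fintype ι] (x : ι → E) :
    ∑ i, ∑ j, same l (fun α => (θ α : ℝ)) (x i) (x j) ≤
      (2 * l) ^ 3 * ∑ i, ∑ j, same (1 / 2) 0 (x i) (x j) := by
  classical
  have : NeZero (2 * l) := ⟨by omega⟩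
  have h1 := pairs_le (fun i => cell l (fun α => (θ α : ℝ)) (x i))
    (fun i => (fun α => ((cell (1 / 2) 0 (x i) α : ℤ) : ZMod (2 * l)) : Fin 3 → ZMod (2 * l)))
  have h2 : (Fintype.card (Fin 3 → ZMod (2 * l)) : ℝ) = (2 * l) ^ 3 := by
    rw [Fintype.card_fun, ZMod.card]
    simp
  rw [h2] at h1
  have h3 : ∑ i, ∑ j, same l (fun α => (θ α : ℝ)) (x i) (x j) = ∑ i, ∑ j,
      (if cell l (fun α => (θ α : ℝ)) (x i) = cell l (fun α => (θ α : ℝ)) (x j)
        then (1:ℝ) else 0) := by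
    refine Finset.sum_congr rfl fun i _ => Finset.sum_congr rfl fun j _ => ?_
    unfold same
    congr
  rw [h3]
  refine h1.trans (mul_le_mul_of_nonneg_left ?_ (by positivity))
  refine Finset.sum_le_sum fun i _ => Finset.sum_le_sum fun j _ => ?_
  unfold same
  split_ifs with h4 h5
  · exact le_rfl
  · exfalso
    apply h5
    funext α
    obtain ⟨h6, h7⟩ := h4
    have h8 := floor_range hl (a := x i α) (t := θ α) rfl
    have h9 := floor_range hl (a := x j α) (t := θ α) rfl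
    have h10 : ⌊(x i α - θ α) / l⌋ = ⌊(x j α - θ α) / l⌋ := congrFun h6 α
    rw [h10] at h8
    have h11 := congrFun h7 α
    rw [ZMod.intCast_eq_intCast_iff_dvd_sub] at h11
    show ⌊(x i α - 0) / (1 / 2)⌋ = ⌊(x j α - 0) / (1 / 2)⌋
    change ((2 * l : ℕ) : ℤ) ∣ ⌊(x j α - 0) / (1 / 2)⌋ - ⌊(x i α - 0) / (1 / 2)⌋ at h11
    obtain ⟨k, hk⟩ := h11
    push_cast at hk
    have hl' : (0:ℤ) < l := by exact_mod_cast hl
    have hk0 : k = 0 := by
      have a1 : 2 * (l:ℤ) * k < 2 * l * 1 := by linarith [h8.1, h8.2, h9.1, h9.2]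
      have a2 : 2 * (l:ℤ) * (-1) < 2 * l * k := by linarith [h8.1, h8.2, h9.1, h9.2]
      have a3 : k < 1 := lt_of_mul_lt_mul_left a1 (by positivity)
      have a4 : -1 < k := lt_of_mul_lt_mul_left a2 (by positivity)
      omega
    rw [hk0] at hk
    linarith
  · norm_num
  · exact le_rfl

/-- `N^2` is controlled by the number of pairs in the same half-cell. -/
theorem card_sq_le {l : ℝ} (hl : 1 ≤ l) {ι : Type} [Fintype ι] (x : ι → E)
    (hx : ∀ i, x i ∈ cube l) :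
    ((Fintype.card ι : ℝ)) ^ 2 ≤ 27 * l ^ 3 * ∑ i, ∑ j, same (1 / 2) 0 (x i) (x j) := by
  classical
  obtain ⟨m, hm⟩ : ∃ m : ℕ, (m : ℤ) = ⌊2 * l⌋ + 1 := by
    have h0 : 0 ≤ ⌊2 * l⌋ + 1 := by
      have : 0 ≤ ⌊2 * l⌋ := Int.floor_nonneg.2 (by linarith)
      linarith
    exact ⟨(⌊2 * l⌋ + 1).toNat, by rw [Int.toNat_of_nonneg h0]⟩
  have hm1 : 0 < m := by
    have : 0 ≤ ⌊2 * l⌋ := Int.floor_nonneg.2 (by linarith)
    omega
  have : NeZero m := ⟨by omega⟩
  have h1 := pairs_le (fun _ : ι => (0 : ℤ))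
    (fun i => (fun α => ((cell (1 / 2) 0 (x i) α : ℤ) : ZMod m) : Fin 3 → ZMod m))
  have h2 : (Fintype.card (Fin 3 → ZMod m) : ℝ) = (m:ℝ) ^ 3 := by
    rw [Fintype.card_fun, ZMod.card]
    simp
  rw [h2] at h1
  have h3 : ∑ _i : ι, ∑ _j : ι, (if (0:ℤ) = 0 then (1:ℝ) else 0) = (Fintype.card ι : ℝ) ^ 2 := by
    simp
    ring
  rw [h3] at h1
  refine h1.trans ?_
  have h4 : (m:ℝ) ≤ 3 * l := by
    have h5 : (m:ℝ) = ((⌊2 * l⌋ + 1 : ℤ) : ℝ) := by
      rw [← hm]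
      simp
    rw [h5]
    push_cast
    have := Int.floor_le (2 * l)
    linarith
  have h5 : (m:ℝ) ^ 3 ≤ 27 * l ^ 3 := by
    calc (m:ℝ) ^ 3 ≤ (3 * l) ^ 3 := pow_le_pow_left₀ (by positivity) h4 3
      _ = 27 * l ^ 3 := by ring
  have h6 : ∑ i, ∑ j, (if (0:ℤ) = 0 ∧
      (fun α => ((cell (1 / 2) 0 (x i) α : ℤ) : ZMod m) : Fin 3 → ZMod m) =
      (fun α => ((cell (1 / 2) 0 (x j) α : ℤ) : ZMod m) : Fin 3 → ZMod m) then (1:ℝ) else 0) ≤
      ∑ i, ∑ j, same (1 / 2) 0 (x i) (x j) := by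
    refine Finset.sum_le_sum fun i _ => Finset.sum_le_sum fun j _ => ?_
    unfold same
    split_ifs with h4 h5
    · exact le_rfl
    · exfalso
      apply h5
      funext α
      obtain ⟨_, h7⟩ := h4
      have h11 := congrFun h7 α
      rw [ZMod.intCast_eq_intCast_iff_dvd_sub] at h11
      show ⌊(x i α - 0) / (1 / 2)⌋ = ⌊(x j α - 0) / (1 / 2)⌋
      change (m : ℤ) ∣ ⌊(x j α - 0) / (1 / 2)⌋ - ⌊(x i α - 0) / (1 / 2)⌋ at h11
      have hr : ∀ i, 0 ≤ ⌊(x i α - 0) / (1 / 2)⌋ ∧ ⌊(x i α - 0) / (1 / 2)⌋ < m := by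
        intro i
        have h12 := hx i α
        constructor
        · exact Int.floor_nonneg.2 (by linarith [h12.1])
        · rw [hm]
          have : ⌊(x i α - 0) / (1 / 2)⌋ ≤ ⌊2 * l⌋ := Int.floor_le_floor (by linarith [h12.2])
          linarith
      obtain ⟨k, hk⟩ := h11
      have h8 := hr i
      have h9 := hr j
      have hl' : (0:ℤ) < m := by exact_mod_cast hm1
      have hk0 : k = 0 := by
        have a1 : (m:ℤ) * k < m * 1 := by linarith [h8.1, h8.2, h9.1, h9.2]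
        have a2 : (m:ℤ) * (-1) < m * k := by linarith [h8.1, h8.2, h9.1, h9.2]
        have a3 : k < 1 := lt_of_mul_lt_mul_left a1 (by positivity)
        have a4 : -1 < k := lt_of_mul_lt_mul_left a2 (by positivity)
        omega
      rw [hk0] at hk
      linarith
    · norm_num
    · exact le_rfl
  have h7 : 0 ≤ ∑ i, ∑ j, same (1 / 2) 0 (x i) (x j) :=
    Finset.sum_nonneg fun i _ => Finset.sum_nonneg fun j _ => by
      unfold same
      split_ifs <;> norm_num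
  calc _ ≤ (m:ℝ) ^ 3 * ∑ i, ∑ j, same (1 / 2) 0 (x i) (x j) :=
        mul_le_mul_of_nonneg_left h6 (by positivity)
    _ ≤ _ := mul_le_mul_of_nonneg_right h5 h7

/-- Fraction of the `l^3` integer shifts of the grid of side `l` for which `x` and `y` are in the
same cell. -/
noncomputable def qfrac (l : ℕ) (x y : E) : ℝ :=
  (∑ θ : Fin 3 → Fin l, same l (fun α => ((θ α : ℕ) : ℝ)) x y) / (l : ℝ) ^ 3

theorem same_nonneg (h : ℝ) (θ : Fin 3 → ℝ) (x y : E) : 0 ≤ same h θ x y := by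
  unfold same
  split_ifs <;> norm_num

theorem same_le_one (h : ℝ) (θ : Fin 3 → ℝ) (x y : E) : same h θ x y ≤ 1 := by
  unfold same
  split_ifs <;> norm_num

theorem qfrac_nonneg (l : ℕ) (x y : E) : 0 ≤ qfrac l x y := by
  unfold qfrac
  exact div_nonneg (Finset.sum_nonneg fun θ _ => same_nonneg _ _ _ _) (by positivity)

theorem qfrac_le_one (l : ℕ) (x y : E) : qfrac l x y ≤ 1 := by
  unfold qfrac
  refine div_le_one_of_le₀ ?_ (by positivity)
  calc ∑ θ : Fin 3 → Fin l, same l (fun α => ((θ α : ℕ) : ℝ)) x y ≤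
      ∑ _θ : Fin 3 → Fin l, (1:ℝ) := Finset.sum_le_sum fun θ _ => same_le_one _ _ _ _
    _ = (l:ℝ) ^ 3 := by simp

/-- indicator that two reals are separated by the shifted grid -/
noncomputable def sepr (l : ℕ) (a b : ℝ) (t : Fin l) : ℝ :=
  if ⌊(a - ((t : ℕ) : ℝ)) / l⌋ = ⌊(b - ((t : ℕ) : ℝ)) / l⌋ then 0 else 1

theorem sepr_symm (l : ℕ) (a b : ℝ) (t : Fin l) : sepr l a b t = sepr l b a t := by
  unfold sepr
  by_cases h : ⌊(a - ((t : ℕ) : ℝ)) / l⌋ = ⌊(b - ((t : ℕ) : ℝ)) / l⌋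
  · rw [if_pos h, if_pos h.symm]
  · rw [if_neg h, if_neg (fun h' => h h'.symm)]

theorem sum_sepr_le' (l : ℕ) (hl : 0 < l) (a b : ℝ) (hab : a ≤ b) :
    ∑ t : Fin l, sepr l a b t ≤ |a - b| + 1 := by
  have hl' : (0:ℝ) < l := by exact_mod_cast hl
  set S : Finset (Fin l) := Finset.univ.filter fun t : Fin l =>
    ¬ ⌊(a - ((t : ℕ) : ℝ)) / l⌋ = ⌊(b - ((t : ℕ) : ℝ)) / l⌋ with hS
  have h1 : ∑ t : Fin l, sepr l a b t = (S.card : ℝ) := by
    unfold sepr
    rw [hS, Finset.card_filter]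
    push_cast
    refine Finset.sum_congr rfl fun t _ => ?_
    by_cases h : ⌊(a - ((t : ℕ) : ℝ)) / l⌋ = ⌊(b - ((t : ℕ) : ℝ)) / l⌋ <;> simp [h]
  rw [h1]
  have h2 : S.card ≤ (Finset.Ioc ⌊a⌋ ⌊b⌋).card := by
    refine Finset.card_le_card_of_injOn
      (fun t : Fin l => ⌊(b - ((t : ℕ) : ℝ)) / l⌋ * l + ((t : ℕ) : ℤ)) ?_ ?_
    · intro t ht
      rw [hS, Finset.coe_filter] at ht
      have ht' : ¬ ⌊(a - ((t : ℕ) : ℝ)) / l⌋ = ⌊(b - ((t : ℕ) : ℝ)) / l⌋ := ht.2
      have h3 : ⌊(a - ((t : ℕ) : ℝ)) / l⌋ ≤ ⌊(b - ((t : ℕ) : ℝ)) / l⌋ := by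
        refine Int.floor_le_floor ?_
        gcongr
      have h4 : ⌊(a - ((t : ℕ) : ℝ)) / l⌋ < ⌊(b - ((t : ℕ) : ℝ)) / l⌋ := lt_of_le_of_ne h3 ht'
      rw [Finset.coe_Ioc, Set.mem_Ioc]
      constructor
      · rw [Int.floor_lt] at h4 ⊢
        rw [div_lt_iff₀ hl'] at h4
        push_cast
        linarith
      · rw [Int.le_floor]
        push_cast
        have := Int.floor_le ((b - ((t : ℕ) : ℝ)) / l)
        rw [le_div_iff₀ hl'] at this
        linarith
    · intro t _ s _ hts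
      simp only at hts
      have h3 : (((t : ℕ) : ℤ)) % l = ((s : ℕ) : ℤ) % l := by
        have h5 : (⌊(b - ((t : ℕ) : ℝ)) / l⌋ * l + ((t : ℕ) : ℤ)) % l =
            (⌊(b - ((s : ℕ) : ℝ)) / l⌋ * l + ((s : ℕ) : ℤ)) % l := by rw [hts]
        rw [Int.add_comm, Int.add_mul_emod_self_right, Int.add_comm,
          Int.add_mul_emod_self_right] at h5
        exact h5
      rw [Int.emod_eq_of_lt (by positivity) (by exact_mod_cast t.2),
        Int.emod_eq_of_lt (by positivity) (by exact_mod_cast s.2)] at h3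
      exact Fin.ext (by exact_mod_cast h3)
  have h3 : (S.card : ℝ) ≤ ((Finset.Ioc ⌊a⌋ ⌊b⌋).card : ℝ) := by exact_mod_cast h2
  refine h3.trans ?_
  rw [Int.card_Ioc]
  have h4 : (0:ℤ) ≤ ⌊b⌋ - ⌊a⌋ := by
    have := Int.floor_le_floor hab
    linarith
  have h5 : (((⌊b⌋ - ⌊a⌋).toNat : ℕ) : ℝ) = ((⌊b⌋ - ⌊a⌋ : ℤ) : ℝ) := by
    have : (((⌊b⌋ - ⌊a⌋).toNat : ℕ) : ℤ) = ⌊b⌋ - ⌊a⌋ := Int.toNat_of_nonneg h4
    exact_mod_cast congrArg (fun z : ℤ => (z : ℝ)) this
  rw [h5]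
  push_cast
  have h6 := Int.floor_le b
  have h7 := Int.lt_floor_add_one a
  rw [abs_sub_comm, abs_of_nonneg (by linarith)]
  linarith

theorem sum_sepr_le (l : ℕ) (hl : 0 < l) (a b : ℝ) :
    ∑ t : Fin l, sepr l a b t ≤ |a - b| + 1 := by
  rcases le_total a b with h | h
  · exact sum_sepr_le' l hl a b h
  · simp_rw [sepr_symm l a b]
    rw [abs_sub_comm]
    exact sum_sepr_le' l hl b a h

theorem one_sub_qfrac_le (l : ℕ) (hl : 0 < l) (x y : E) :
    1 - qfrac l x y ≤ 3 * (dist x y + 1) / l := by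
  classical
  have hl' : (0:ℝ) < l := by exact_mod_cast hl
  have h1 : ∀ θ : Fin 3 → Fin l, 1 - ∑ α, sepr l (x α) (y α) (θ α) ≤
      same l (fun α => ((θ α : ℕ) : ℝ)) x y := by
    intro θ
    unfold same
    split_ifs with h
    · have : 0 ≤ ∑ α, sepr l (x α) (y α) (θ α) :=
        Finset.sum_nonneg fun α _ => by unfold sepr; split_ifs <;> norm_num
      linarith
    · obtain ⟨α, hα⟩ := Function.ne_iff.1 h
      have h2 : sepr l (x α) (y α) (θ α) = 1 := by
        unfold sepr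
        rw [if_neg]
        exact hα
      have h3 : sepr l (x α) (y α) (θ α) ≤ ∑ α, sepr l (x α) (y α) (θ α) :=
        Finset.single_le_sum (f := fun α => sepr l (x α) (y α) (θ α))
          (fun α _ => by unfold sepr; split_ifs <;> norm_num) (Finset.mem_univ α)
      linarith
  have h2 : ∑ θ : Fin 3 → Fin l, (1 - ∑ α, sepr l (x α) (y α) (θ α)) ≤
      ∑ θ : Fin 3 → Fin l, same l (fun α => ((θ α : ℕ) : ℝ)) x y :=
    Finset.sum_le_sum fun θ _ => h1 θ
  rw [Finset.sum_sub_distrib, Finset.sum_comm] at h2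
  have h3 : ∀ α : Fin 3, ∑ θ : Fin 3 → Fin l, sepr l (x α) (y α) (θ α) =
      (l:ℝ) ^ 2 * ∑ t : Fin l, sepr l (x α) (y α) t := by
    intro α
    have := Fintype.sum_piFinset_apply (fun t => sepr l (x α) (y α) t)
      (Finset.univ : Finset (Fin l)) α
    rw [Fintype.piFinset_univ] at this
    rw [this, nsmul_eq_mul]
    simp
  have h4 : ∀ α : Fin 3, ∑ θ : Fin 3 → Fin l, sepr l (x α) (y α) (θ α) ≤
      (l:ℝ) ^ 2 * (dist x y + 1) := by
    intro α
    rw [h3]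
    refine mul_le_mul_of_nonneg_left ((sum_sepr_le l hl _ _).trans ?_) (by positivity)
    have : |x α - y α| ≤ dist x y := by
      rw [← Real.dist_eq, EuclideanSpace.dist_eq]
      refine Real.le_sqrt_of_sq_le ?_
      exact Finset.single_le_sum (f := fun i => dist (x i) (y i) ^ 2)
        (fun _ _ => sq_nonneg _) (Finset.mem_univ α)
    linarith
  have h5 : ∑ α : Fin 3, ∑ θ : Fin 3 → Fin l, sepr l (x α) (y α) (θ α) ≤
      3 * ((l:ℝ) ^ 2 * (dist x y + 1)) := by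
    refine (Finset.sum_le_sum fun α _ => h4 α).trans (le_of_eq ?_)
    simp
  have h6 : ∑ _θ : Fin 3 → Fin l, (1:ℝ) = (l:ℝ) ^ 3 := by simp
  rw [h6] at h2
  unfold qfrac
  have h7 : ((l:ℝ) ^ 3 - 3 * ((l:ℝ) ^ 2 * (dist x y + 1))) / (l:ℝ) ^ 3 ≤
      (∑ θ : Fin 3 → Fin l, same l (fun α => ((θ α : ℕ) : ℝ)) x y) / (l : ℝ) ^ 3 := by
    refine div_le_div_of_nonneg_right ?_ (by positivity)
    linarith
  have h8 : ((l:ℝ) ^ 3 - 3 * ((l:ℝ) ^ 2 * (dist x y + 1))) / (l:ℝ) ^ 3 =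
      1 - 3 * (dist x y + 1) / l := by
    field_simp
  rw [h8] at h7
  linarith

theorem measurable_cell (h : ℝ) (θ : Fin 3 → ℝ) : Measurable (cell h θ) := by
  unfold cell
  refine measurable_pi_iff.2 fun α => ?_
  refine Int.measurable_floor.comp ?_
  refine Measurable.div_const ?_ _
  refine Measurable.sub_const ?_ _
  fun_prop

theorem measurable_same (h : ℝ) (θ : Fin 3 → ℝ) :
    Measurable (fun p : E × E => same h θ p.1 p.2) := by
  unfold same
  refine Measurable.ite ?_ measurable_const measurable_const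
  exact measurableSet_eq_fun ((measurable_cell h θ).comp measurable_fst)
    ((measurable_cell h θ).comp measurable_snd)

end Vale.Agent.P171
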