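import Vale.Agent.P171.Lsc

open MeasureTheory Set Filter Topology
open scoped ENNReal NNReal

namespace Vale.Agent.P171

theorem sum_le_vt {t : ℕ → ℝ} (h0 : ∀ k, 0 ≤ t k) (hs : Summable t) (J : ℕ) (r : ℝ) :
    ∑ k ∈ Finset.range J, t k * G (wid k) r ≤ vt t r :=
  (summable_vt h0 hs r).sum_le_tsum _ fun k _ =>
    mul_nonneg (h0 k) (G_nonneg _ _ (by linarith [one_le_wid k]))

/-- Mean-field lower bound for the pressure. -/
theorem press_lower {K T : ℝ} (hT : 0 ≤ T) (hK : 64 * T ≤ K) {t : ℕ → ℝ} (ht : Adm T t) (a : ℝ) :
    (a - K / 2) / 8 + (∑' k, t k) / 128 ≤ press K t a := by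
  have hK0 : 0 ≤ K := by linarith
  have hJ : ∀ J : ℕ, (a - K / 2) / 8 + (∑ k ∈ Finset.range J, t k) / 128 ≤ press K t a := by
    intro J
    set s : ℝ := ∑ k ∈ Finset.range J, t k with hs
    have hs0 : 0 ≤ s := Finset.sum_nonneg fun k _ => ht.nonneg k
    choose δ hδ1 hδ2 using fun k : ℕ => gauss_lower (L := wid k) (by linarith [one_le_wid k])
    -- the sum of the mass factors
    have hR : ∀ R : ℝ, 0 ≤ R →
        (a + (1 / 8) * (∑ k ∈ Finset.range J, t k * δ k R) - K / 2) / 8 - s / 128 ≤
          press K t a := by
      intro R hR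
      set a' : ℝ := a + (1 / 8) * (∑ k ∈ Finset.range J, t k * δ k R) with ha'
      have h1 := (press_spec hT hK ht a).1
      have h2 := (press_spec le_rfl (by simpa using hK0) (adm_zero (le_refl (0 : ℝ))) a').1
      have h3 := press_lower_lin le_rfl (by simpa using hK0) (adm_zero (le_refl (0 : ℝ))) a'
      have h4 : Tendsto (fun l : ℝ => s / 128 * ((l + 2 * R) / l) ^ 3) atTop
          (𝓝 (s / 128 * 1 ^ 3)) := by
        refine Tendsto.const_mul _ (Tendsto.pow ?_ 3)
        have : Tendsto (fun l : ℝ => 1 + 2 * R / l) atTop (𝓝 (1 + 0)) :=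
          tendsto_const_nhds.add (tendsto_const_nhds.div_atTop tendsto_id)
        rw [add_zero] at this
        refine this.congr' ?_
        filter_upwards [eventually_gt_atTop 0] with l hl
        field_simp
      have h5 := h2.sub h4
      have h6 : press K (fun _ => 0) a' - s / 128 * 1 ^ 3 ≤ press K t a := by
        refine le_of_tendsto_of_tendsto h5 h1 ?_
        filter_upwards [eventually_gt_atTop 0] with l hl
        have hl3 : 0 < l ^ 3 := by positivity
        have h7 : lXi (wt K (fun _ => 0)) (cube l) a' - s / 128 * (l + 2 * R) ^ 3 ≤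
            lXi (wt K t) (cube l) a := by
          have hf := Xi_wt_ne_top hT hK ht a hl.le
          have hf0 := Xi_wt_ne_top le_rfl (by simpa using hK0) (adm_zero (le_refl (0 : ℝ))) a' hl.le
          have h8 : ENNReal.ofReal (Real.exp (-(s / 128 * (l + 2 * R) ^ 3))) *
              Xi (wt K (fun _ => 0)) (cube l) a' ≤ Xi (wt K t) (cube l) a := by
            rw [Xi_eq, Xi_eq, ← ENNReal.tsum_mul_left]
            refine ENNReal.tsum_le_tsum fun N => ?_
            rw [mul_left_comm]
            refine mul_le_mul_right ?_ _
            rw [← lintegral_const_mul' _ _ ENNReal.ofReal_ne_top]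
            refine setLIntegral_mono' (measurableSet_conf (measurableSet_cube l) _) fun x hx => ?_
            rw [← ENNReal.ofReal_mul (by positivity), ← Real.exp_add]
            refine ENNReal.ofReal_le_ofReal (Real.exp_le_exp.2 ?_)
            have hx' : ∀ i, x i ∈ cube l := fun i => hx i trivial
            rw [H_wt_eq, H_wt_eq]
            have e0 : ∑ i, ∑ j, vt (fun _ => (0 : ℝ)) (dist (x i) (x j)) = 0 := by
              simp [vt]
            have e1 : ∑ i, ∑ j, (∑ k ∈ Finset.range J, t k * G (wid k) (dist (x i) (x j))) ≤
                ∑ i, ∑ j, vt t (dist (x i) (x j)) :=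
              Finset.sum_le_sum fun i _ => Finset.sum_le_sum fun j _ =>
                sum_le_vt ht.nonneg ht.summable J _
            have e2 : ∑ i, ∑ j, (∑ k ∈ Finset.range J, t k * G (wid k) (dist (x i) (x j))) =
                ∑ k ∈ Finset.range J, t k * ∑ i, ∑ j, G (wid k) (dist (x i) (x j)) := by
              simp_rw [Finset.mul_sum]
              rw [Finset.sum_congr rfl fun i _ => Finset.sum_comm, Finset.sum_comm]
            have e3 : ∀ k ∈ Finset.range J, t k * ((1 / 8) * δ k R * N -
                (1 / 8) ^ 2 * (l + 2 * R) ^ 3 / 2) ≤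
                t k * ((∑ i, ∑ j, G (wid k) (dist (x i) (x j))) / 2) := by
              intro k _
              have := hδ2 k R hR l hl.le (1 / 8) (by norm_num) x hx'
              rw [Fintype.card_fin] at this
              exact mul_le_mul_of_nonneg_left this (ht.nonneg k)
            have e4 := Finset.sum_le_sum e3
            have e5 : ∑ k ∈ Finset.range J, t k * ((1 / 8) * δ k R * N -
                (1 / 8) ^ 2 * (l + 2 * R) ^ 3 / 2) =
                (1 / 8) * (∑ k ∈ Finset.range J, t k * δ k R) * N -
                  s / 128 * (l + 2 * R) ^ 3 := by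
              rw [hs, Finset.mul_sum, Finset.sum_mul, Finset.sum_div, Finset.sum_mul,
                ← Finset.sum_sub_distrib]
              refine Finset.sum_congr rfl fun k _ => ?_
              ring
            have e6 : ∑ k ∈ Finset.range J, t k * ((∑ i, ∑ j, G (wid k) (dist (x i) (x j))) / 2) =
                (∑ k ∈ Finset.range J, t k * ∑ i, ∑ j, G (wid k) (dist (x i) (x j))) / 2 := by
              rw [Finset.sum_div]
              refine Finset.sum_congr rfl fun k _ => ?_
              ring
            rw [e0, ha']
            rw [e5, e6] at e4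
            linarith
          have h9 := ENNReal.toReal_mono hf h8
          rw [ENNReal.toReal_mul, ENNReal.toReal_ofReal (by positivity)] at h9
          have h10 : 0 < (Xi (wt K (fun _ => 0)) (cube l) a').toReal :=
            lt_of_lt_of_le one_pos (one_le_toReal_Xi hf0)
          have h11 := Real.log_le_log (by positivity) h9
          rw [Real.log_mul (by positivity) h10.ne', Real.log_exp] at h11
          unfold lXi
          linarith
        rw [div_pow, ← mul_div_assoc, ← sub_div]
        exact div_le_div_of_nonneg_right h7 hl3.le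
      linarith
    have hlim : Tendsto (fun R : ℝ =>
        (a + (1 / 8) * (∑ k ∈ Finset.range J, t k * δ k R) - K / 2) / 8 - s / 128) atTop
        (𝓝 ((a + (1 / 8) * (∑ k ∈ Finset.range J, t k * 1) - K / 2) / 8 - s / 128)) := by
      refine Tendsto.sub_const (Tendsto.div_const (Tendsto.sub_const (Tendsto.const_add _
        (Tendsto.const_mul _ ?_)) _) _) _
      exact tendsto_finsetSum _ fun k _ => (hδ1 k).const_mul _
    have h12 := le_of_tendsto hlim (by
      filter_upwards [eventually_ge_atTop 0] with R hR' using hR R hR')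
    simp only [mul_one] at h12
    linarith
  have hlim2 : Tendsto (fun J : ℕ => (a - K / 2) / 8 + (∑ k ∈ Finset.range J, t k) / 128) atTop
      (𝓝 ((a - K / 2) / 8 + (∑' k, t k) / 128)) :=
    (ht.summable.hasSum.tendsto_sum_nat.div_const _).const_add _
  exact le_of_tendsto' hlim2 hJ

end Vale.Agent.P171
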