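import Vale.Agent.P171.Press

open MeasureTheory Set Filter Topology
open scoped ENNReal NNReal

namespace Vale.Agent.P171

theorem H_wt_eq (K : ℝ) (t : ℕ → ℝ) {ι : Type} [Fintype ι] (x : ι → E) :
    H (wt K t) x = (∑ i, ∑ j, vt t (dist (x i) (x j))) / 2 -
      K * (∑ i, ∑ j, (if dist (x i) (x j) < 1 then (1 : ℝ) else 0)) / 2 := by
  unfold H wt
  simp_rw [Finset.sum_sub_distrib, ← Finset.mul_sum]
  ring

theorem press_mono {K T : ℝ} (hT : 0 ≤ T) (hK : 64 * T ≤ K) {t t' : ℕ → ℝ} (ht : Adm T t)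
    (ht' : Adm T t') (h : ∀ k, t k ≤ t' k) {a a' : ℝ} (ha : a ≤ a') :
    press K t a ≤ press K t' a' := by
  refine le_of_tendsto_of_tendsto (press_spec hT hK ht a).1 (press_spec hT hK ht' a').1 ?_
  filter_upwards [eventually_gt_atTop 0] with l hl
  refine div_le_div_of_nonneg_right ?_ (by positivity)
  refine lXi_mono_of_le ?_ (Xi_wt_ne_top hT hK ht' a' hl.le)
  refine Xi_mono (measurableSet_cube l) subset_rfl fun N x hx => ?_
  rw [H_wt_eq, H_wt_eq]
  have h1 : ∑ i, ∑ j, vt t (dist (x i) (x j)) ≤ ∑ i, ∑ j, vt t' (dist (x i) (x j)) :=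
    Finset.sum_le_sum fun i _ => Finset.sum_le_sum fun j _ =>
      vt_mono ht.nonneg ht.summable ht'.nonneg ht'.summable h _
  have h2 : a * N ≤ a' * N := mul_le_mul_of_nonneg_right ha (Nat.cast_nonneg N)
  linarith

/-- Quantitative semicontinuity of the pressure. -/
theorem press_lip {K T : ℝ} (hT : 0 ≤ T) (hK : 64 * (T + 1) ≤ K) {t t' : ℕ → ℝ} (ht : Adm T t)
    (ht' : Adm T t') {δ : ℝ} (hδ0 : 0 < δ) (hδ1 : δ ≤ 1) (hd : ∑' k, |t k - t' k| ≤ δ) {a a' : ℝ}
    (ha : a ≤ a' + δ) : press K t a ≤ press K t' a' + δ * Real.exp (a' + 1) := by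
  have hsd : Summable (fun k => |t k - t' k|) := (ht.summable.sub ht'.summable).abs
  -- the perturbed weights
  set d : ℕ → ℝ := fun k => δ⁻¹ * |t k - t' k| with hddef
  have hd0 : ∀ k, 0 ≤ d k := fun k => by positivity
  have hds : Summable d := hsd.mul_left _
  have hd1 : ∑' k, d k ≤ 1 := by
    rw [hddef, tsum_mul_left]
    rw [inv_mul_le_iff₀ hδ0]
    linarith
  have hu : Adm (T + 1) (fun k => t' k + d k) := by
    refine ⟨fun k => add_nonneg (ht'.nonneg k) (hd0 k), ht'.summable.add hds, ?_⟩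
    rw [ht'.summable.tsum_add hds]
    linarith [ht'.le]
  have hT1 : 0 ≤ T + 1 := by linarith
  have hKT : 64 * T ≤ K := by linarith
  have h1 := (press_spec hT hKT ht a).1
  have h2 := (press_spec hT hKT ht' a').1
  have h3 : Tendsto (fun l : ℝ => lXi (wt K t') (cube l) a' / l ^ 3 + δ * Real.exp (a' + 1)) atTop
      (𝓝 (press K t' a' + δ * Real.exp (a' + 1))) := h2.add_const _
  refine le_of_tendsto_of_tendsto h1 h3 ?_
  filter_upwards [eventually_gt_atTop 0] with l hl
  have hf1 := Xi_wt_ne_top hT hKT ht' a' hl.le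
  have hf2 := Xi_wt_ne_top hT1 hK hu (a' + 1) hl.le
  have key := lXi_holder_two (w := wt K t) (w₁ := wt K t') (w₂ := wt K (fun k => t' k + d k))
    (measurable_wt K ht'.nonneg ht'.summable) (measurable_wt K hu.nonneg hu.summable)
    (measurableSet_cube l) (a := a) (b₁ := a') (b₂ := a' + 1) hδ0.le hδ1 hf1 hf2 (by
      intro N x hx
      rw [H_wt_eq, H_wt_eq, H_wt_eq]
      have e1 : ∑ i, ∑ j, vt t (dist (x i) (x j)) ≤
          (1 - δ) * ∑ i, ∑ j, vt t' (dist (x i) (x j)) +
          δ * ∑ i, ∑ j, vt (fun k => t' k + d k) (dist (x i) (x j)) := by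
        rw [Finset.mul_sum, Finset.mul_sum, ← Finset.sum_add_distrib]
        refine Finset.sum_le_sum fun i _ => ?_
        rw [Finset.mul_sum, Finset.mul_sum, ← Finset.sum_add_distrib]
        refine Finset.sum_le_sum fun j _ => ?_
        rw [vt_add ht'.nonneg ht'.summable hd0 hds, hddef, vt_smul]
        have e2 : vt t (dist (x i) (x j)) ≤ vt t' (dist (x i) (x j)) +
            vt (fun k => |t k - t' k|) (dist (x i) (x j)) := by
          rw [← vt_add ht'.nonneg ht'.summable (fun k => abs_nonneg _) hsd]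
          refine vt_mono ht.nonneg ht.summable (fun k => add_nonneg (ht'.nonneg k) (abs_nonneg _))
            (ht'.summable.add hsd) (fun k => ?_) _
          linarith [le_abs_self (t k - t' k)]
        have e3 : δ * (δ⁻¹ * vt (fun k => |t k - t' k|) (dist (x i) (x j))) =
            vt (fun k => |t k - t' k|) (dist (x i) (x j)) := by
          field_simp
        nlinarith
      have e4 : a * N ≤ (1 - δ) * (a' * N) + δ * ((a' + 1) * N) := by
        have : (0 : ℝ) ≤ N := Nat.cast_nonneg N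
        nlinarith
      linarith)
  have h5 : lXi (wt K (fun k => t' k + d k)) (cube l) (a' + 1) ≤ Real.exp (a' + 1) * l ^ 3 :=
    lXi_cube_le hl.le _ fun N x _ => H_wt_nonpos hT1 hK hu x
  have h6 := lXi_nonneg (wt K t') (cube l) a'
  have hl3 : 0 < l ^ 3 := by positivity
  rw [div_add' _ _ _ hl3.ne', div_le_div_iff_of_pos_right hl3]
  nlinarith

end Vale.Agent.P171
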