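import Vale.Agent.P171.Lsc

open MeasureTheory Set Filter Topology
open scoped ENNReal NNReal

namespace Vale.Agent.P171

theorem H_add_const (w : E → E → ℝ) (c : ℝ) {ι : Type} [Fintype ι] (x : ι → E) :
    H (fun x y => w x y + c) x = H w x + c * (Fintype.card ι : ℝ) ^ 2 / 2 := by
  unfold H
  simp_rw [Finset.sum_add_distrib]
  simp
  ring

theorem Q_add_const (w : E → E → ℝ) (c : ℝ) (A : Set E) (N : ℕ) :
    Q (fun x y => w x y + c) A (Fin N) =
      ENNReal.ofReal (Real.exp (c * (N : ℝ) ^ 2 / 2)) * Q w A (Fin N) := by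
  unfold Q
  rw [← lintegral_const_mul' _ _ ENNReal.ofReal_ne_top]
  refine lintegral_congr fun x => ?_
  rw [H_add_const, Real.exp_add, ENNReal.ofReal_mul (by positivity), mul_comm, Fintype.card_fin]

theorem term_le_Xi (w : E → E → ℝ) (A : Set E) (a : ℝ) (N : ℕ) :
    ENNReal.ofReal (Real.exp (a * N) / (N.factorial : ℝ)) * Q w A (Fin N) ≤ Xi w A a :=
  ENNReal.le_tsum (f := fun N : ℕ =>
    ENNReal.ofReal (Real.exp (a * N) / (N.factorial : ℝ)) * Q w A (Fin N)) N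

/-- double sum bound inside a cube, with a mean-field term -/
theorem H_wt_cube_le {K T : ℝ} (hT : 0 ≤ T) (hK : 64 * T + 54 ≤ K) {t : ℕ → ℝ} (ht : Adm T t)
    {l : ℝ} (hl : 1 ≤ l) {N : ℕ} (x : Fin N → E) (hx : ∀ i, x i ∈ cube l) :
    H (wt K t) x ≤ -((N : ℝ) ^ 2 / l ^ 3) := by
  have h1 := H_wt_le (by linarith : 0 ≤ K) ht x
  have h2 := card_sq_le hl x hx
  rw [Fintype.card_fin] at h2
  change (N : ℝ) ^ 2 ≤ 27 * l ^ 3 * SS x at h2
  have h3 := SS_nonneg x
  have h4 : 27 * SS x ≤ (K - 64 * T) / 2 * SS x := mul_le_mul_of_nonneg_right (by linarith) h3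
  have h5 : (N : ℝ) ^ 2 / l ^ 3 ≤ 27 * SS x := by
    rw [div_le_iff₀ (by positivity)]
    linarith
  linarith

theorem mean_field {K T : ℝ} (hT : 0 ≤ T) (hK : 64 * T + 54 ≤ K) {t : ℕ → ℝ} (ht : Adm T t)
    (a : ℝ) {ρ h₀ : ℝ}
    (hP : ∀ h ∈ Icc 0 h₀, press K t (a + h) ≤ press K t a + h * ρ) {R : ℝ} (hR0 : 0 ≤ R)
    (hR : Real.exp (a - R / 2) ≤ press K t a) {s : ℝ} (hs0 : 0 ≤ s) (hs1 : s ≤ 1)
    (hsR : s * R ≤ h₀) {l : ℝ} (hl : 1 ≤ l) :
    lXi (fun x y => wt K t x y + s / l ^ 3) (cube l) a ≤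
      Real.log (R * l ^ 3 + 2) + ((l + 1) ^ 3 * press K t a +
        s * ρ ^ 2 * ((l + 1) ^ 3) ^ 2 / l ^ 3 / 2) := by
  have hl0 : 0 < l := by linarith
  have hl3 : 0 < l ^ 3 := by positivity
  have hKT : 64 * T ≤ K := by linarith
  set A : ℝ := (l + 1) ^ 3 * press K t a + s * ρ ^ 2 * ((l + 1) ^ 3) ^ 2 / l ^ 3 / 2 with hA
  have hP0 := press_nonneg hT hKT ht a
  have hA1 : l ^ 3 * press K t a ≤ A := by
    have h1 : l ^ 3 * press K t a ≤ (l + 1) ^ 3 * press K t a :=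
      mul_le_mul_of_nonneg_right (pow_le_pow_left₀ hl0.le (by linarith) 3) hP0
    have h2 : 0 ≤ s * ρ ^ 2 * ((l + 1) ^ 3) ^ 2 / l ^ 3 / 2 := by positivity
    linarith
  -- terms with few particles
  have hsmall : ∀ N : ℕ, (N : ℝ) ≤ R * l ^ 3 →
      ENNReal.ofReal (Real.exp (a * N) / (N.factorial : ℝ)) *
        Q (fun x y => wt K t x y + s / l ^ 3) (cube l) (Fin N) ≤ ENNReal.ofReal (Real.exp A) := by
    intro N hN
    rw [Q_add_const]
    set ν : ℝ := a + s * N / l ^ 3 with hν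
    have e1 : ENNReal.ofReal (Real.exp (a * N) / (N.factorial : ℝ)) *
        (ENNReal.ofReal (Real.exp (s / l ^ 3 * (N : ℝ) ^ 2 / 2)) * Q (wt K t) (cube l) (Fin N)) =
        ENNReal.ofReal (Real.exp (-(s * (N : ℝ) ^ 2 / l ^ 3 / 2))) *
        (ENNReal.ofReal (Real.exp (ν * N) / (N.factorial : ℝ)) * Q (wt K t) (cube l) (Fin N)) := by
      rw [← mul_assoc, ← mul_assoc, ← ENNReal.ofReal_mul (by positivity),
        ← ENNReal.ofReal_mul (by positivity)]
      congr 2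
      rw [div_mul_eq_mul_div, ← Real.exp_add, mul_div_assoc', ← Real.exp_add]
      congr 2
      rw [hν]
      ring
    rw [e1]
    have hα0 : 0 ≤ (N : ℝ) / l ^ 3 := by positivity
    have hαR : (N : ℝ) / l ^ 3 ≤ R := by rwa [div_le_iff₀ hl3]
    have e2 : Xi (wt K t) (cube l) ν ≤ ENNReal.ofReal (Real.exp ((l + 1) ^ 3 * press K t ν)) := by
      rw [Xi_eq_ofReal (Xi_wt_ne_top hT hKT ht ν hl0.le)]
      exact ENNReal.ofReal_le_ofReal (Real.exp_le_exp.2 ((press_spec hT hKT ht ν).2.1 l hl0.le))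
    have e3 : press K t ν ≤ press K t a + s * (N / l ^ 3) * ρ := by
      have := hP (s * (N / l ^ 3)) ⟨by positivity, (mul_le_mul_of_nonneg_left hαR hs0).trans hsR⟩
      rw [hν, mul_div_assoc]
      exact this
    refine (mul_le_mul_right ((term_le_Xi _ _ _ _).trans e2) _).trans ?_
    rw [← ENNReal.ofReal_mul (by positivity), ← Real.exp_add]
    refine ENNReal.ofReal_le_ofReal (Real.exp_le_exp.2 ?_)
    have e4 : (l + 1) ^ 3 * press K t ν ≤ (l + 1) ^ 3 * (press K t a + s * (N / l ^ 3) * ρ) :=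
      mul_le_mul_of_nonneg_left e3 (by positivity)
    have e5 : (l + 1) ^ 3 * (s * (N / l ^ 3) * ρ) - s * (N : ℝ) ^ 2 / l ^ 3 / 2 ≤
        s * ρ ^ 2 * ((l + 1) ^ 3) ^ 2 / l ^ 3 / 2 := by
      have h6 : s * ρ ^ 2 * ((l + 1) ^ 3) ^ 2 / l ^ 3 / 2 -
          ((l + 1) ^ 3 * (s * (N / l ^ 3) * ρ) - s * (N : ℝ) ^ 2 / l ^ 3 / 2) =
          s * (ρ * (l + 1) ^ 3 - N) ^ 2 / l ^ 3 / 2 := by
        field_simp
        ring
      have h7 : 0 ≤ s * (ρ * (l + 1) ^ 3 - N) ^ 2 / l ^ 3 / 2 := by positivity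
      linarith
    rw [hA]
    linarith
  -- terms with many particles
  have hlarge : ∀ N : ℕ, R * l ^ 3 < (N : ℝ) →
      ENNReal.ofReal (Real.exp (a * N) / (N.factorial : ℝ)) *
        Q (fun x y => wt K t x y + s / l ^ 3) (cube l) (Fin N) ≤
      ENNReal.ofReal (Real.exp ((a - R / 2) * N) / (N.factorial : ℝ)) *
        Q (fun _ _ => 0) (cube l) (Fin N) := by
    intro N hN
    have e1 : Q (fun x y => wt K t x y + s / l ^ 3) (cube l) (Fin N) ≤
        ENNReal.ofReal (Real.exp (-(R / 2) * N)) * Q (fun _ _ => 0) (cube l) (Fin N) := by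
      unfold Q
      rw [← lintegral_const_mul' _ _ ENNReal.ofReal_ne_top]
      refine setLIntegral_mono' (measurableSet_conf (measurableSet_cube l) _) fun x hx => ?_
      rw [← ENNReal.ofReal_mul (by positivity), ← Real.exp_add]
      refine ENNReal.ofReal_le_ofReal (Real.exp_le_exp.2 ?_)
      have h3 : H (fun _ _ => (0 : ℝ)) x = 0 := by simp [H]
      rw [H_add_const, h3, Fintype.card_fin]
      have h4 := H_wt_cube_le hT hK ht hl x (fun i => hx i trivial)
      have h5 : s / l ^ 3 * (N : ℝ) ^ 2 / 2 ≤ (N : ℝ) ^ 2 / l ^ 3 / 2 := by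
        have : s / l ^ 3 * (N : ℝ) ^ 2 / 2 = s * ((N : ℝ) ^ 2 / l ^ 3 / 2) := by ring
        rw [this]
        have h8 : 0 ≤ (N : ℝ) ^ 2 / l ^ 3 / 2 := by positivity
        nlinarith
      have h6 : R / 2 * N ≤ (N : ℝ) ^ 2 / l ^ 3 / 2 := by
        have hN0 : (0 : ℝ) ≤ N := Nat.cast_nonneg N
        have h7 : R * N ≤ (N : ℝ) ^ 2 / l ^ 3 := by
          rw [le_div_iff₀ hl3]
          nlinarith
        linarith
      linarith
    refine (mul_le_mul_right e1 _).trans (le_of_eq ?_)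
    rw [← mul_assoc, ← ENNReal.ofReal_mul (by positivity)]
    congr 2
    rw [div_mul_eq_mul_div, ← Real.exp_add]
    congr 2
    ring
  -- sum
  refine lXi_le_iff ?_
  have hv : volume (cube l) ≠ ∞ := by rw [volume_cube hl0.le]; exact ENNReal.ofReal_ne_top
  have hX0 := Xi_zero_const hv (a - R / 2)
  rw [volume_cube hl0.le, ENNReal.toReal_ofReal (by positivity)] at hX0
  have hsum : Xi (fun x y => wt K t x y + s / l ^ 3) (cube l) a ≤
      (∑' N : ℕ, (if (N : ℝ) ≤ R * l ^ 3 then ENNReal.ofReal (Real.exp A) else 0)) +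
      Xi (fun _ _ => 0) (cube l) (a - R / 2) := by
    unfold Xi
    rw [← ENNReal.tsum_add]
    refine ENNReal.tsum_le_tsum fun N => ?_
    by_cases hN : (N : ℝ) ≤ R * l ^ 3
    · rw [if_pos hN]
      exact (hsmall N hN).trans le_self_add
    · rw [if_neg hN, zero_add]
      exact hlarge N (not_le.1 hN)
  have hfinsum : (∑' N : ℕ, (if (N : ℝ) ≤ R * l ^ 3 then ENNReal.ofReal (Real.exp A) else 0)) ≤
      ENNReal.ofReal ((R * l ^ 3 + 1) * Real.exp A) := by
    have hRl : 0 ≤ R * l ^ 3 := by positivity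
    rw [tsum_eq_sum (s := Finset.range (⌊R * l ^ 3⌋₊ + 1))]
    · refine (Finset.sum_le_card_nsmul _ _ (ENNReal.ofReal (Real.exp A)) fun N _ => ?_).trans ?_
      · split_ifs <;> simp
      · rw [Finset.card_range, nsmul_eq_mul, ENNReal.ofReal_mul (by positivity)]
        refine mul_le_mul_left ?_ _
        rw [← ENNReal.ofReal_natCast]
        refine ENNReal.ofReal_le_ofReal ?_
        push_cast
        linarith [Nat.floor_le hRl]
    · intro N hN
      rw [if_neg]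
      rw [Finset.mem_range, not_lt] at hN
      rw [not_le]
      exact lt_of_lt_of_le (Nat.lt_floor_add_one _) (by exact_mod_cast hN)
  refine hsum.trans ((add_le_add hfinsum (le_of_eq hX0)).trans ?_)
  rw [← ENNReal.ofReal_add (by positivity) (by positivity)]
  refine ENNReal.ofReal_le_ofReal ?_
  rw [Real.exp_add (Real.log _) A, Real.exp_log (by positivity)]
  have h9 : Real.exp (Real.exp (a - R / 2) * l ^ 3) ≤ Real.exp A :=
    Real.exp_le_exp.2 (by nlinarith)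
  nlinarith [Real.exp_pos A]

end Vale.Agent.P171
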