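import Vale.Agent.P171.Decouple
import Vale.Agent.P171.MeanField

open MeasureTheory Set Filter Topology
open scoped ENNReal NNReal

namespace Vale.Agent.P171

/-- add weight `s` to the `k`-th layer -/
noncomputable def bump (t : ℕ → ℝ) (k : ℕ) (s : ℝ) : ℕ → ℝ := fun j => t j + if j = k then s else 0

theorem summable_ite (k : ℕ) (s : ℝ) : Summable (fun j : ℕ => if j = k then s else 0) :=
  summable_of_ne_finset_zero (s := {k}) fun j hj => by
    rw [Finset.mem_singleton] at hj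
    simp [hj]

theorem adm_bump {T : ℝ} {t : ℕ → ℝ} (ht : Adm T t) (k : ℕ) {s : ℝ} (hs : 0 ≤ s) :
    Adm (T + s) (bump t k s) := by
  refine ⟨fun j => add_nonneg (ht.nonneg j) (by split_ifs <;> simp [hs]),
    ht.summable.add (summable_ite k s), ?_⟩
  unfold bump
  rw [ht.summable.tsum_add (summable_ite k s), tsum_ite_eq]
  linarith [ht.le]

theorem vt_bump {T : ℝ} {t : ℕ → ℝ} (ht : Adm T t) (k : ℕ) {s : ℝ} (hs : 0 ≤ s) (r : ℝ) :
    vt (bump t k s) r = vt t r + s * G (wid k) r := by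
  unfold bump
  rw [vt_add ht.nonneg ht.summable (fun j => by split_ifs <;> simp [hs]) (summable_ite k s),
    vt_single]

theorem H_block_sum (K : ℝ) (t : ℕ → ℝ) {l : ℕ} (hl : 0 < l) (c ε : ℝ) (hε : ε ≠ 0) {ι : Type}
    [Fintype ι] (x : ι → E) :
    (∑ θ : Fin 3 → Fin l, (1 - ε) / (l : ℝ) ^ 3 *
      H (fun x y => same l (shift θ) x y * (wt K t x y + c)) x) + ε * H (WB K t l c ε) x =
    H (fun x y => wt K t x y + c * qfrac l x y) x := by
  have hl3 : ((l : ℝ) ^ 3) ≠ 0 := by positivity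
  have h1 : ∑ θ : Fin 3 → Fin l, (1 - ε) / (l : ℝ) ^ 3 *
      H (fun x y => same l (shift θ) x y * (wt K t x y + c)) x =
      (∑ i, ∑ j, (1 - ε) * (qfrac l (x i) (x j) * (wt K t (x i) (x j) + c))) / 2 := by
    have h2 : ∀ i j, (1 - ε) * (qfrac l (x i) (x j) * (wt K t (x i) (x j) + c)) =
        ∑ θ : Fin 3 → Fin l, (1 - ε) / (l : ℝ) ^ 3 *
          (same l (shift θ) (x i) (x j) * (wt K t (x i) (x j) + c)) := by
      intro i j
      rw [← Finset.mul_sum, ← Finset.sum_mul, sum_shift_eq]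
      field_simp
    simp_rw [h2]
    rw [Finset.sum_congr rfl fun i _ => Finset.sum_comm, Finset.sum_comm, Finset.sum_div]
    refine Finset.sum_congr rfl fun θ _ => ?_
    unfold H
    simp_rw [← Finset.mul_sum]
    ring
  rw [h1]
  unfold H WB
  rw [← mul_div_assoc, ← add_div, Finset.mul_sum, ← Finset.sum_add_distrib]
  congr 1
  refine Finset.sum_congr rfl fun i _ => ?_
  rw [Finset.mul_sum, ← Finset.sum_add_distrib]
  refine Finset.sum_congr rfl fun j _ => ?_
  field_simp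
  ring

theorem H_bump_le {K T : ℝ} {t : ℕ → ℝ} (ht : Adm T t) {s s' : ℝ} (hs : 0 ≤ s) (k : ℕ)
    {l : ℕ} (hl : 0 < l)
    (hs' : s * (1 + 3 * l / (Real.sqrt Real.pi * wid k)) ^ 3 ≤ s') {ι : Type} [Fintype ι]
    (x : ι → E) :
    H (wt K (bump t k s)) x ≤ H (fun x y => wt K t x y + s' / (l : ℝ) ^ 3 * qfrac l x y) x := by
  have hl0 : (0 : ℝ) < l := by exact_mod_cast hl
  have hl3 : (0 : ℝ) < (l : ℝ) ^ 3 := by positivity
  have hw := one_le_wid k
  -- average of the cell bound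
  have h1 : ∀ θ : Fin 3 → Fin l, s * ∑ i, ∑ j, G (wid k) (dist (x i) (x j)) ≤
      s' / (l : ℝ) ^ 3 * ∑ i, ∑ j, same l (shift θ) (x i) (x j) := by
    intro θ
    have h2 := gauss_cell (L := wid k) (by linarith) hl0 (shift θ) x
    have h3 : 0 ≤ ∑ i, ∑ j, same l (shift θ) (x i) (x j) :=
      Finset.sum_nonneg fun _ _ => Finset.sum_nonneg fun _ _ => same_nonneg _ _ _ _
    calc s * ∑ i, ∑ j, G (wid k) (dist (x i) (x j))
        ≤ s * (((l : ℝ)⁻¹ * (1 + 3 * l / (Real.sqrt Real.pi * wid k))) ^ 3 *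
          ∑ i, ∑ j, same l (shift θ) (x i) (x j)) := mul_le_mul_of_nonneg_left h2 hs
      _ = (s * (1 + 3 * l / (Real.sqrt Real.pi * wid k)) ^ 3) / (l : ℝ) ^ 3 *
          ∑ i, ∑ j, same l (shift θ) (x i) (x j) := by
          rw [mul_pow, inv_pow]
          field_simp
      _ ≤ _ := mul_le_mul_of_nonneg_right (div_le_div_of_nonneg_right hs' hl3.le) h3
  have h2 : s * ∑ i, ∑ j, G (wid k) (dist (x i) (x j)) ≤
      s' / (l : ℝ) ^ 3 * ∑ i, ∑ j, qfrac l (x i) (x j) := by
    have h3 : ∑ _θ : Fin 3 → Fin l, s * ∑ i, ∑ j, G (wid k) (dist (x i) (x j)) ≤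
        ∑ θ : Fin 3 → Fin l, s' / (l : ℝ) ^ 3 * ∑ i, ∑ j, same l (shift θ) (x i) (x j) :=
      Finset.sum_le_sum fun θ _ => h1 θ
    rw [Finset.sum_const, nsmul_eq_mul, ← Finset.mul_sum] at h3
    have h4 : ((Finset.univ : Finset (Fin 3 → Fin l)).card : ℝ) = (l : ℝ) ^ 3 := by simp
    have h5 : ∑ θ : Fin 3 → Fin l, ∑ i, ∑ j, same l (shift θ) (x i) (x j) =
        (l : ℝ) ^ 3 * ∑ i, ∑ j, qfrac l (x i) (x j) := by
      rw [Finset.sum_comm, Finset.mul_sum]
      refine Finset.sum_congr rfl fun i _ => ?_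
      rw [Finset.sum_comm, Finset.mul_sum]
      refine Finset.sum_congr rfl fun j _ => ?_
      rw [sum_shift_eq]
    rw [h4, h5] at h3
    have h6 : (l : ℝ) ^ 3 * (s * ∑ i, ∑ j, G (wid k) (dist (x i) (x j))) ≤
        (l : ℝ) ^ 3 * (s' / (l : ℝ) ^ 3 * ∑ i, ∑ j, qfrac l (x i) (x j)) := by
      refine h3.trans (le_of_eq ?_)
      ring
    exact le_of_mul_le_mul_left h6 hl3
  have h7 : H (wt K (bump t k s)) x = H (wt K t) x +
      (s * ∑ i, ∑ j, G (wid k) (dist (x i) (x j))) / 2 := by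
    rw [H_wt_eq, H_wt_eq]
    simp_rw [vt_bump ht k hs]
    simp_rw [Finset.sum_add_distrib, ← Finset.mul_sum]
    ring
  have h8 : H (fun x y => wt K t x y + s' / (l : ℝ) ^ 3 * qfrac l x y) x = H (wt K t) x +
      (s' / (l : ℝ) ^ 3 * ∑ i, ∑ j, qfrac l (x i) (x j)) / 2 := by
    unfold H
    simp_rw [Finset.sum_add_distrib, ← Finset.mul_sum]
    ring
  rw [h7, h8]
  linarith

theorem decouple {K T : ℝ} (hT : 0 ≤ T) (hK : 64 * (T + 1) + 80 ≤ K) {t : ℕ → ℝ} (ht : Adm T t)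
    {s s' : ℝ} (hs0 : 0 ≤ s) (hs1 : s ≤ 1) (k : ℕ) {l : ℕ} (hl : 0 < l) {ε : ℝ} (hε0 : 0 < ε)
    (hε1 : ε ≤ 1) (hm : mfrac t l ≤ ε) (a : ℝ)
    (hs' : s * (1 + 3 * l / (Real.sqrt Real.pi * wid k)) ^ 3 ≤ s') (hs'2 : s' ≤ 1) :
    press K (bump t k s) a ≤
      lXi (fun x y => wt K t x y + s' / (l : ℝ) ^ 3) (cube l) a / (l : ℝ) ^ 3 +
        ε * Real.exp a := by
  classical
  have hl0 : (0 : ℝ) < l := by exact_mod_cast hl
  have hl1 : (1 : ℝ) ≤ l := by exact_mod_cast hl
  have hl3 : (0 : ℝ) < (l : ℝ) ^ 3 := by positivity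
  have hs'0 : 0 ≤ s' := le_trans (by have := one_le_wid k; positivity) hs'
  set c : ℝ := s' / (l : ℝ) ^ 3 with hc
  have hc0 : 0 ≤ c := by positivity
  set w0 : E → E → ℝ := fun x y => wt K t x y + c with hw0
  have hw0m : Measurable (Function.uncurry w0) :=
    (measurable_wt K ht.nonneg ht.summable).add_const c
  have hw0i : ∀ v x y : E, w0 (x + v) (y + v) = w0 x y := fun v x y => by
    simp only [hw0, wt_translate]
  have hfin0 : Xi w0 (cube l) a ≠ ∞ := by
    refine ne_top_of_le_ne_top ENNReal.ofReal_ne_top (Xi_cube_le hl0.le a fun N x hx => ?_)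
    rw [hw0, H_add_const, Fintype.card_fin]
    have h1 := H_wt_cube_le hT (by linarith : 64 * T + 54 ≤ K) ht hl1 x hx
    have h2 : c * (N : ℝ) ^ 2 / 2 ≤ (N : ℝ) ^ 2 / (l : ℝ) ^ 3 := by
      rw [hc]
      have : s' / (l : ℝ) ^ 3 * (N : ℝ) ^ 2 / 2 = (s' / 2) * ((N : ℝ) ^ 2 / (l : ℝ) ^ 3) := by ring
      rw [this]
      have h3 : 0 ≤ (N : ℝ) ^ 2 / (l : ℝ) ^ 3 := by positivity
      nlinarith
    linarith
  have hT1 : 0 ≤ T + s := by linarith
  have hKs : 64 * (T + s) ≤ K := by nlinarith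
  have hspec := (press_spec hT1 hKs (adm_bump ht k hs0) a).1
  set g : ℝ := lXi w0 (cube l) a with hg
  have hg0 : 0 ≤ g := lXi_nonneg _ _ _
  -- the inequality in finite volume
  have hfv : ∀ n : ℕ, 0 < n → lXi (wt K (bump t k s)) (cube (n * l)) a ≤
      ((n : ℝ) + 2) ^ 3 * g + ε * (Real.exp a * ((n : ℝ) * l) ^ 3) := by
    intro n hn
    let W : Option (Fin 3 → Fin l) → E → E → ℝ := fun i =>
      i.elim (WB K t l c ε) fun θ => fun x y => same l (shift θ) x y * w0 x y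
    let p : Option (Fin 3 → Fin l) → ℝ := fun i => i.elim ε fun _ => (1 - ε) / (l : ℝ) ^ 3
    have hcard : ((Finset.univ : Finset (Fin 3 → Fin l)).card : ℝ) = (l : ℝ) ^ 3 := by simp
    have hp1 : ∑ i, p i = 1 := by
      rw [Fintype.sum_option]
      simp only [p, Option.elim]
      rw [Finset.sum_const, nsmul_eq_mul, hcard]
      field_simp
      ring
    have hWB : ∀ (N : ℕ) (x : Fin N → E), (∀ i, x i ∈ cube ((n : ℝ) * l)) →
        H (WB K t l c ε) x ≤ 0 := fun N x _ =>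
      H_WB_nonpos ht (by linarith) hl hε0 hε1 hm hc0 (by
        rw [hc, div_mul_cancel₀ _ hl3.ne']; linarith) x
    have hnl : (0 : ℝ) ≤ (n : ℝ) * l := by positivity
    have key := lXi_holder (Finset.univ : Finset (Option (Fin 3 → Fin l)))
      (w := wt K (bump t k s)) W (by
        rintro (_ | θ) _
        · exact measurable_WB K ht.nonneg ht.summable l c ε
        · exact measurable_block hw0m _ _) (measurableSet_cube ((n : ℝ) * l)) a (fun _ => a) p
      (by
        rintro (_ | θ) _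
        · exact hε0.le
        · exact div_nonneg (by linarith) hl3.le) hp1
      (by
        rintro (_ | θ) _
        · exact ne_top_of_le_ne_top ENNReal.ofReal_ne_top (Xi_cube_le hnl a hWB)
        · exact (lXi_block_bound hw0m hw0i hl θ a hfin0 n).1)
      (by
        intro N x hx
        have h1 := H_bump_le (K := K) ht hs0 k hl hs' x
        have h2 := H_block_sum K t hl c ε hε0.ne' x
        simp_rw [mul_add]
        rw [Finset.sum_add_distrib, ← Finset.sum_mul, hp1, one_mul, Fintype.sum_option]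
        simp only [p, W, Option.elim]
        have h3 : H (wt K (bump t k s)) x ≤ ε * H (WB K t l c ε) x +
            ∑ θ : Fin 3 → Fin l, (1 - ε) / (l : ℝ) ^ 3 *
              H (fun x y => same l (shift θ) x y * w0 x y) x := by
          rw [add_comm, hw0, h2]
          exact h1
        linarith)
    refine key.trans ?_
    rw [Fintype.sum_option]
    simp only [p, W, Option.elim]
    have h4 : lXi (WB K t l c ε) (cube ((n : ℝ) * l)) a ≤ Real.exp a * ((n : ℝ) * l) ^ 3 :=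
      lXi_cube_le hnl a hWB
    have h5 : ∑ θ : Fin 3 → Fin l, (1 - ε) / (l : ℝ) ^ 3 *
        lXi (fun x y => same l (shift θ) x y * w0 x y) (cube ((n : ℝ) * l)) a ≤
        ((n : ℝ) + 2) ^ 3 * g := by
      calc ∑ θ : Fin 3 → Fin l, (1 - ε) / (l : ℝ) ^ 3 *
          lXi (fun x y => same l (shift θ) x y * w0 x y) (cube ((n : ℝ) * l)) a
          ≤ ∑ _θ : Fin 3 → Fin l, (1 - ε) / (l : ℝ) ^ 3 * (((n : ℝ) + 2) ^ 3 * g) :=
            Finset.sum_le_sum fun θ _ => mul_le_mul_of_nonneg_left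
              (lXi_block_bound hw0m hw0i hl θ a hfin0 n).2 (div_nonneg (by linarith) hl3.le)
        _ = (1 - ε) * (((n : ℝ) + 2) ^ 3 * g) := by
            rw [Finset.sum_const, nsmul_eq_mul, hcard]
            field_simp
        _ ≤ 1 * (((n : ℝ) + 2) ^ 3 * g) :=
            mul_le_mul_of_nonneg_right (by linarith) (by positivity)
        _ = _ := one_mul _
    have h6 := mul_le_mul_of_nonneg_left h4 hε0.le
    linarith
  -- take the limit
  have hseq : Tendsto (fun n : ℕ => (n : ℝ) * l) atTop atTop :=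
    tendsto_natCast_atTop_atTop.atTop_mul_const hl0
  have hlim1 := hspec.comp hseq
  have hlim2 : Tendsto (fun n : ℕ => (((n : ℝ) + 2) / n) ^ 3 * (g / (l : ℝ) ^ 3) +
      ε * Real.exp a) atTop (𝓝 (1 ^ 3 * (g / (l : ℝ) ^ 3) + ε * Real.exp a)) := by
    refine Tendsto.add_const _ (Tendsto.mul_const _ (Tendsto.pow ?_ 3))
    have : Tendsto (fun n : ℕ => 1 + 2 / (n : ℝ)) atTop (𝓝 (1 + 0)) :=
      tendsto_const_nhds.add (tendsto_const_nhds.div_atTop tendsto_natCast_atTop_atTop)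
    rw [add_zero] at this
    refine this.congr' ?_
    filter_upwards [eventually_gt_atTop 0] with n hn
    have : (0 : ℝ) < n := by exact_mod_cast hn
    field_simp
  rw [one_pow, one_mul] at hlim2
  refine le_of_tendsto_of_tendsto hlim1 hlim2 ?_
  filter_upwards [eventually_gt_atTop 0] with n hn
  have hn0 : (0 : ℝ) < n := by exact_mod_cast hn
  simp only [Function.comp]
  rw [div_le_iff₀ (by positivity)]
  refine (hfv n hn).trans (le_of_eq ?_)
  field_simp

end Vale.Agent.P171
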