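import Vale.Agent.P171.Basic
import Vale.Agent.P171.XiBasic
import Vale.Agent.P171.LXi
import Vale.Agent.P171.Gauss
import Vale.Agent.P171.Grid

open MeasureTheory Set Filter Topology
open scoped ENNReal NNReal

namespace Vale.Agent.P171

/-! The potentials. -/

theorem sqrt_pi_gt : (3 : ℝ) / 2 < Real.sqrt Real.pi := by
  rw [Real.lt_sqrt (by norm_num)]
  have := Real.pi_gt_three
  norm_num
  linarith

theorem G_nonneg (L r : ℝ) (hL : 0 ≤ L) : 0 ≤ G L r := by
  unfold G
  positivity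

theorem G_le_one {L r : ℝ} (hL : 1 ≤ L) : G L r ≤ 1 := by
  unfold G
  have h1 : (Real.sqrt Real.pi * L)⁻¹ ≤ 1 := by
    apply inv_le_one_of_one_le₀
    nlinarith [sqrt_pi_gt]
  have h0 : 0 ≤ (Real.sqrt Real.pi * L)⁻¹ := by positivity
  have h2 : ((Real.sqrt Real.pi * L)⁻¹) ^ 3 ≤ 1 := pow_le_one₀ h0 h1
  have h3 : Real.exp (-(r ^ 2 / L ^ 2)) ≤ 1 := Real.exp_le_one_iff.2 (by
    have : 0 ≤ r ^ 2 / L ^ 2 := by positivity
    linarith)
  calc _ ≤ (1 : ℝ) * 1 := mul_le_mul h2 h3 (by positivity) (by norm_num)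
    _ = 1 := one_mul 1

theorem continuous_G (L : ℝ) : Continuous (G L) := by
  unfold G
  fun_prop

/-- width of the `k`-th layer -/
noncomputable def wid (k : ℕ) : ℝ := k + 1

theorem one_le_wid (k : ℕ) : 1 ≤ wid k := by
  unfold wid
  have : (0 : ℝ) ≤ k := Nat.cast_nonneg k
  linarith

/-- attractive part -/
noncomputable def vt (t : ℕ → ℝ) (r : ℝ) : ℝ := ∑' k, t k * G (wid k) r

/-- pair function (minus the potential) -/
noncomputable def wt (K : ℝ) (t : ℕ → ℝ) (x y : E) : ℝ :=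
  vt t (dist x y) - K * (if dist x y < 1 then 1 else 0)

/-- admissible weights -/
structure Adm (T : ℝ) (t : ℕ → ℝ) : Prop where
  nonneg : ∀ k, 0 ≤ t k
  summable : Summable t
  le : ∑' k, t k ≤ T

theorem summable_vt {t : ℕ → ℝ} (h0 : ∀ k, 0 ≤ t k) (hs : Summable t) (r : ℝ) :
    Summable (fun k => t k * G (wid k) r) := by
  refine Summable.of_nonneg_of_le (fun k => mul_nonneg (h0 k) (G_nonneg _ _ (by
    linarith [one_le_wid k]))) (fun k => ?_) hs
  have := G_le_one (r := r) (one_le_wid k)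
  nlinarith [h0 k]

theorem vt_nonneg {t : ℕ → ℝ} (h0 : ∀ k, 0 ≤ t k) (r : ℝ) : 0 ≤ vt t r :=
  tsum_nonneg fun k => mul_nonneg (h0 k) (G_nonneg _ _ (by linarith [one_le_wid k]))

theorem vt_le {t : ℕ → ℝ} (h0 : ∀ k, 0 ≤ t k) (hs : Summable t) (r : ℝ) : vt t r ≤ ∑' k, t k := by
  refine Summable.tsum_le_tsum (fun k => ?_) (summable_vt h0 hs r) hs
  have := G_le_one (r := r) (one_le_wid k)
  nlinarith [h0 k]

theorem vt_mono {t t' : ℕ → ℝ} (h0 : ∀ k, 0 ≤ t k) (hs : Summable t) (h0' : ∀ k, 0 ≤ t' k)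
    (hs' : Summable t') (h : ∀ k, t k ≤ t' k) (r : ℝ) : vt t r ≤ vt t' r := by
  refine Summable.tsum_le_tsum (fun k => ?_) (summable_vt h0 hs r) (summable_vt h0' hs' r)
  exact mul_le_mul_of_nonneg_right (h k) (G_nonneg _ _ (by linarith [one_le_wid k]))

theorem vt_add {t t' : ℕ → ℝ} (h0 : ∀ k, 0 ≤ t k) (hs : Summable t) (h0' : ∀ k, 0 ≤ t' k)
    (hs' : Summable t') (r : ℝ) : vt (fun k => t k + t' k) r = vt t r + vt t' r := by
  unfold vt
  rw [← Summable.tsum_add (summable_vt h0 hs r) (summable_vt h0' hs' r)]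
  refine tsum_congr fun k => ?_
  ring

theorem vt_smul (c : ℝ) (t : ℕ → ℝ) (r : ℝ) : vt (fun k => c * t k) r = c * vt t r := by
  unfold vt
  rw [← tsum_mul_left]
  refine tsum_congr fun k => ?_
  ring

theorem vt_single (k : ℕ) (s : ℝ) (r : ℝ) : vt (fun j => if j = k then s else 0) r =
    s * G (wid k) r := by
  unfold vt
  rw [tsum_eq_single k]
  · simp
  · intro j hj
    simp [hj]

theorem continuous_vt {t : ℕ → ℝ} (h0 : ∀ k, 0 ≤ t k) (hs : Summable t) :
    Continuous (vt t) := by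
  refine continuous_tsum (fun k => (continuous_G _).const_mul _) hs fun k r => ?_
  have h1 := G_le_one (r := r) (one_le_wid k)
  have h2 := G_nonneg (wid k) r (by linarith [one_le_wid k])
  rw [Real.norm_eq_abs, abs_of_nonneg (mul_nonneg (h0 k) h2)]
  nlinarith [h0 k]

theorem measurable_wt (K : ℝ) {t : ℕ → ℝ} (h0 : ∀ k, 0 ≤ t k) (hs : Summable t) :
    Measurable (Function.uncurry (wt K t)) := by
  have h1 : Measurable (fun p : E × E => dist p.1 p.2) := measurable_dist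
  refine Measurable.sub ((continuous_vt h0 hs).measurable.comp h1) ?_
  refine Measurable.const_mul ?_ _
  exact Measurable.ite (measurableSet_lt h1 measurable_const) measurable_const measurable_const

theorem wt_translate (K : ℝ) (t : ℕ → ℝ) (v x y : E) : wt K t (x + v) (y + v) = wt K t x y := by
  unfold wt
  rw [dist_add_right]

theorem wt_symm (K : ℝ) (t : ℕ → ℝ) (x y : E) : wt K t x y = wt K t y x := by
  unfold wt
  rw [dist_comm]

theorem wt_nonneg (K : ℝ) {t : ℕ → ℝ} (h0 : ∀ k, 0 ≤ t k) {x y : E} (h : 1 ≤ dist x y) :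
    0 ≤ wt K t x y := by
  unfold wt
  rw [if_neg (not_lt.2 h)]
  have := vt_nonneg h0 (dist x y)
  linarith

/-- number of ordered pairs in the same half-cell -/
noncomputable def SS {ι : Type} [Fintype ι] (x : ι → E) : ℝ := ∑ i, ∑ j, same (1 / 2) 0 (x i) (x j)

theorem SS_nonneg {ι : Type} [Fintype ι] (x : ι → E) : 0 ≤ SS x :=
  Finset.sum_nonneg fun _ _ => Finset.sum_nonneg fun _ _ => same_nonneg _ _ _ _

theorem card_le_SS {ι : Type} [Fintype ι] (x : ι → E) : (Fintype.card ι : ℝ) ≤ SS x := by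
  classical
  unfold SS
  have : (Fintype.card ι : ℝ) = ∑ i : ι, (1 : ℝ) := by simp
  rw [this]
  refine Finset.sum_le_sum fun i _ => ?_
  have h1 : same (1 / 2) 0 (x i) (x i) = 1 := by simp [same]
  calc (1 : ℝ) = same (1 / 2) 0 (x i) (x i) := h1.symm
    _ ≤ _ := Finset.single_le_sum (f := fun j => same (1 / 2) 0 (x i) (x j))
      (fun j _ => same_nonneg _ _ _ _) (Finset.mem_univ i)

/-- cell bound for one Gaussian, width at least one -/
theorem gauss_SS {L : ℝ} (hL : 1 ≤ L) {ι : Type} [Fintype ι] (x : ι → E) :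
    ∑ i, ∑ j, G L (dist (x i) (x j)) ≤ 64 * SS x := by
  refine (gauss_cell (by linarith) (by norm_num : (0 : ℝ) < 1 / 2) 0 x).trans ?_
  refine mul_le_mul_of_nonneg_right ?_ (SS_nonneg x)
  have h1 : 3 * (1 / 2 : ℝ) / (Real.sqrt Real.pi * L) ≤ 1 := by
    rw [div_le_one (by positivity)]
    nlinarith [sqrt_pi_gt]
  have h2 : ((1 / 2 : ℝ)⁻¹ * (1 + 3 * (1 / 2) / (Real.sqrt Real.pi * L))) ≤ 4 := by
    norm_num at h1 ⊢
    linarith
  have h3 : 0 ≤ ((1 / 2 : ℝ)⁻¹ * (1 + 3 * (1 / 2) / (Real.sqrt Real.pi * L))) := by positivity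
  calc _ ≤ (4 : ℝ) ^ 3 := pow_le_pow_left₀ h3 h2 3
    _ = 64 := by norm_num

/-- general weighted bound -/
theorem sum_tsum_le {t : ℕ → ℝ} (h0 : ∀ k, 0 ≤ t k) (hs : Summable t) {ι : Type} [Fintype ι]
    (x : ι → E) (q : E → E → ℝ) (c : ℕ → ℝ)
    (hc0 : ∀ k, 0 ≤ c k) (hc1 : ∀ k, c k ≤ 1)
    (h : ∀ k, ∑ i, ∑ j, q (x i) (x j) * G (wid k) (dist (x i) (x j)) ≤ c k * (64 * SS x)) :
    ∑ i, ∑ j, q (x i) (x j) * vt t (dist (x i) (x j)) ≤ (∑' k, t k * c k) * (64 * SS x) := by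
  have e1 : ∀ i j, q (x i) (x j) * vt t (dist (x i) (x j)) =
      ∑' k, t k * (q (x i) (x j) * G (wid k) (dist (x i) (x j))) := by
    intro i j
    unfold vt
    rw [← tsum_mul_left]
    refine tsum_congr fun k => ?_
    ring
  have hsum : ∀ i j, Summable (fun k => t k * (q (x i) (x j) * G (wid k) (dist (x i) (x j)))) := by
    intro i j
    have := (summable_vt h0 hs (dist (x i) (x j))).mul_left (q (x i) (x j))
    refine this.congr fun k => ?_
    ring
  simp_rw [e1]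
  rw [← tsum_mul_right]
  have e2 : ∑ i, ∑ j, ∑' k, t k * (q (x i) (x j) * G (wid k) (dist (x i) (x j))) =
      ∑' k, t k * ∑ i, ∑ j, (q (x i) (x j) * G (wid k) (dist (x i) (x j))) := by
    rw [← Finset.sum_congr rfl fun i _ => Summable.tsum_finsetSum fun j _ => hsum i j]
    rw [← Summable.tsum_finsetSum fun i _ => summable_sum fun j _ => hsum i j]
    refine tsum_congr fun k => ?_
    simp_rw [Finset.mul_sum]
  rw [e2]
  have hst : Summable (fun k => t k * c k) := by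
    refine Summable.of_nonneg_of_le (fun k => mul_nonneg (h0 k) (hc0 k)) (fun k => ?_) hs
    nlinarith [h0 k, hc1 k]
  refine Summable.tsum_le_tsum (fun k => ?_) ?_ ?_
  · calc t k * ∑ i, ∑ j, (q (x i) (x j) * G (wid k) (dist (x i) (x j)))
        ≤ t k * (c k * (64 * SS x)) := mul_le_mul_of_nonneg_left (h k) (h0 k)
      _ = t k * c k * (64 * SS x) := by ring
  · have : Summable (fun k => ∑ i, ∑ j, t k * (q (x i) (x j) * G (wid k) (dist (x i) (x j)))) :=
      summable_sum fun i _ => summable_sum fun j _ => hsum i j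
    refine this.congr fun k => ?_
    simp_rw [Finset.mul_sum]
  · exact hst.mul_right _

theorem sum_vt_le {t : ℕ → ℝ} (h0 : ∀ k, 0 ≤ t k) (hs : Summable t) {ι : Type} [Fintype ι]
    (x : ι → E) :
    ∑ i, ∑ j, vt t (dist (x i) (x j)) ≤ (∑' k, t k) * (64 * SS x) := by
  have := sum_tsum_le h0 hs x (fun _ _ => 1)
    (fun _ => 1) (fun _ => zero_le_one) (fun _ => le_rfl) (fun k => by
      simpa using gauss_SS (one_le_wid k) x)
  simpa using this

theorem core_ge {ι : Type} [Fintype ι] (x : ι → E) :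
    SS x ≤ ∑ i, ∑ j, (if dist (x i) (x j) < 1 then (1 : ℝ) else 0) := by
  unfold SS
  refine Finset.sum_le_sum fun i _ => Finset.sum_le_sum fun j _ => ?_
  unfold same
  split_ifs with h1 h2
  · exact le_rfl
  · exact absurd (dist_lt_one_of_same h1) h2
  · exact zero_le_one
  · exact le_rfl

/-- Superstability. -/
theorem H_wt_le {K T : ℝ} (hK : 0 ≤ K) {t : ℕ → ℝ} (ht : Adm T t) {ι : Type} [Fintype ι]
    (x : ι → E) : H (wt K t) x ≤ -((K - 64 * T) / 2 * SS x) := by
  unfold H wt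
  simp_rw [Finset.sum_sub_distrib, ← Finset.mul_sum]
  have h1 := sum_vt_le ht.nonneg ht.summable x
  have h2 := core_ge x
  have h3 : (∑' k, t k) * (64 * SS x) ≤ T * (64 * SS x) :=
    mul_le_mul_of_nonneg_right ht.le (by have := SS_nonneg x; linarith)
  have h4 := mul_le_mul_of_nonneg_left h2 hK
  linarith

end Vale.Agent.P171
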