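import Vale.Agent.P171.Basic
import Vale.Agent.P171.XiBasic
import Vale.Agent.P171.LXi
import Vale.Agent.P171.Fact

open MeasureTheory Set Filter Topology
open scoped ENNReal NNReal

namespace Vale.Agent.P171

theorem abs_coord_le_dist (x y : E) (α : Fin 3) : |x α - y α| ≤ dist x y := by
  rw [dist_eq_norm]
  have := PiLp.norm_apply_le (x - y) α
  simpa using this

/-- translation vectors -/
noncomputable def tvec (l : ℝ) {n : ℕ} (c : Fin 3 → Fin n) : E :=
  WithLp.toLp 2 (fun α => ((c α : ℕ) : ℝ) * (l + 1))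

theorem Xi_super {w : E → E → ℝ} (hw : Measurable (Function.uncurry w))
    (hinv : ∀ v x y : E, w (x + v) (y + v) = w x y) (hpos : ∀ x y : E, 1 ≤ dist x y → 0 ≤ w x y)
    (a : ℝ) {l : ℝ} (hl : 0 ≤ l) (n : ℕ) {L : ℝ} (hL : n * (l + 1) ≤ L) :
    (Xi w (cube l) a) ^ (n ^ 3) ≤ Xi w (cube L) a := by
  classical
  let D : (Fin 3 → Fin n) → Set E := fun c => (fun x => x + tvec l c) '' cube l
  have hDm : ∀ c, MeasurableSet (D c) := fun c =>
    (MeasurableEquiv.addRight (tvec l c)).measurableSet_image.2 (measurableSet_cube l)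
  have hcoord : ∀ c, ∀ x ∈ D c, ∀ α, ((c α : ℕ) : ℝ) * (l + 1) ≤ x α ∧
      x α ≤ ((c α : ℕ) : ℝ) * (l + 1) + l := by
    rintro c _ ⟨x, hx, rfl⟩ α
    have h := hx α
    have e : (x + tvec l c) α = x α + ((c α : ℕ) : ℝ) * (l + 1) := by simp [tvec]
    rw [e]
    exact ⟨by linarith [h.1], by linarith [h.2]⟩
  have hdist : ∀ c d, c ≠ d → ∀ x ∈ D c, ∀ y ∈ D d, 1 ≤ dist x y := by
    intro c d hcd x hx y hy
    obtain ⟨α, hα⟩ := Function.ne_iff.1 hcd
    have h1 := hcoord c x hx α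
    have h2 := hcoord d y hy α
    refine le_trans ?_ (abs_coord_le_dist x y α)
    have hne : (c α : ℕ) ≠ (d α : ℕ) := fun h => hα (Fin.ext h)
    rcases lt_or_gt_of_ne hne with h | h
    · have h3 : ((c α : ℕ) : ℝ) + 1 ≤ ((d α : ℕ) : ℝ) := by exact_mod_cast h
      rw [abs_sub_comm]
      refine le_trans ?_ (le_abs_self _)
      nlinarith
    · have h3 : ((d α : ℕ) : ℝ) + 1 ≤ ((c α : ℕ) : ℝ) := by exact_mod_cast h
      refine le_trans ?_ (le_abs_self _)
      nlinarith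
  have hdisj : ∀ c ∈ (Finset.univ : Finset (Fin 3 → Fin n)), ∀ d ∈
      (Finset.univ : Finset (Fin 3 → Fin n)), c ≠ d → Disjoint (D c) (D d) := by
    intro c _ d _ hcd
    rw [Set.disjoint_left]
    intro x hx hy
    have := hdist c d hcd x hx x hy
    rw [dist_self] at this
    linarith
  have h1 := Xi_biUnion_ge w hw (Finset.univ : Finset (Fin 3 → Fin n)) D (fun c _ => hDm c) hdisj
    (fun c _ d _ hcd x hx y hy => hpos x y (hdist c d hcd x hx y hy)) a
  have h2 : ∀ c ∈ (Finset.univ : Finset (Fin 3 → Fin n)), Xi w (D c) a = Xi w (cube l) a :=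
    fun c _ => Xi_translate w hinv (measurableSet_cube l) _ a
  rw [Finset.prod_congr rfl h2, Finset.prod_const] at h1
  have h3 : (Finset.univ : Finset (Fin 3 → Fin n)).card = n ^ 3 := by simp
  rw [h3] at h1
  refine h1.trans (Xi_mono (Finset.measurableSet_biUnion _ fun c _ => hDm c) ?_
    fun _ _ _ => le_rfl)
  intro x hx
  simp only [Set.mem_iUnion] at hx
  obtain ⟨c, _, hx⟩ := hx
  intro α
  have h := hcoord c x hx α
  have h4 : ((c α : ℕ) : ℝ) + 1 ≤ n := by exact_mod_cast (c α).2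
  have h5 : (0 : ℝ) ≤ ((c α : ℕ) : ℝ) := Nat.cast_nonneg _
  constructor
  · exact le_trans (by positivity) h.1
  · nlinarith [h.2]

/-- Superadditivity: `n^3` translates of `cube l` at mutual distance at least one inside
`cube (n (l+1))`. -/
theorem lXi_super {w : E → E → ℝ} (hw : Measurable (Function.uncurry w))
    (hinv : ∀ v x y : E, w (x + v) (y + v) = w x y) (hpos : ∀ x y : E, 1 ≤ dist x y → 0 ≤ w x y)
    (hneg : ∀ (N : ℕ) (x : Fin N → E), H w x ≤ 0) (a : ℝ) {l : ℝ} (hl : 0 ≤ l) (n : ℕ) {L : ℝ}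
    (hL : n * (l + 1) ≤ L) :
    (n : ℝ) ^ 3 * lXi w (cube l) a ≤ lXi w (cube L) a := by
  have hL0 : 0 ≤ L := le_trans (by positivity) hL
  have hfin : Xi w (cube L) a ≠ ∞ :=
    ne_top_of_le_ne_top ENNReal.ofReal_ne_top (Xi_cube_le hL0 a fun N x _ => hneg N x)
  have h := ENNReal.toReal_mono hfin (Xi_super hw hinv hpos a hl n hL)
  rw [ENNReal.toReal_pow] at h
  have hfin' : Xi w (cube l) a ≠ ∞ :=
    ne_top_of_le_ne_top ENNReal.ofReal_ne_top (Xi_cube_le hl a fun N x _ => hneg N x)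
  have h1 := one_le_toReal_Xi hfin'
  have h2 := Real.log_le_log (by positivity) h
  rw [Real.log_pow] at h2
  unfold lXi
  push_cast at h2
  exact h2

/-- Existence of the thermodynamic limit. -/
theorem thermo {w : E → E → ℝ} (hw : Measurable (Function.uncurry w))
    (hinv : ∀ v x y : E, w (x + v) (y + v) = w x y) (hpos : ∀ x y : E, 1 ≤ dist x y → 0 ≤ w x y)
    (hneg : ∀ (N : ℕ) (x : Fin N → E), H w x ≤ 0) (a : ℝ) :
    ∃ P : ℝ, Tendsto (fun l : ℝ => lXi w (cube l) a / l ^ 3) atTop (𝓝 P) ∧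
      (∀ l : ℝ, 0 ≤ l → lXi w (cube l) a ≤ (l + 1) ^ 3 * P) ∧ P ≤ Real.exp a := by
  set f : ℝ → ℝ := fun l => lXi w (cube l) a with hf
  have hf0 : ∀ l, 0 ≤ f l := fun l => lXi_nonneg _ _ _
  have hfle : ∀ l, 0 ≤ l → f l ≤ Real.exp a * l ^ 3 := fun l hl =>
    lXi_cube_le hl a fun N x _ => hneg N x
  have hfsup : ∀ (l : ℝ), 0 ≤ l → ∀ (n : ℕ) (L : ℝ), n * (l + 1) ≤ L →
      (n : ℝ) ^ 3 * f l ≤ f L := fun l hl n L hL => lXi_super hw hinv hpos hneg a hl n hL
  set S : Set ℝ := (fun l => f l / (l + 1) ^ 3) '' Ici 0 with hS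
  have hSle : ∀ y ∈ S, y ≤ Real.exp a := by
    rintro _ ⟨l, hl, rfl⟩
    have hl' : (0 : ℝ) ≤ l := hl
    rw [div_le_iff₀ (by positivity)]
    refine (hfle l hl').trans (mul_le_mul_of_nonneg_left ?_ (Real.exp_nonneg a))
    exact pow_le_pow_left₀ hl' (by linarith) 3
  have hSne : S.Nonempty := ⟨_, 0, self_mem_Ici, rfl⟩
  have hSbdd : BddAbove S := ⟨Real.exp a, hSle⟩
  set P := sSup S with hP
  have hPle : P ≤ Real.exp a := csSup_le hSne hSle
  have hfP : ∀ l : ℝ, 0 ≤ l → f l ≤ (l + 1) ^ 3 * P := by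
    intro l hl
    have h1 : f l / (l + 1) ^ 3 ≤ P := le_csSup hSbdd ⟨l, hl, rfl⟩
    rw [div_le_iff₀ (by positivity)] at h1
    linarith
  refine ⟨P, ?_, hfP, hPle⟩
  rw [tendsto_order]
  constructor
  · intro b hb
    obtain ⟨_, ⟨l, hl, rfl⟩, hbl⟩ := exists_lt_of_lt_csSup hSne hb
    have hl' : (0 : ℝ) ≤ l := hl
    have hlim : Tendsto (fun L : ℝ => (1 / (l + 1) - 1 / L) ^ 3 * f l) atTop
        (𝓝 ((1 / (l + 1) - 0) ^ 3 * f l)) := by
      refine Tendsto.mul_const _ (Tendsto.pow (tendsto_const_nhds.sub ?_) 3)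
      exact tendsto_const_nhds.div_atTop tendsto_id
    have hlt : b < (1 / (l + 1) - 0) ^ 3 * f l := by
      have : (1 / (l + 1) - 0) ^ 3 * f l = f l / (l + 1) ^ 3 := by
        rw [sub_zero, div_pow, one_pow]; ring
      rw [this]
      exact hbl
    filter_upwards [hlim.eventually_const_lt hlt, eventually_ge_atTop (l + 1)] with L hL1 hL2
    have hL0 : 0 < L := by linarith
    refine lt_of_lt_of_le hL1 ?_
    rw [le_div_iff₀ (by positivity)]
    have h1 := hfsup l hl' ⌊L / (l + 1)⌋₊ L (by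
      have := Nat.floor_le (show 0 ≤ L / (l + 1) by positivity)
      rwa [le_div_iff₀ (by positivity)] at this)
    refine le_trans ?_ h1
    have h2 : L / (l + 1) - 1 ≤ ⌊L / (l + 1)⌋₊ := by
      have := Nat.lt_floor_add_one (L / (l + 1))
      linarith
    have h3 : 0 ≤ L / (l + 1) - 1 := by
      rw [sub_nonneg, one_le_div (by positivity)]
      exact hL2
    have h4 : (1 / (l + 1) - 1 / L) ^ 3 * f l * L ^ 3 = (L / (l + 1) - 1) ^ 3 * f l := by
      have : L / (l + 1) - 1 = (1 / (l + 1) - 1 / L) * L := by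
        field_simp
      rw [this]
      ring
    rw [h4]
    exact mul_le_mul_of_nonneg_right (pow_le_pow_left₀ h3 h2 3) (hf0 l)
  · intro b hb
    have hlim : Tendsto (fun L : ℝ => (1 + 1 / L) ^ 3 * P) atTop (𝓝 ((1 + 0) ^ 3 * P)) := by
      refine Tendsto.mul_const _ (Tendsto.pow (tendsto_const_nhds.add ?_) 3)
      exact tendsto_const_nhds.div_atTop tendsto_id
    have hlt : (1 + 0) ^ 3 * P < b := by linarith
    filter_upwards [hlim.eventually_lt_const hlt, eventually_gt_atTop 0] with L hL1 hL0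
    refine lt_of_le_of_lt ?_ hL1
    rw [div_le_iff₀ (by positivity)]
    refine (hfP L hL0.le).trans (le_of_eq ?_)
    have : L + 1 = (1 + 1 / L) * L := by field_simp
    rw [this]
    ring

end Vale.Agent.P171
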