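import Vale.Agent.P171.Pot
import Vale.Agent.P171.Thermo

open MeasureTheory Set Filter Topology
open scoped ENNReal NNReal

namespace Vale.Agent.P171

/-- the pressure as a function of the weights and the chemical potential -/
noncomputable def press (K : ℝ) (t : ℕ → ℝ) (a : ℝ) : ℝ :=
  limUnder atTop (fun l : ℝ => lXi (wt K t) (cube l) a / l ^ 3)

theorem H_wt_nonpos {K T : ℝ} (hT : 0 ≤ T) (hK : 64 * T ≤ K) {t : ℕ → ℝ} (ht : Adm T t) {ι : Type}
    [Fintype ι] (x : ι → E) : H (wt K t) x ≤ 0 := by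
  have h1 := H_wt_le (by linarith : 0 ≤ K) ht x
  have h2 := SS_nonneg x
  have h3 : 0 ≤ (K - 64 * T) / 2 * SS x := mul_nonneg (by linarith) h2
  linarith

theorem press_spec {K T : ℝ} (hT : 0 ≤ T) (hK : 64 * T ≤ K) {t : ℕ → ℝ} (ht : Adm T t) (a : ℝ) :
    Tendsto (fun l : ℝ => lXi (wt K t) (cube l) a / l ^ 3) atTop (𝓝 (press K t a)) ∧
      (∀ l : ℝ, 0 ≤ l → lXi (wt K t) (cube l) a ≤ (l + 1) ^ 3 * press K t a) ∧
      press K t a ≤ Real.exp a := by
  obtain ⟨P, h1, h2, h3⟩ := thermo (w := wt K t) (measurable_wt K ht.nonneg ht.summable)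
    (wt_translate K t) (fun x y h => wt_nonneg K ht.nonneg h)
    (fun N x => H_wt_nonpos hT hK ht x) a
  have : press K t a = P := h1.limUnder_eq
  rw [this]
  exact ⟨h1, h2, h3⟩

theorem Xi_wt_ne_top {K T : ℝ} (hT : 0 ≤ T) (hK : 64 * T ≤ K) {t : ℕ → ℝ} (ht : Adm T t) (a : ℝ)
    {l : ℝ} (hl : 0 ≤ l) : Xi (wt K t) (cube l) a ≠ ∞ :=
  ne_top_of_le_ne_top ENNReal.ofReal_ne_top
    (Xi_cube_le hl a fun _ x _ => H_wt_nonpos hT hK ht x)

theorem press_nonneg {K T : ℝ} (hT : 0 ≤ T) (hK : 64 * T ≤ K) {t : ℕ → ℝ} (ht : Adm T t) (a : ℝ) :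
    0 ≤ press K t a := by
  have h := (press_spec hT hK ht a).2.1 0 le_rfl
  have h2 := lXi_nonneg (wt K t) (cube 0) a
  norm_num at h
  linarith

theorem H_single {w : E → E → ℝ} (x : Fin 1 → E) : H w x = w (x 0) (x 0) / 2 := by
  simp [H]

/-- one-particle lower bound for the unit cube -/
theorem press_lower_one {K T : ℝ} (hT : 0 ≤ T) (hK : 64 * T ≤ K) {t : ℕ → ℝ} (ht : Adm T t)
    (a : ℝ) : Real.log (1 + Real.exp (a - K / 2)) ≤ 8 * press K t a := by
  have h := (press_spec hT hK ht a).2.1 1 zero_le_one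
  norm_num at h
  refine le_trans ?_ h
  have hfin := Xi_wt_ne_top hT hK ht a zero_le_one
  unfold lXi
  refine Real.log_le_log (by positivity) ?_
  have h1 : ENNReal.ofReal (1 + Real.exp (a - K / 2)) ≤ Xi (wt K t) (cube 1) a := by
    unfold Xi
    have h2 := ENNReal.sum_le_tsum (f := fun N : ℕ =>
      ENNReal.ofReal (Real.exp (a * N) / (N.factorial : ℝ)) * Q (wt K t) (cube 1) (Fin N))
      (Finset.range 2)
    refine le_trans ?_ h2
    rw [Finset.sum_range_succ, Finset.sum_range_one]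
    rw [ENNReal.ofReal_add zero_le_one (by positivity)]
    refine add_le_add ?_ ?_
    · simp [Q_fin_zero]
    · have h3 : ENNReal.ofReal (Real.exp (-(K / 2))) ≤ Q (wt K t) (cube 1) (Fin 1) := by
        unfold Q
        have h4 : ∫⁻ x in Set.univ.pi (fun _ : Fin 1 => cube 1),
            ENNReal.ofReal (Real.exp (-(K / 2))) = ENNReal.ofReal (Real.exp (-(K / 2))) := by
          rw [setLIntegral_const, volume_pi_pi]
          simp [volume_cube zero_le_one]
        rw [← h4]
        refine lintegral_mono fun x => ?_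
        refine ENNReal.ofReal_le_ofReal (Real.exp_le_exp.2 ?_)
        rw [H_single]
        unfold wt
        rw [dist_self, if_pos one_pos]
        have := vt_nonneg ht.nonneg 0
        linarith
      calc ENNReal.ofReal (Real.exp (a - K / 2))
          = ENNReal.ofReal (Real.exp (a * (1 : ℕ)) / ((1 : ℕ).factorial : ℝ)) *
            ENNReal.ofReal (Real.exp (-(K / 2))) := by
            rw [← ENNReal.ofReal_mul (by positivity)]
            congr 1
            simp only [Nat.cast_one, mul_one, Nat.factorial_one, div_one]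
            rw [← Real.exp_add]
            congr 1
        _ ≤ _ := mul_le_mul_right h3 _
  have h5 := ENNReal.toReal_mono hfin h1
  rwa [ENNReal.toReal_ofReal (by positivity)] at h5

theorem press_pos {K T : ℝ} (hT : 0 ≤ T) (hK : 64 * T ≤ K) {t : ℕ → ℝ} (ht : Adm T t)
    (a : ℝ) : 0 < press K t a := by
  have h := press_lower_one hT hK ht a
  have h2 : 0 < Real.log (1 + Real.exp (a - K / 2)) := Real.log_pos (by
    have := Real.exp_pos (a - K / 2)
    linarith)
  linarith

theorem press_lower_lin {K T : ℝ} (hT : 0 ≤ T) (hK : 64 * T ≤ K) {t : ℕ → ℝ} (ht : Adm T t)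
    (a : ℝ) : (a - K / 2) / 8 ≤ press K t a := by
  have h := press_lower_one hT hK ht a
  have h2 : a - K / 2 ≤ Real.log (1 + Real.exp (a - K / 2)) := by
    rw [Real.le_log_iff_exp_le (by positivity)]
    linarith
  linarith

theorem adm_zero {T : ℝ} (hT : 0 ≤ T) : Adm T (fun _ => 0) :=
  ⟨fun _ => le_rfl, summable_zero, by simpa using hT⟩

theorem adm_mono {T T' : ℝ} (h : T ≤ T') {t : ℕ → ℝ} (ht : Adm T t) : Adm T' t :=
  ⟨ht.nonneg, ht.summable, ht.le.trans h⟩

/-- upper bound for the pressure without attraction -/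
theorem press_zero_le {K : ℝ} (hK : 0 ≤ K) (a : ℝ) :
    press K (fun _ => 0) a ≤ Real.exp (a - K / 2) := by
  have h := (press_spec le_rfl (by simpa using hK) (adm_zero le_rfl) a).1
  refine le_of_tendsto h ?_
  filter_upwards [eventually_gt_atTop 0] with l hl
  rw [div_le_iff₀ (by positivity)]
  refine lXi_le_iff ?_
  have hv : volume (cube l) ≠ ∞ := by rw [volume_cube hl.le]; exact ENNReal.ofReal_ne_top
  have h2 := Xi_zero_const hv (a - K / 2)
  rw [volume_cube hl.le, ENNReal.toReal_ofReal (by positivity)] at h2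
  rw [← h2]
  refine Xi_mono (measurableSet_cube l) subset_rfl fun N x hx => ?_
  have h3 : H (fun _ _ => (0 : ℝ)) x = 0 := by simp [H]
  rw [h3]
  have h4 := H_wt_le hK (adm_zero le_rfl) x
  have h5 := card_le_SS x
  have h6 : (K / 2) * (Fintype.card (Fin N) : ℝ) ≤ K / 2 * SS x :=
    mul_le_mul_of_nonneg_left h5 (by linarith)
  simp at h4 h6
  nlinarith

end Vale.Agent.P171
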