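import Vale.Agent.P171.MainStep

open MeasureTheory Set Filter Topology
open scoped ENNReal NNReal

namespace Vale.Agent.P171

theorem tendsto_mfrac {t : ℕ → ℝ} (h0 : ∀ k, 0 ≤ t k) (hs : Summable t) :
    Tendsto (fun l : ℕ => mfrac t l) atTop (𝓝 0) := by
  have h : Tendsto (fun l : ℕ => ∑' k, t k * min 1 (48 * wid k / l)) atTop
      (𝓝 (∑' _k : ℕ, (0 : ℝ))) := by
    refine tendsto_tsum_of_dominated_convergence hs (fun k => ?_) ?_
    · have h1 : Tendsto (fun l : ℕ => 48 * wid k / (l : ℝ)) atTop (𝓝 0) :=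
        tendsto_const_nhds.div_atTop tendsto_natCast_atTop_atTop
      have h2 : Tendsto (fun l : ℕ => min 1 (48 * wid k / (l : ℝ))) atTop (𝓝 (min 1 0)) :=
        tendsto_const_nhds.min h1
      have h3 := h2.const_mul (t k)
      simpa using h3
    · filter_upwards with l k
      have hw := one_le_wid k
      have h1 : 0 ≤ min 1 (48 * wid k / (l : ℝ)) := le_min zero_le_one (by positivity)
      have h2 : min 1 (48 * wid k / (l : ℝ)) ≤ 1 := min_le_left _ _
      rw [Real.norm_eq_abs, abs_of_nonneg (mul_nonneg (h0 k) h1)]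
      nlinarith [h0 k]
  rw [tsum_zero] at h
  exact h

theorem tendsto_ratio : Tendsto (fun l : ℕ => ((l : ℝ) + 1) / l) atTop (𝓝 1) := by
  have : Tendsto (fun n : ℕ => 1 + 1 / (n : ℝ)) atTop (𝓝 (1 + 0)) :=
    tendsto_const_nhds.add (tendsto_const_nhds.div_atTop tendsto_natCast_atTop_atTop)
  rw [add_zero] at this
  refine this.congr' ?_
  filter_upwards [eventually_gt_atTop 0] with n hn
  have : (0 : ℝ) < n := by exact_mod_cast hn
  field_simp

theorem tendsto_log_term (R : ℝ) (hR : 0 ≤ R) :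
    Tendsto (fun l : ℕ => Real.log (R * (l : ℝ) ^ 3 + 2) / (l : ℝ) ^ 3) atTop (𝓝 0) := by
  -- compare with log ((R+2) * l^3) / l^3
  have h1 : Tendsto (fun x : ℝ => Real.log x / x) atTop (𝓝 0) := by
    have := Real.isLittleO_log_id_atTop.tendsto_div_nhds_zero
    simpa using this
  have h2 : Tendsto (fun l : ℕ => (R + 2) * (l : ℝ) ^ 3) atTop atTop :=
    ((tendsto_pow_atTop (by norm_num)).comp tendsto_natCast_atTop_atTop).const_mul_atTop
      (by linarith)
  have h3 := (h1.comp h2).mul_const (R + 2)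
  rw [zero_mul] at h3
  refine squeeze_zero' ?_ ?_ h3
  · filter_upwards [eventually_gt_atTop 0] with l hl
    have : (0 : ℝ) < l := by exact_mod_cast hl
    refine div_nonneg (Real.log_nonneg ?_) (by positivity)
    have : 0 ≤ R * (l : ℝ) ^ 3 := by positivity
    linarith
  · filter_upwards [eventually_gt_atTop 0] with l hl
    have hl0 : (0 : ℝ) < l := by exact_mod_cast hl
    have hl1 : (1 : ℝ) ≤ l := by exact_mod_cast hl
    have hl3 : (1 : ℝ) ≤ (l : ℝ) ^ 3 := one_le_pow₀ hl1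
    simp only [Function.comp]
    have h4 : Real.log ((R + 2) * (l : ℝ) ^ 3) / ((R + 2) * (l : ℝ) ^ 3) * (R + 2) =
        Real.log ((R + 2) * (l : ℝ) ^ 3) / (l : ℝ) ^ 3 := by
      field_simp
    rw [h4]
    refine div_le_div_of_nonneg_right (Real.log_le_log (by positivity) ?_) (by positivity)
    nlinarith

theorem main_step {K T : ℝ} (hT : 0 ≤ T) (hK : 64 * (T + 1) + 80 ≤ K) {t : ℕ → ℝ} (ht : Adm T t)
    (a : ℝ) {ρ h₀ : ℝ} (hh₀ : 0 < h₀)
    (hP : ∀ h ∈ Icc 0 h₀, press K t (a + h) ≤ press K t a + h * ρ) :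
    ∃ s₀ : ℝ, 0 < s₀ ∧ ∀ s : ℝ, 0 < s → s ≤ s₀ → ∀ η : ℝ, 0 < η →
      ∃ k : ℕ, press K (bump t k s) a ≤ press K t a + s * ρ ^ 2 / 2 + η := by
  have hKT : 64 * T ≤ K := by linarith
  have hPpos := press_pos hT hKT ht a
  set P := press K t a with hPdef
  obtain ⟨R, hR0, hR⟩ : ∃ R : ℝ, 0 ≤ R ∧ Real.exp (a - R / 2) ≤ P := by
    refine ⟨max 0 (2 * (a - Real.log P)), le_max_left _ _, ?_⟩
    rw [← Real.le_log_iff_exp_le hPpos]
    have := le_max_right 0 (2 * (a - Real.log P))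
    linarith
  refine ⟨min (1 / 2) (h₀ / (2 * (R + 1))), by positivity, fun s hs0 hs1 η hη => ?_⟩
  have hs2 : s ≤ 1 / 2 := hs1.trans (min_le_left _ _)
  have hs3 : s * (2 * (R + 1)) ≤ h₀ := by
    have := hs1.trans (min_le_right _ _)
    rwa [le_div_iff₀ (by positivity)] at this
  -- choose s'
  obtain ⟨s', hss', hs'2, hs'η⟩ : ∃ s' : ℝ, s < s' ∧ s' ≤ 2 * s ∧ (s' - s) * ρ ^ 2 / 2 ≤ η / 2 := by
    refine ⟨s + min s (η / (ρ ^ 2 + 1)), by
      have : 0 < min s (η / (ρ ^ 2 + 1)) := by positivity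
      linarith, by
      have := min_le_left s (η / (ρ ^ 2 + 1))
      linarith, ?_⟩
    have h1 := min_le_right s (η / (ρ ^ 2 + 1))
    have h2 : (s + min s (η / (ρ ^ 2 + 1)) - s) * ρ ^ 2 ≤ η / (ρ ^ 2 + 1) * ρ ^ 2 := by
      rw [add_sub_cancel_left]
      exact mul_le_mul_of_nonneg_right h1 (sq_nonneg ρ)
    have h3 : η / (ρ ^ 2 + 1) * ρ ^ 2 ≤ η := by
      rw [div_mul_eq_mul_div, div_le_iff₀ (by positivity)]
      nlinarith
    linarith
  have hs'0 : 0 < s' := hs0.trans hss'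
  have hs'1 : s' ≤ 1 := by linarith
  have hs'R : s' * R ≤ h₀ := by nlinarith
  -- choose ε
  set ε : ℝ := min 1 (η / (2 * (1 + Real.exp a))) with hε
  have hε0 : 0 < ε := by positivity
  have hε1 : ε ≤ 1 := min_le_left _ _
  have hεη : ε * (1 + Real.exp a) ≤ η / 2 := by
    have := min_le_right 1 (η / (2 * (1 + Real.exp a)))
    calc ε * (1 + Real.exp a) ≤ η / (2 * (1 + Real.exp a)) * (1 + Real.exp a) :=
          mul_le_mul_of_nonneg_right this (by positivity)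
      _ = η / 2 := by
          have := Real.exp_pos a
          field_simp
  -- large l
  have hlim : Tendsto (fun l : ℕ => Real.log (R * (l : ℝ) ^ 3 + 2) / (l : ℝ) ^ 3 +
      ((((l : ℝ) + 1) / l) ^ 3 * P + s' * ρ ^ 2 * ((((l : ℝ) + 1) / l) ^ 3) ^ 2 / 2)) atTop
      (𝓝 (0 + (1 ^ 3 * P + s' * ρ ^ 2 * (1 ^ 3) ^ 2 / 2))) := by
    refine (tendsto_log_term R hR0).add (Tendsto.add (Tendsto.mul_const _ (tendsto_ratio.pow 3)) ?_)
    exact ((tendsto_ratio.pow 3).pow 2).const_mul _ |>.div_const _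
  have hlt : 0 + (1 ^ 3 * P + s' * ρ ^ 2 * (1 ^ 3) ^ 2 / 2) < P + s' * ρ ^ 2 / 2 + ε := by
    linarith
  have hev := (hlim.eventually_lt_const hlt).and
    (((tendsto_mfrac ht.nonneg ht.summable).eventually_lt_const hε0).and (eventually_gt_atTop 0))
  obtain ⟨l, hl1, hl2, hl3⟩ := hev.exists
  have hl0 : (0 : ℝ) < l := by exact_mod_cast hl3
  have hl1' : (1 : ℝ) ≤ l := by exact_mod_cast hl3
  -- choose k
  have hklim : Tendsto (fun k : ℕ => s * (1 + 3 * l / (Real.sqrt Real.pi * wid k)) ^ 3) atTop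
      (𝓝 (s * (1 + 0) ^ 3)) := by
    refine Tendsto.const_mul _ (Tendsto.pow (Tendsto.const_add _ ?_) 3)
    refine tendsto_const_nhds.div_atTop ?_
    refine Tendsto.const_mul_atTop (by positivity) ?_
    unfold wid
    exact tendsto_atTop_add_const_right _ _ tendsto_natCast_atTop_atTop
  have hklt : s * (1 + 0) ^ 3 < s' := by
    norm_num
    exact hss'
  obtain ⟨k, hk⟩ := (hklim.eventually_lt_const hklt).exists
  refine ⟨k, ?_⟩
  have h1 := decouple hT hK ht hs0.le (by linarith) k hl3 hε0 hε1 hl2.le a hk.le hs'1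
  have h2 := mean_field hT (by linarith : 64 * T + 54 ≤ K) ht a hP hR0 hR hs'0.le hs'1 hs'R hl1'
  have h3 : lXi (fun x y => wt K t x y + s' / (l : ℝ) ^ 3) (cube l) a / (l : ℝ) ^ 3 ≤
      Real.log (R * (l : ℝ) ^ 3 + 2) / (l : ℝ) ^ 3 +
      ((((l : ℝ) + 1) / l) ^ 3 * P + s' * ρ ^ 2 * ((((l : ℝ) + 1) / l) ^ 3) ^ 2 / 2) := by
    rw [div_le_iff₀ (by positivity)]
    refine h2.trans (le_of_eq ?_)
    rw [← hPdef]
    field_simp
  have h4 : s' * ρ ^ 2 / 2 = s * ρ ^ 2 / 2 + (s' - s) * ρ ^ 2 / 2 := by ring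
  nlinarith

end Vale.Agent.P171
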