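import Mathlib

open MeasureTheory Set Filter Topology

namespace Vale.Agent.P171

/-- Euclidean three-space. -/
abbrev E := EuclideanSpace ℝ (Fin 3)

/-- The cube `[0,L]^3`. -/
def cube (L : ℝ) : Set E := {p | ∀ i, p i ∈ Icc (0 : ℝ) L}

/-- Potential energy `∑_{i<j} φ(|x_i - x_j|)` of `N` particles. -/
noncomputable def energy (φ : ℝ → ℝ) {N : ℕ} (x : Fin N → E) : ℝ :=
  ∑ i, ∑ j ∈ Finset.Ioi i, φ (dist (x i) (x j))

/-- Boltzmann factor `exp(-β U_N)`. -/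
noncomputable def boltz (φ : ℝ → ℝ) (β : ℝ) {N : ℕ} (x : Fin N → E) : ℝ :=
  Real.exp (-(β * energy φ x))

/-- Configurations of `N` particles in the cube `[0,L]^3`. -/
def conf (L : ℝ) (N : ℕ) : Set (Fin N → E) := {x | ∀ i, x i ∈ cube L}

/-- The canonical partition function `Z_{L,N}(β) = (1/N!) ∫_{Λ_L^N} exp(-β U_N)`. -/
noncomputable def Z (φ : ℝ → ℝ) (β L : ℝ) (N : ℕ) : ℝ :=
  (∫ x in conf L N, boltz φ β x) / (N.factorial : ℝ)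

/-- The grand canonical partition function `∑_N z^N Z_{L,N}(β)`. -/
noncomputable def grand (φ : ℝ → ℝ) (β L z : ℝ) : ℝ := ∑' N : ℕ, z ^ N * Z φ β L N

/-- Stability: `U_N ≥ -B N` for all configurations of distinct points. -/
def Stable (φ : ℝ → ℝ) : Prop :=
  ∃ B : ℝ, ∀ (N : ℕ) (x : Fin N → E), Function.Injective x → -(B * N) ≤ energy φ x

/-- Temperedness: `φ(r) ≤ C r^{-3-ε}` for all `r ≥ R₀`. -/
def Tempered (φ : ℝ → ℝ) : Prop :=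
  ∃ C ε R₀ : ℝ, 0 < C ∧ 0 < ε ∧ 0 < R₀ ∧ ∀ r : ℝ, R₀ ≤ r → φ r ≤ C * r ^ (-3 - ε)

/-- Local boundedness on `(0,∞)`. -/
def LocBounded (φ : ℝ → ℝ) : Prop :=
  ∀ a b : ℝ, 0 < a → ∃ M : ℝ, ∀ r ∈ Icc a b, |φ r| ≤ M

/-- `p` is `Π(β,z) = lim_{L→∞} L⁻³ log ∑_N z^N Z_{L,N}(β)`; all the integrals and the series are
required to be genuinely convergent. -/
def HasPressure (φ : ℝ → ℝ) (β z p : ℝ) : Prop :=
  (∀ L : ℝ, 0 < L → ∀ N : ℕ, IntegrableOn (boltz φ β) (conf L N)) ∧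
  (∀ L : ℝ, 0 < L → Summable (fun N : ℕ => z ^ N * Z φ β L N)) ∧
  Tendsto (fun L : ℝ => Real.log (grand φ β L z) / L ^ 3) atTop (𝓝 p)

end Vale.Agent.P171
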