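import Vale.Agent.P171.Step
import Vale.Agent.P171.Lower
import Vale.Agent.P171.Ekeland

open MeasureTheory Set Filter Topology
open scoped ENNReal NNReal

namespace Vale.Agent.P171

/-- the space of absolutely summable sequences -/
abbrev L1 := lp (fun _ : ℕ => ℝ) 1

theorem L1_summable (f : L1) : Summable (fun k => |f k|) := by
  have h := lp.memℓp f
  rw [memℓp_gen_iff (by norm_num)] at h
  simpa using h

theorem L1_norm (f : L1) : ‖f‖ = ∑' k, |f k| := by
  rw [lp.norm_eq_tsum_rpow (by norm_num)]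
  simp

theorem adm_of_L1 {T : ℝ} {f : L1} (h0 : ∀ k, 0 ≤ f k) (h : ‖f‖ ≤ T) : Adm T (fun k => f k) := by
  have hs := L1_summable f
  have e : (fun k => |f k|) = fun k => f k := funext fun k => abs_of_nonneg (h0 k)
  refine ⟨h0, by rwa [e] at hs, ?_⟩
  rw [L1_norm] at h
  simpa [e] using h

theorem tsum_eq_norm {f : L1} (h0 : ∀ k, 0 ≤ f k) : ∑' k, f k = ‖f‖ := by
  rw [L1_norm]
  exact tsum_congr fun k => (abs_of_nonneg (h0 k)).symm

/-- numerical constants -/
noncomputable def KK : ℝ := 70000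

noncomputable def TT : ℝ := 1001

/-- the domain of the variational problem -/
abbrev Dom := {p : L1 × ℝ // (∀ k, 0 ≤ p.1 k) ∧ ‖p.1‖ ≤ TT}

theorem continuous_coord (k : ℕ) : Continuous (fun f : L1 => f k) :=
  (lp.uniformContinuous_coe (p := 1)).continuous |> fun h => (continuous_apply k).comp h

theorem isClosed_dom : IsClosed {p : L1 × ℝ | (∀ k, 0 ≤ p.1 k) ∧ ‖p.1‖ ≤ TT} := by
  have h1 : IsClosed {p : L1 × ℝ | ∀ k, 0 ≤ p.1 k} := by
    have : {p : L1 × ℝ | ∀ k, 0 ≤ p.1 k} = ⋂ k, {p : L1 × ℝ | 0 ≤ p.1 k} := by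
      ext p; simp
    rw [this]
    exact isClosed_iInter fun k =>
      isClosed_le continuous_const ((continuous_coord k).comp continuous_fst)
  have h2 : IsClosed {p : L1 × ℝ | ‖p.1‖ ≤ TT} :=
    isClosed_le (continuous_norm.comp continuous_fst) continuous_const
  exact h1.inter h2

instance : CompleteSpace Dom := isClosed_dom.completeSpace_coe

theorem dom_adm (p : Dom) : Adm TT (fun k => p.1.1 k) := adm_of_L1 p.2.1 p.2.2

/-- the functional -/
noncomputable def F (p : Dom) : ℝ :=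
  press KK (fun k => p.1.1 k) p.1.2 - (p.1.2 - KK / 2) / 16 - ‖p.1.1‖ / 256

theorem TT_nonneg : 0 ≤ TT := by unfold TT; norm_num

theorem KK_ge : 64 * (TT + 1) + 80 ≤ KK := by unfold TT KK; norm_num

theorem KK_ge' : 64 * TT ≤ KK := by unfold TT KK; norm_num

theorem F_nonneg (p : Dom) : 0 ≤ F p := by
  unfold F
  have h1 := press_lower TT_nonneg KK_ge' (dom_adm p) p.1.2
  have h2 := press_nonneg TT_nonneg KK_ge' (dom_adm p) p.1.2
  rw [tsum_eq_norm p.2.1] at h1
  linarith

theorem F_lsc : LowerSemicontinuous F := by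
  intro p y hy
  obtain ⟨δ, hδ0, hδ1, hδ⟩ : ∃ δ : ℝ, 0 < δ ∧ δ ≤ 1 ∧
      δ * (Real.exp (p.1.2 + 2) + 1 / 16 + 1 / 256) < F p - y := by
    set c := Real.exp (p.1.2 + 2) + 1 / 16 + 1 / 256 with hc
    have hc0 : 0 < c := by positivity
    refine ⟨min 1 ((F p - y) / (2 * c)), ?_, min_le_left _ _, ?_⟩
    · have : 0 < (F p - y) / (2 * c) := by
        apply div_pos <;> linarith
      positivity
    · calc min 1 ((F p - y) / (2 * c)) * c ≤ (F p - y) / (2 * c) * c :=
          mul_le_mul_of_nonneg_right (min_le_right _ _) hc0.le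
        _ = (F p - y) / 2 := by field_simp
        _ < F p - y := by linarith
  have hball : Metric.ball p δ ∈ 𝓝 p := Metric.ball_mem_nhds p hδ0
  filter_upwards [hball] with q hq
  have hd : dist q.1 p.1 < δ := hq
  rw [Prod.dist_eq, max_lt_iff] at hd
  have hd1 : ‖q.1.1 - p.1.1‖ < δ := by rw [← dist_eq_norm]; exact hd.1
  have hd2 : |q.1.2 - p.1.2| < δ := by rw [← Real.dist_eq]; exact hd.2
  have hd3 : ∑' k, |p.1.1 k - q.1.1 k| ≤ δ := by
    have h1 : ‖p.1.1 - q.1.1‖ = ∑' k, |p.1.1 k - q.1.1 k| := by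
      rw [L1_norm]
      rfl
    rw [← h1, norm_sub_rev]
    exact hd1.le
  have ha := abs_lt.1 hd2
  have hlip := press_lip TT_nonneg (by have := KK_ge; linarith : 64 * (TT + 1) ≤ KK) (dom_adm p)
    (dom_adm q) hδ0 hδ1 hd3 (a := p.1.2) (a' := q.1.2) (by linarith [ha.1])
  have hexp : Real.exp (q.1.2 + 1) ≤ Real.exp (p.1.2 + 2) :=
    Real.exp_le_exp.2 (by linarith [ha.2])
  have hexp2 : δ * Real.exp (q.1.2 + 1) ≤ δ * Real.exp (p.1.2 + 2) :=
    mul_le_mul_of_nonneg_left hexp hδ0.le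
  have hnorm : ‖q.1.1‖ ≤ ‖p.1.1‖ + δ := by
    have := norm_sub_norm_le q.1.1 p.1.1
    linarith
  unfold F at hδ ⊢
  nlinarith [ha.1, ha.2]

/-- starting point -/
noncomputable def x0 : Dom := ⟨(0, KK / 2), by
  refine ⟨fun k => ?_, ?_⟩
  · simp
  · simp only [norm_zero]
    exact TT_nonneg⟩

theorem F_x0 : F x0 ≤ 1 := by
  unfold F x0
  have h := press_zero_le (by unfold KK; norm_num : (0 : ℝ) ≤ KK) (KK / 2)
  simp only [norm_zero, sub_self, Real.exp_zero] at h ⊢
  have e : (fun k => (0 : L1) k) = fun _ => (0 : ℝ) := by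
    funext k
    simp
  rw [e]
  linarith

theorem exists_nondiff : ∃ (t : ℕ → ℝ) (a : ℝ), Adm TT t ∧
    ¬ DifferentiableAt ℝ (press KK t) a := by
  obtain ⟨p, hp1, hp2⟩ := ekeland F F_lsc 0 F_nonneg x0 (by norm_num : (0 : ℝ) < 1 / 1000)
  have hF0 := F_nonneg p
  have hFx0 := F_x0
  have hdist : dist p x0 ≤ 1000 := by linarith
  have hnorm : ‖p.1.1‖ ≤ 1000 := by
    have h1 : dist p.1.1 (0 : L1) ≤ dist p x0 := by
      rw [Subtype.dist_eq, Prod.dist_eq]
      exact le_max_left _ _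
    rw [dist_zero_right] at h1
    linarith
  set t : ℕ → ℝ := fun k => p.1.1 k with ht
  set a : ℝ := p.1.2 with ha
  have hadm : Adm TT t := dom_adm p
  have hadm' : Adm 1000 t := adm_of_L1 p.2.1 hnorm
  refine ⟨t, a, hadm, fun hdiff => ?_⟩
  -- the slope in the chemical potential
  have hslope : ∀ h : ℝ, press KK t a + h / 16 - |h| / 1000 ≤ press KK t (a + h) := by
    intro h
    have h1 := hp2 ⟨(p.1.1, a + h), p.2⟩
    have h2 : dist (⟨(p.1.1, a + h), p.2⟩ : Dom) p = |h| := by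
      rw [Subtype.dist_eq, Prod.dist_eq, dist_self, Real.dist_eq]
      simp [ha]
    rw [h2] at h1
    unfold F at h1
    simp only [← ha, ← ht] at h1
    linarith
  have hderiv := hdiff.hasDerivAt
  set ρ := deriv (press KK t) a with hρ
  have hρle : ρ ≤ 1 / 16 + 1 / 1000 := by
    have h1 : Tendsto (fun h : ℝ => h⁻¹ * (press KK t (a + h) - press KK t a)) (𝓝[<] 0) (𝓝 ρ) := by
      have := hderiv.tendsto_slope_zero_left
      simpa using this
    refine le_of_tendsto h1 ?_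
    filter_upwards [self_mem_nhdsWithin] with h hh
    have hh' : h < 0 := hh
    have h2 := hslope h
    rw [abs_of_neg hh'] at h2
    have h3 : h * (1 / 16 + 1 / 1000) ≤ press KK t (a + h) - press KK t a := by linarith
    calc h⁻¹ * (press KK t (a + h) - press KK t a) ≤ h⁻¹ * (h * (1 / 16 + 1 / 1000)) :=
          mul_le_mul_of_nonpos_left h3 (inv_nonpos.2 hh'.le)
      _ = 1 / 16 + 1 / 1000 := by rw [← mul_assoc, inv_mul_cancel₀ hh'.ne, one_mul]
  -- linear upper bound to the right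
  obtain ⟨h₀, hh₀, hP⟩ : ∃ h₀ : ℝ, 0 < h₀ ∧ ∀ h ∈ Icc 0 h₀,
      press KK t (a + h) ≤ press KK t a + h * (1 / 16 + 2 / 1000) := by
    have h1 : Tendsto (fun h : ℝ => h⁻¹ * (press KK t (a + h) - press KK t a)) (𝓝[>] 0) (𝓝 ρ) := by
      have := hderiv.tendsto_slope_zero_right
      simpa using this
    have h2 := h1.eventually_lt_const (show ρ < 1 / 16 + 2 / 1000 by linarith)
    rw [eventually_nhdsWithin_iff, Metric.eventually_nhds_iff] at h2
    obtain ⟨δ, hδ, h3⟩ := h2
    refine ⟨δ / 2, by linarith, fun h hh => ?_⟩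
    rcases hh.1.eq_or_lt with h0 | h0
    · rw [← h0]; simp
    · have h4 := h3 (y := h) (by rw [Real.dist_eq, sub_zero, abs_of_pos h0]; linarith [hh.2]) h0
      rw [inv_mul_lt_iff₀ h0] at h4
      linarith
  obtain ⟨s₀, hs₀, hstep⟩ := main_step (by norm_num : (0 : ℝ) ≤ 1000)
    (by unfold KK; norm_num : 64 * ((1000 : ℝ) + 1) + 80 ≤ KK) hadm' a hh₀ hP
  set s : ℝ := min s₀ 1 with hs
  have hs0 : 0 < s := by positivity
  have hs1 : s ≤ 1 := min_le_right _ _
  obtain ⟨k, hk⟩ := hstep s hs0 (min_le_left _ _) (s / 10000) (by positivity)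
  -- Ekeland in the direction of the layer k
  let f : L1 := p.1.1 + lp.single 1 k s
  have hf : ∀ j, f j = bump t k s j := by
    intro j
    simp only [f, bump, lp.coeFn_add, Pi.add_apply, lp.coeFn_single, Pi.single_apply, ht]
  have hfadm : Adm (1000 + s) (bump t k s) := adm_bump hadm' k hs0.le
  have hf0 : ∀ j, 0 ≤ f j := fun j => by rw [hf]; exact hfadm.nonneg j
  have hfnorm : ‖f‖ = ‖p.1.1‖ + s := by
    rw [← tsum_eq_norm hf0, ← tsum_eq_norm p.2.1]
    simp_rw [hf]
    unfold bump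
    rw [hadm.summable.tsum_add (summable_ite k s), tsum_ite_eq]
  have h1 := hp2 ⟨(f, a), hf0, by
    show ‖f‖ ≤ TT
    rw [hfnorm]; unfold TT; linarith⟩
  have h2 : dist (⟨(f, a), hf0, by
      show ‖f‖ ≤ TT
      rw [hfnorm]; unfold TT; linarith⟩ : Dom) p = s := by
    rw [Subtype.dist_eq, Prod.dist_eq]
    have e1 : dist f p.1.1 = s := by
      rw [dist_eq_norm]
      simp only [f, add_sub_cancel_left]
      rw [lp.norm_single (by norm_num)]
      simp [abs_of_pos hs0]
    have e2 : dist a p.1.2 = 0 := by rw [ha]; exact dist_self _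
    rw [e1, e2]
    exact max_eq_left hs0.le
  rw [h2] at h1
  unfold F at h1
  simp only [← ha, ← ht, hfnorm] at h1
  have e3 : (fun j => f j) = bump t k s := funext hf
  rw [e3] at h1
  nlinarith

end Vale.Agent.P171
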